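import Crest.Agent.R52.Selector

/-! Rounding fractional covers (Talagrand's conjecture, S0071). -/

set_option autoImplicit false

namespace Crest.Agent.R52
open Finset

section
variable {α : Type} [Fintype α] [DecidableEq α] {m : ℕ}

/-- The vertex weight induced by a fractional cover inside `H`. -/
noncomputable def lamOf (g : Finset α → ℝ) (H : Finset α) (x : α) : ℝ :=
  ∑ S ∈ H.powerset.filter (fun S => x ∈ S), g S / S.card

omit [Fintype α] in
theorem sum_mul_lamOf (g : Finset α → ℝ) (H : Finset α) (f : α → ℝ) :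
    ∑ x ∈ H, f x * lamOf g H x = ∑ S ∈ H.powerset, g S / S.card * ∑ x ∈ S, f x := by
  unfold lamOf
  simp_rw [Finset.sum_filter, Finset.mul_sum]
  rw [Finset.sum_comm]
  refine Finset.sum_congr rfl fun S hS => ?_
  have hS' : S ⊆ H := Finset.mem_powerset.mp hS
  rw [← Finset.sum_subset hS']
  · exact Finset.sum_congr rfl fun x hx => by simp [hx, mul_comm]
  · intro x _ hx; simp [hx]

omit [Fintype α] in
theorem feas_zero_bound (g : Finset α → ℝ) (hg : ∀ S, 0 ≤ g S) (H : Finset α)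
    (τ : α → Fin (m + 1)) (hF : Feas (lamOf g) H τ (fun _ => 0)) :
    ∑ x ∈ H, ((τ x : ℕ) : ℝ) * lamOf g H x ≤ ∑ x ∈ H, 1 * lamOf g H x := by
  have hl : ∀ x, 0 ≤ lamOf g H x := fun x =>
    Finset.sum_nonneg fun S _ => div_nonneg (hg S) (Nat.cast_nonneg _)
  have hT : 0 ≤ ∑ x ∈ H, 1 * lamOf g H x := Finset.sum_nonneg fun x _ => by simpa using hl x
  have hlev : ∀ i < m, ∑ x ∈ H, (if i < (τ x : ℕ) then (2 : ℝ) ^ (i + 1) else 0) * lamOf g H x
      ≤ ∑ x ∈ H, 1 * lamOf g H x := by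
    intro i hi
    refine layer_cake H H _ _ _ _ (fun x _ => hl x) (fun x _ => hl x) fun c _ => ?_
    have h1 : ((lvl (lamOf g) H c).filter (fun x => i < (τ x : ℕ))).card * 2 ^ (i + 1)
        ≤ (lvl (lamOf g) H c).card := by
      rcases hF i hi c with h | h
      · rw [h]; simp
      · rw [mul_comm]; simpa using h
    have h2 : (((lvl (lamOf g) H c).filter (fun x => i < (τ x : ℕ))).card : ℝ) * 2 ^ (i + 1)
        ≤ (lvl (lamOf g) H c).card := by exact_mod_cast h1
    convert h2 using 1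
    · rw [← Finset.sum_filter, ← Finset.sum_filter, Finset.sum_const, nsmul_eq_mul]; rfl
    · rw [← Finset.sum_filter, Finset.sum_const, nsmul_eq_mul, mul_one]; rfl
  have e1 : ∀ x, ((τ x : ℕ) : ℝ) = ∑ i ∈ Finset.range m,
      (1 / 2 : ℝ) ^ (i + 1) * (if i < (τ x : ℕ) then (2 : ℝ) ^ (i + 1) else 0) := by
    intro x
    have : ∀ i, (1 / 2 : ℝ) ^ (i + 1) * (if i < (τ x : ℕ) then (2 : ℝ) ^ (i + 1) else 0)
        = if i < (τ x : ℕ) then 1 else 0 := by
      intro i; split_ifs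
      · rw [← mul_pow]; norm_num
      · simp
    simp_rw [this]
    rw [← Finset.sum_filter, Finset.sum_const, nsmul_eq_mul, mul_one]
    congr 1
    have : (Finset.range m).filter (fun i => i < (τ x : ℕ)) = Finset.range (τ x) := by
      ext i; simp only [mem_filter, mem_range]; have := (τ x).2; omega
    rw [this, Finset.card_range]
  calc ∑ x ∈ H, ((τ x : ℕ) : ℝ) * lamOf g H x
      = ∑ i ∈ Finset.range m, (1 / 2 : ℝ) ^ (i + 1) * ∑ x ∈ H,
          (if i < (τ x : ℕ) then (2 : ℝ) ^ (i + 1) else 0) * lamOf g H x := by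
        simp_rw [e1, Finset.sum_mul, Finset.mul_sum]
        rw [Finset.sum_comm]
        exact Finset.sum_congr rfl fun i _ => Finset.sum_congr rfl fun x _ => by ring
    _ ≤ ∑ i ∈ Finset.range m, (1 / 2 : ℝ) ^ (i + 1) * ∑ x ∈ H, 1 * lamOf g H x :=
        Finset.sum_le_sum fun i hi => mul_le_mul_of_nonneg_left
          (hlev i (Finset.mem_range.mp hi)) (by positivity)
    _ ≤ _ := by
        rw [← Finset.sum_mul]
        refine mul_le_of_le_one_left hT ?_
        have := sum_geometric_two_le m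
        simp_rw [pow_succ]
        rw [← Finset.sum_mul]
        linarith

/-- The first-moment statistic. -/
noncomputable def statY (g : Finset α → ℝ) (τ : α → Fin (m + 1)) : ℝ :=
  ∑ S ∈ (univ : Finset (Finset α)).erase ∅, g S * ∏ x ∈ S, (256 / 16 ^ (τ x : ℕ) : ℝ)

theorem statY_nonneg (g : Finset α → ℝ) (hg : ∀ S, 0 ≤ g S) (τ : α → Fin (m + 1)) :
    0 ≤ statY g τ :=
  Finset.sum_nonneg fun S _ => mul_nonneg (hg S) (Finset.prod_nonneg fun x _ => by positivity)

theorem statY_ge (g : Finset α → ℝ) (hg : ∀ S, 0 ≤ g S) (H : Finset α)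
    (hH : 1 / 2 ≤ ∑ S ∈ H.powerset.erase ∅, g S)
    (τ : α → Fin (m + 1)) (hF : Feas (lamOf g) H τ (fun _ => 0)) : 1 / 4 ≤ statY g τ := by
  have h1 := feas_zero_bound g hg H τ hF
  rw [sum_mul_lamOf, sum_mul_lamOf, ← Finset.add_sum_erase _ _ (Finset.empty_mem_powerset H),
    ← Finset.add_sum_erase _ _ (Finset.empty_mem_powerset H)] at h1
  simp only [Finset.sum_empty, mul_zero, zero_add] at h1
  have h2 : ∑ S ∈ H.powerset.erase ∅, g S / S.card * ∑ x ∈ S, (1 : ℝ)
      = ∑ S ∈ H.powerset.erase ∅, g S := by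
    refine Finset.sum_congr rfl fun S hS => ?_
    have : (S.card : ℝ) ≠ 0 := by
      have := (Finset.mem_erase.mp hS).1
      simpa using this
    simp [this]
  rw [h2] at h1
  have h3 : ∀ S ∈ H.powerset.erase ∅,
      g S - 1 / 2 * (g S / S.card * ∑ x ∈ S, ((τ x : ℕ) : ℝ))
        ≤ g S * ∏ x ∈ S, (256 / 16 ^ (τ x : ℕ) : ℝ) := by
    intro S hS
    have hc : (0 : ℝ) < S.card := by
      have := (Finset.mem_erase.mp hS).1
      exact_mod_cast Finset.card_pos.mpr (Finset.nonempty_iff_ne_empty.mpr this)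
    have hP : 0 ≤ ∏ x ∈ S, (256 / 16 ^ (τ x : ℕ) : ℝ) :=
      Finset.prod_nonneg fun x _ => by positivity
    have hgS := hg S
    by_cases hle : ∑ x ∈ S, (τ x : ℕ) ≤ 2 * S.card
    · have : 1 ≤ ∏ x ∈ S, (256 / 16 ^ (τ x : ℕ) : ℝ) := by
        rw [Finset.prod_div_distrib, Finset.prod_const, Finset.prod_pow_eq_pow_sum,
          one_le_div (by positivity)]
        calc (16 : ℝ) ^ (∑ x ∈ S, (τ x : ℕ)) ≤ 16 ^ (2 * S.card) :=
              pow_le_pow_right₀ (by norm_num) hle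
          _ = 256 ^ S.card := by rw [pow_mul]; norm_num
      have h4 : 0 ≤ g S / S.card * ∑ x ∈ S, ((τ x : ℕ) : ℝ) :=
        mul_nonneg (div_nonneg hgS hc.le) (Finset.sum_nonneg fun _ _ => Nat.cast_nonneg _)
      nlinarith
    · have h5 : (2 : ℝ) * S.card ≤ ∑ x ∈ S, ((τ x : ℕ) : ℝ) := by
        have := (not_le.mp hle).le
        exact_mod_cast this
      have h6 : g S / S.card * (2 * S.card) ≤ g S / S.card * ∑ x ∈ S, ((τ x : ℕ) : ℝ) :=
        mul_le_mul_of_nonneg_left h5 (div_nonneg hgS hc.le)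
      have h7 : g S / S.card * (2 * S.card) = 2 * g S := by field_simp
      have := mul_nonneg hgS hP
      linarith
  have h4 := Finset.sum_le_sum h3
  rw [Finset.sum_sub_distrib, ← Finset.mul_sum] at h4
  have h5 : ∑ S ∈ H.powerset.erase ∅, g S * ∏ x ∈ S, (256 / 16 ^ (τ x : ℕ) : ℝ) ≤ statY g τ :=
    Finset.sum_le_sum_of_subset_of_nonneg (Finset.erase_subset_erase _ (Finset.subset_univ _))
      fun S _ _ => mul_nonneg (hg S) (Finset.prod_nonneg fun x _ => by positivity)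
  linarith

theorem expect_statY (g : Finset α → ℝ) (π : Fin (m + 1) → ℝ) (hπ1 : ∑ l, π l = 1) :
    ∑ τ : α → Fin (m + 1), (∏ x, π (τ x)) * statY g τ
      = ∑ S ∈ (univ : Finset (Finset α)).erase ∅,
        g S * (∑ l : Fin (m + 1), π l * (256 / 16 ^ (l : ℕ))) ^ S.card := by
  unfold statY
  simp_rw [Finset.mul_sum]
  rw [Finset.sum_comm]
  refine Finset.sum_congr rfl fun S _ => ?_
  have e1 : ∀ τ : α → Fin (m + 1), (∏ x, π (τ x)) * (g S * ∏ x ∈ S, (256 / 16 ^ (τ x : ℕ) : ℝ))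
      = g S * ∏ x, (π (τ x) * if x ∈ S then (256 / 16 ^ (τ x : ℕ) : ℝ) else 1) := by
    intro τ
    rw [Finset.prod_mul_distrib, Finset.prod_ite_mem, Finset.univ_inter]; ring
  simp_rw [e1]
  rw [← Finset.mul_sum, ← Fintype.piFinset_univ,
    ← Finset.prod_univ_sum (fun _ => univ)
      (fun x (l : Fin (m + 1)) => π l * if x ∈ S then (256 / 16 ^ (l : ℕ) : ℝ) else 1)]
  congr 1
  rw [← Finset.prod_const, ← Finset.univ_inter S, ← Finset.prod_ite_mem, Finset.univ_inter]
  refine Finset.prod_congr rfl fun x _ => ?_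
  split_ifs <;> simp [hπ1]

/-- Rounding theorem. -/
theorem round_cover (F : Finset (Finset α)) (hempty : ∅ ∉ F) (r : ℝ) (hr0 : 0 ≤ r) (hr1 : r ≤ 1)
    (g : Finset α → ℝ) (hg : ∀ S, 0 ≤ g S) (hcov : ∀ H ∈ F, 1 ≤ ∑ S ∈ H.powerset, g S)
    (hcost : ∑ S : Finset α, g S * r ^ S.card ≤ 1 / 2) (p : ℝ) (hp0 : 0 ≤ p)
    (hp : p * 10000000 ≤ r) :
    ∃ G : Finset (Finset α), (∀ H ∈ F, ∃ S ∈ G, S ⊆ H) ∧ ∑ S ∈ G, p ^ S.card ≤ 1 / 2 := by
  classical
  rcases hr0.eq_or_lt with rfl | hr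
  · have : p = 0 := by linarith
    subst this
    refine ⟨F, fun H hH => ⟨H, hH, le_rfl⟩, ?_⟩
    rw [Finset.sum_eq_zero]
    · norm_num
    · intro S hS
      refine zero_pow ?_
      rw [Ne, Finset.card_eq_zero]
      rintro rfl; exact hempty hS
  have hsplit := Finset.add_sum_erase _ (fun S : Finset α => g S * r ^ S.card) (mem_univ ∅)
  simp only [Finset.card_empty, pow_zero, mul_one] at hsplit
  have hrest : 0 ≤ ∑ S ∈ (univ : Finset (Finset α)).erase ∅, g S * r ^ S.card :=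
    Finset.sum_nonneg fun S _ => mul_nonneg (hg S) (pow_nonneg hr0 _)
  have hg0 := hg ∅
  have hhalf : ∀ H ∈ F, 1 / 2 ≤ ∑ S ∈ H.powerset.erase ∅, g S := by
    intro H hH
    have := hcov H hH
    rw [← Finset.add_sum_erase _ _ (Finset.empty_mem_powerset H)] at this
    linarith
  set π0 : ℝ := r / 20480 with hπ0
  have hπ0pos : 0 < π0 := by positivity
  obtain ⟨m, hm1, hm2⟩ := exists_nat_pow_near (x := 1 / π0) (y := 8)
    (by rw [le_div_iff₀ hπ0pos]; linarith) (by norm_num)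
  rw [le_div_iff₀ hπ0pos] at hm1
  rw [div_lt_iff₀ hπ0pos] at hm2
  have hgeo : ∀ k : ℕ, ∑ i ∈ Finset.range k, π0 * 8 ^ i ≤ π0 * 8 ^ k := by
    intro k
    induction k with
    | zero => simp [hπ0pos.le]
    | succ k ih =>
      rw [Finset.sum_range_succ, pow_succ]
      have : 0 < π0 * 8 ^ k := by positivity
      nlinarith
  let π : Fin (m + 1) → ℝ := fun l =>
    if (l : ℕ) < m then π0 * 8 ^ (l : ℕ) else 1 - ∑ i ∈ Finset.range m, π0 * 8 ^ i
  have hπ : ∀ l, 0 ≤ π l := by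
    intro l; simp only [π]; split_ifs
    · positivity
    · have := hgeo m; linarith
  have hπ1 : ∑ l, π l = 1 := by
    rw [Fin.sum_univ_castSucc]
    simp only [π, Fin.val_castSucc, Fin.is_lt, if_true, Fin.val_last, lt_irrefl, if_false]
    rw [Finset.sum_range (fun i => π0 * 8 ^ i)]; ring
  have hκ : ∑ l : Fin (m + 1), π l * (256 / 16 ^ (l : ℕ)) ≤ r / 8 := by
    rw [Fin.sum_univ_castSucc]
    simp only [π, Fin.val_castSucc, Fin.is_lt, if_true, Fin.val_last, lt_irrefl, if_false]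
    have e1 : ∑ i : Fin m, π0 * 8 ^ (i : ℕ) * (256 / 16 ^ (i : ℕ)) ≤ 512 * π0 := by
      have : ∀ i : ℕ, π0 * 8 ^ i * (256 / 16 ^ i) = 256 * π0 * (1 / 2) ^ i := by
        intro i
        have : (16 : ℝ) ^ i = 8 ^ i * 2 ^ i := by rw [← mul_pow]; norm_num
        rw [this, one_div_pow]; field_simp
      simp_rw [this]
      rw [← Finset.mul_sum, ← Finset.sum_range (fun i => ((1 : ℝ) / 2) ^ i)]
      have := sum_geometric_two_le m
      nlinarith
    have e2 : (1 - ∑ i ∈ Finset.range m, π0 * 8 ^ i) * (256 / 16 ^ m) ≤ 2048 * π0 := by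
      have h1 : 0 ≤ ∑ i ∈ Finset.range m, π0 * 8 ^ i := Finset.sum_nonneg fun _ _ => by positivity
      have h2 : (256 : ℝ) / 16 ^ m ≤ 2048 * π0 := by
        rw [div_le_iff₀ (by positivity)]
        have : (8 : ℝ) ^ m ≤ 16 ^ m := pow_le_pow_left₀ (by norm_num) (by norm_num) _
        rw [pow_succ] at hm2
        nlinarith
      have h3 : (0 : ℝ) ≤ 256 / 16 ^ m := by positivity
      nlinarith
    linarith
  have hκ0 : 0 ≤ ∑ l : Fin (m + 1), π l * (256 / 16 ^ (l : ℕ)) :=
    Finset.sum_nonneg fun l _ => mul_nonneg (hπ l) (by positivity)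
  have hEY : ∑ τ : α → Fin (m + 1), (∏ x, π (τ x)) * statY g τ ≤ 1 / 16 := by
    rw [expect_statY g π hπ1]
    calc _ ≤ ∑ S ∈ (univ : Finset (Finset α)).erase ∅, 1 / 8 * (g S * r ^ S.card) := by
          refine Finset.sum_le_sum fun S hS => ?_
          have hc : S.card ≠ 0 := by simpa using (Finset.mem_erase.mp hS).1
          have h1 := pow_le_pow_left₀ hκ0 hκ S.card
          have h2 : (r / 8) ^ S.card ≤ 1 / 8 * r ^ S.card := by
            rw [div_eq_mul_one_div, mul_pow, mul_comm]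
            refine mul_le_mul_of_nonneg_right ?_ (pow_nonneg hr0 _)
            exact pow_le_of_le_one (by norm_num) (by norm_num) hc
          have := mul_le_mul_of_nonneg_left (h1.trans h2) (hg S)
          linarith
      _ ≤ 1 / 16 := by rw [← Finset.mul_sum]; linarith
  let z : ℕ → ℝ := fun i => 4 * (p / π0) * (1 / 2) ^ i
  have hz : ∀ i, 0 ≤ z i := fun i => by simp only [z]; positivity
  have henc := encoding_bound (m := m) (lamOf g) F π hπ hπ1 z hz p hp0 (by
    intro l hl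
    simp only [z, π, hl, if_true]
    have : (8 : ℝ) ^ (l : ℕ) = 4 ^ (l : ℕ) * 2 ^ (l : ℕ) := by rw [← mul_pow]; norm_num
    rw [this, one_div_pow, pow_succ]; field_simp) (by
    intro i
    simp only [z]
    rw [← mul_assoc]
    refine mul_le_mul_of_nonneg_right ?_ (by positivity)
    have h1 : p / π0 ≤ 20480 / 10000000 := by
      rw [div_le_iff₀ hπ0pos, hπ0]; linarith
    have h2 : Real.exp 1 ≤ 3 := Real.exp_one_lt_d9.le.trans (by norm_num)
    have h3 : 0 ≤ p / π0 := by positivity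
    nlinarith)
  let G : (α → Fin (m + 1)) → Finset (Finset α) := fun τ =>
    (univ.filter (fun τ' => FragRel (lamOf g) F τ τ')).image (chg τ)
  have hcostG : ∀ τ, ∑ S ∈ G τ, p ^ S.card ≤ 4 * statY g τ +
      ∑ τ' ∈ univ.filter (fun τ' => FragRel (lamOf g) F τ τ' ∧ τ' ≠ τ), p ^ (chg τ τ').card := by
    intro τ
    refine (Finset.sum_image_le_of_nonneg fun S _ => pow_nonneg hp0 _).trans ?_
    rw [← Finset.sum_filter_add_sum_filter_not _ (fun τ' => τ' = τ), Finset.filter_filter,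
      Finset.filter_filter]
    refine add_le_add ?_ le_rfl
    by_cases hR : FragRel (lamOf g) F τ τ
    · have : univ.filter (fun τ' => FragRel (lamOf g) F τ τ' ∧ τ' = τ) = {τ} := by
        ext τ'; simp only [mem_filter, mem_univ, true_and, mem_singleton]
        exact ⟨fun h => h.2, fun h => ⟨h ▸ hR, h⟩⟩
      rw [this, Finset.sum_singleton]
      have hc : chg τ τ = ∅ := by simp [chg]
      obtain ⟨-, ⟨H, hH, hF⟩, -⟩ := hR
      have hs : slack τ τ = fun _ => 0 := by funext i; simp [slack, hc]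
      rw [hs] at hF
      have := statY_ge g hg H (hhalf H hH) τ hF
      rw [hc]; simp only [Finset.card_empty, pow_zero]; linarith
    · rw [Finset.sum_eq_zero]
      · have := statY_nonneg g hg τ; linarith
      · intro τ' hτ'
        obtain ⟨h1, rfl⟩ := (Finset.mem_filter.mp hτ').2
        exact absurd h1 hR
  have hW : ∀ τ : α → Fin (m + 1), 0 ≤ ∏ x, π (τ x) :=
    fun τ => Finset.prod_nonneg fun x _ => hπ _
  have hW1 : ∑ τ : α → Fin (m + 1), ∏ x, π (τ x) = 1 := by
    rw [← Fintype.piFinset_univ, ← Finset.prod_univ_sum]; simp [hπ1]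
  have htot : ∑ τ : α → Fin (m + 1), (∏ x, π (τ x)) * ∑ S ∈ G τ, p ^ S.card ≤ 1 / 2 := by
    refine (Finset.sum_le_sum fun τ _ => mul_le_mul_of_nonneg_left (hcostG τ) (hW τ)).trans ?_
    simp_rw [mul_add, Finset.sum_add_distrib]
    have : ∑ τ : α → Fin (m + 1), (∏ x, π (τ x)) * (4 * statY g τ)
        = 4 * ∑ τ : α → Fin (m + 1), (∏ x, π (τ x)) * statY g τ := by
      rw [Finset.mul_sum]; exact Finset.sum_congr rfl fun _ _ => by ring
    linarith
  obtain ⟨τ, -, hmin⟩ := Finset.exists_min_image univ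
    (fun τ : α → Fin (m + 1) => ∑ S ∈ G τ, p ^ S.card) Finset.univ_nonempty
  refine ⟨G τ, fun H hH => ?_, ?_⟩
  · obtain ⟨τ', h1, h2⟩ := exists_fragRel (lamOf g) F hH τ
    exact ⟨_, Finset.mem_image_of_mem _ (Finset.mem_filter.mpr ⟨mem_univ _, h1⟩), h2⟩
  · refine le_trans ?_ htot
    calc ∑ S ∈ G τ, p ^ S.card
        = ∑ τ' : α → Fin (m + 1), (∏ x, π (τ' x)) * ∑ S ∈ G τ, p ^ S.card := by
          rw [← Finset.sum_mul, hW1, one_mul]
      _ ≤ _ := Finset.sum_le_sum fun τ' _ =>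
          mul_le_mul_of_nonneg_left (hmin τ' (mem_univ _)) (hW τ')

end

end Crest.Agent.R52
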