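import Crest.Agent.R52.Fourier
import Crest.Agent.R52.Round

/-! Discrete convexity (S0072). -/

set_option autoImplicit false

namespace Crest.Agent.R52
open Finset Crest.FinProb

section
variable {A : Type} [Fintype A] [DecidableEq A]

/-- The set of positions showing `true`. -/
def toSet (ω : A → Bool) : Finset A := univ.filter (fun a => ω a = true)

theorem prob_toSet (p : ℝ) (D : Finset (Finset A)) :
    bernoulliProb p {ω : A → Bool | toSet ω ∈ D}
      = ∑ S ∈ D, p ^ S.card * (1 - p) ^ (Fintype.card A - S.card) := by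
  classical
  unfold bernoulliProb
  refine Finset.sum_bij (fun ω _ => toSet ω) ?_ ?_ ?_ ?_
  · intro ω hω; simpa using hω
  · intro ω _ ω' _ h
    funext a
    have := Finset.ext_iff.mp h a
    simp only [toSet, mem_filter, mem_univ, true_and] at this
    exact Bool.eq_iff_iff.mpr this
  · intro S hS
    have : toSet (fun a => decide (a ∈ S)) = S := by ext a; simp [toSet]
    exact ⟨fun a => decide (a ∈ S), by simpa [this] using hS, this⟩
  · intro ω _
    unfold bernoulliWeight
    rw [Finset.prod_ite, Finset.prod_const, Finset.prod_const]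
    congr 2
    have := Finset.card_filter_add_card_filter_not (s := univ) (fun a => ω a = true)
    rw [Finset.card_univ] at this
    unfold toSet; omega

theorem ExRows_union {R : Type} [Fintype R] [DecidableEq R] (p : ℝ) (h : (A → Bool) → ℝ) :
    ExRows p (fun X : R → A → Bool => h (fun a => decide (∃ i, X i a = true)))
      = Ex (1 - (1 - p) ^ Fintype.card R) h := by
  classical
  have e0 : ExRows p (fun X : R → A → Bool => h (fun a => decide (∃ i, X i a = true)))
      = ExRows p (fun Y : A → R → Bool => h (fun a => decide (∃ i, Y a i = true))) := by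
    rw [← Ex_curry, ← Ex_curry,
      ← Ex_comp_injective p (Prod.swap : A × R → R × A) Prod.swap_injective]
    rfl
  have e1 : ∀ Y : A → R → Bool, h (fun a => decide (∃ i, Y a i = true))
      = ∑ η : A → Bool, h η * ∏ a, (if decide (∃ i, Y a i = true) = η a then (1 : ℝ) else 0) := by
    intro Y
    rw [Finset.sum_eq_single (fun a => decide (∃ i, Y a i = true))]
    · simp
    · intro η _ hη
      obtain ⟨a, ha⟩ := Function.ne_iff.mp hη
      rw [Finset.prod_eq_zero (Finset.mem_univ a), mul_zero]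
      rw [if_neg (Ne.symm ha)]
    · simp
  have e2 : Ex p (fun y : R → Bool => if decide (∃ i, y i = true) = false then (1 : ℝ) else 0)
      = (1 - p) ^ Fintype.card R := by
    have := Ex_prod (ι := R) p (fun _ b => if b then 0 else 1)
    simp only [if_true, mul_zero, Bool.false_eq_true, if_false, mul_one, zero_add,
      Finset.prod_const, Finset.card_univ] at this
    rw [← this]
    congr 1; funext y
    by_cases hy : ∃ i, y i = true
    · obtain ⟨i, hi⟩ := hy
      rw [Finset.prod_eq_zero (Finset.mem_univ i) (by simp [hi]), if_neg]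
      simpa using ⟨i, hi⟩
    · rw [if_pos (by simpa using hy), Finset.prod_eq_one]
      intro i _
      rw [if_neg fun hi => hy ⟨i, hi⟩]
  have e3 : Ex p (fun y : R → Bool => if decide (∃ i, y i = true) = true then (1 : ℝ) else 0)
      = 1 - (1 - p) ^ Fintype.card R := by
    rw [← e2, ← Ex_const (ι := R) p 1, ← Ex_sub]
    congr 1; funext y
    cases decide (∃ i, y i = true) <;> simp [Ex_const]
  rw [e0]
  simp_rw [e1]
  rw [ExRows_sum]
  unfold Ex
  refine Finset.sum_congr rfl fun η _ => ?_
  rw [ExRows_const_mul, ExRows_prod p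
    (fun a (y : R → Bool) => if decide (∃ i, y i = true) = η a then (1 : ℝ) else 0), mul_comm]
  congr 1
  unfold bernoulliWeight
  refine Finset.prod_congr rfl fun a _ => ?_
  cases η a
  · rw [e2]; simp
  · rw [e3]; simp

theorem discrete_convexity (p : ℝ) (hp0 : 0 < p) (hp1 : p < 1) (D : Finset (Finset A))
    (m : ℕ) (hm : (10000000 : ℝ) ≤ m)
    (hD : 1 - 1 / (3 * m) ≤ ∑ S ∈ D, p ^ S.card * (1 - p) ^ (Fintype.card A - S.card))
    (F : Finset (Finset A))
    (hF : ∀ S ∈ F, ∀ f₁ f₂ : Fin m → Finset A, (∀ i, f₁ i ∈ D) → (∀ i, f₂ i ∈ D) →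
      ¬ ∀ a ∈ S, (∃ i, a ∈ f₁ i) ∨ ∃ i, a ∈ f₂ i) :
    ∃ G : Finset (Finset A), (∀ S ∈ F, ∃ I ∈ G, I ⊆ S) ∧ ∑ I ∈ G, p ^ I.card ≤ 1 / 2 := by
  classical
  have hm0 : (0 : ℝ) < m := by linarith
  have hmne : m ≠ 0 := by rintro rfl; simp at hm0
  set q : ℝ := 1 - (1 - p) ^ m with hq
  have hpow0 : 0 < (1 - p) ^ m := pow_pos (by linarith) _
  have hpow1 : (1 - p) ^ m < 1 := pow_lt_one₀ (by linarith) (by linarith) hmne
  have hq0 : 0 < q := by linarith
  have hq1 : q < 1 := by linarith
  let 𝒜 : Set (A → Bool) :=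
    {X | ∃ f : Fin m → Finset A, (∀ i, f i ∈ D) ∧ ∀ a, X a = true → ∃ i, a ∈ f i}
  set μ := bernoulliProb q 𝒜 with hμ
  have hμ1 : μ ≤ 1 := prob_le_one hq0.le hq1.le _
  have hμ2 : 2 / 3 ≤ μ := by
    have h1 := ExRows_union (R := Fin m) p (indic 𝒜)
    rw [Fintype.card_fin, Ex_indic] at h1
    have h2 := ExRows_prod (R := Fin m) p (fun _ => indic {ω : A → Bool | toSet ω ∈ D})
    rw [Ex_indic, prob_toSet, Finset.prod_const, Finset.card_univ, Fintype.card_fin] at h2
    have h3 : ExRows p (fun X : Fin m → A → Bool =>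
        ∏ i, indic {ω : A → Bool | toSet ω ∈ D} (X i)) ≤ ExRows p (fun X : Fin m → A → Bool =>
          indic 𝒜 (fun a => decide (∃ i, X i a = true))) := by
      refine ExRows_mono hp0.le hp1.le fun X => ?_
      by_cases hX : ∀ i, toSet (X i) ∈ D
      · have : (fun a => decide (∃ i, X i a = true)) ∈ 𝒜 :=
          ⟨fun i => toSet (X i), hX, fun a ha => by simpa [toSet] using ha⟩
        simp [indic, hX, this]
      · push Not at hX
        obtain ⟨i, hi⟩ := hX
        rw [Finset.prod_eq_zero (Finset.mem_univ i) (by simp [indic, hi])]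
        unfold indic; split_ifs <;> norm_num
    have h4 : (1 : ℝ) / (3 * m) ≤ 1 := by
      rw [div_le_one (by positivity)]; linarith
    have h5 := pow_le_pow_left₀ (by linarith) hD m
    have h6 := one_add_mul_le_pow (a := -(1 / (3 * (m : ℝ)))) (by linarith) m
    have h7 : (m : ℝ) * -(1 / (3 * m)) = -(1 / 3) := by field_simp
    rw [h7, ← sub_eq_add_neg, ← sub_eq_add_neg] at h6
    rw [hμ, hq, ← h1]
    have h8 : (2 : ℝ) / 3 ≤ _ := le_trans (by norm_num) (h6.trans (h5.trans h2.symm.le))
    refine (h8.trans h3).trans (le_of_eq ?_)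
    convert rfl
  have hμ0 : 0 < μ := by linarith
  let g : Finset A → ℝ := fun I =>
    if I = ∅ then 0 else (1 / q ^ 2) ^ I.card * fc q (indic 𝒜) I ^ 2 / μ ^ 2
  have hg : ∀ I, 0 ≤ g I := fun I => by simp only [g]; split_ifs <;> positivity
  have hcov : ∀ S ∈ F, 1 ≤ ∑ I ∈ S.powerset, g I := by
    intro S hS
    have h1 := fourier_cover hq0 hq1 𝒜 ∅ S (by
      rintro X ⟨f₁, hf₁, hX⟩ Y ⟨f₂, hf₂, hY⟩ hc
      exact absurd (fun a ha => (hc a ha).imp (hX a) (hY a)) (hF S hS f₁ f₂ hf₁ hf₂))
    have h2 : bernoulliProb q (∅ : Set (A → Bool)) = 0 := by simp [bernoulliProb]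
    rw [h2, mul_zero, zero_mul, sub_zero] at h1
    rw [← Finset.add_sum_erase _ _ (Finset.empty_mem_powerset S)]
    have h3 : ∑ I ∈ S.powerset.erase ∅, g I = (∑ I ∈ S.powerset.erase ∅,
        (1 / q ^ 2) ^ I.card * fc q (indic 𝒜) I ^ 2) / μ ^ 2 := by
      rw [Finset.sum_div]
      exact Finset.sum_congr rfl fun I hI => by simp [g, (Finset.mem_erase.mp hI).1]
    rw [h3]
    simp only [g, if_true, zero_add]
    rw [le_div_iff₀ (by positivity), one_mul]
    exact h1
  have hcost : ∑ I : Finset A, g I * (q / (1 - q)) ^ I.card ≤ 1 / 2 := by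
    rw [← Finset.add_sum_erase _ _ (mem_univ ∅)]
    have h3 : ∑ I ∈ (univ : Finset (Finset A)).erase ∅, g I * (q / (1 - q)) ^ I.card
        = (∑ I ∈ (univ : Finset (Finset A)).erase ∅,
          (1 / (q * (1 - q))) ^ I.card * fc q (indic 𝒜) I ^ 2) / μ ^ 2 := by
      rw [Finset.sum_div]
      refine Finset.sum_congr rfl fun I hI => ?_
      simp only [g, (Finset.mem_erase.mp hI).1, if_false]
      have h1q : 1 - q ≠ 0 := by linarith
      have : (1 / (q * (1 - q))) = 1 / q ^ 2 * (q / (1 - q)) := by field_simp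
      rw [this, mul_pow]; ring
    rw [h3, variance_indic hq0 hq1, ← hμ]
    simp only [g, if_true, zero_mul, zero_add]
    rw [div_le_iff₀ (by positivity)]
    nlinarith
  have h1q : 0 < 1 - q := by linarith
  by_cases hr : q / (1 - q) ≤ 1
  · refine round_cover F ?_ _ (by positivity) hr g hg hcov hcost p hp0.le ?_
    · intro h
      have := hcov ∅ h
      simp [g] at this
      linarith
    · rw [le_div_iff₀ h1q]
      have h1 : 1 - q = (1 - p) ^ m := by rw [hq]; ring
      have h2 := one_add_mul_le_pow (a := p) (by linarith) m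
      have h3 : (1 + p) ^ m * (1 - p) ^ m ≤ 1 := by
        rw [← mul_pow]; exact pow_le_one₀ (by nlinarith) (by nlinarith)
      have h4 := mul_le_mul_of_nonneg_right h2 hpow0.le
      have h5 : p * 10000000 * (1 - p) ^ m ≤ m * p * (1 - p) ^ m :=
        mul_le_mul_of_nonneg_right (by nlinarith) hpow0.le
      rw [h1, hq]; linarith
  · refine ⟨∅, fun S hS => ?_, by simp⟩
    exfalso
    have h1 := hcov S hS
    have h2 : ∑ I ∈ S.powerset, g I ≤ ∑ I : Finset A, g I * (q / (1 - q)) ^ I.card := by
      refine le_trans (Finset.sum_le_sum_of_subset_of_nonneg (Finset.subset_univ _)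
        fun I _ _ => hg I) (Finset.sum_le_sum fun I _ => ?_)
      exact le_mul_of_one_le_right (hg I) (one_le_pow₀ (not_le.mp hr).le)
    linarith

end

end Crest.Agent.R52
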