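import Crest.Agent.R52.Defs

/-! Covers by copies of subgraphs: first-moment inequalities. -/

set_option autoImplicit false
set_option linter.unusedSectionVars false

namespace Crest.Agent.R52
open Finset Crest.FinProb Crest.CombinatoricsR.RandomGraph

variable {W : Type} [Fintype W] [DecidableEq W] {n : ℕ} {H : SimpleGraph W} {r : ℝ}

/-- The coin positions hit by the image of the edge set `J` under `φ`. -/
def imgSlots (J : Finset (Sym2 W)) (φ : W → Fin n) : Finset (EdgeSlot n) :=
  Finset.univ.filter (fun z : EdgeSlot n => z.1 ∈ J.image (Sym2.map φ))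

theorem card_imgSlots (J : Finset (Sym2 W)) (hJ : ∀ e ∈ J, ¬ e.IsDiag) (φ : W → Fin n)
    (hφ : Function.Injective φ) : (imgSlots J φ).card = J.card := by
  rw [← Finset.card_image_of_injective J (Sym2.map.injective hφ)]
  refine Finset.card_bij (fun z _ => z.1) ?_ ?_ ?_
  · intro z hz
    exact (Finset.mem_filter.mp hz).2
  · intro a _ b _ hab
    exact Subtype.ext hab
  · intro b hb
    obtain ⟨e, he, rfl⟩ := Finset.mem_image.mp hb
    have hd : ¬ (Sym2.map φ e).IsDiag := by
      rw [Sym2.isDiag_map hφ]; exact hJ e he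
    exact ⟨⟨_, hd⟩, Finset.mem_filter.mpr ⟨Finset.mem_univ _, hb⟩, rfl⟩

theorem edgeGraph_adj (A : Finset (EdgeSlot n)) (a b : Fin n) :
    (edgeGraph A).Adj a b ↔ ∃ h : ¬ (s(a, b)).IsDiag, (⟨s(a, b), h⟩ : EdgeSlot n) ∈ A := by
  unfold edgeGraph
  rw [SimpleGraph.fromEdgeSet_adj]
  constructor
  · rintro ⟨h, -⟩; exact h
  · rintro ⟨h, h'⟩; exact ⟨⟨h, h'⟩, by simpa using h⟩

theorem count_generic (h : ¬ SmallAt n H r) (hr0 : 0 ≤ r) (J : Finset (Sym2 W))
    (hJ : ∀ e ∈ J, e ∈ H.edgeSet) {δ : Type} (D : Finset δ) (desc : (W → Fin n) → δ)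
    (hmem : ∀ φ, Function.Injective φ → desc φ ∈ D)
    (hdet : ∀ φ ψ, Function.Injective φ → Function.Injective ψ → desc φ = desc ψ →
      J.image (Sym2.map φ) = J.image (Sym2.map ψ)) :
    1 / 2 < (D.card : ℝ) * r ^ J.card := by
  classical
  by_contra hcon
  push Not at hcon
  apply h
  let S : Finset (W → Fin n) := Finset.univ.filter (fun φ => Function.Injective φ)
  refine ⟨S.image (imgSlots J), ?_, ?_⟩
  · rintro A ⟨f⟩
    refine ⟨imgSlots J f, Finset.mem_image.mpr ⟨f, Finset.mem_filter.mpr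
      ⟨Finset.mem_univ _, f.injective⟩, rfl⟩, ?_⟩
    intro z hz
    obtain ⟨e, he, hez⟩ := Finset.mem_image.mp (Finset.mem_filter.mp hz).2
    induction e using Sym2.ind with
    | h a b =>
      have hadj : H.Adj a b := by simpa using hJ _ he
      have h2 : (edgeGraph A).Adj (f a) (f b) := f.toHom.map_adj hadj
      rw [edgeGraph_adj] at h2
      obtain ⟨hd, hA⟩ := h2
      have : z = ⟨s(f a, f b), hd⟩ := Subtype.ext (by rw [← hez]; simp)
      rw [this]; exact hA
  · have hcard : ∀ T ∈ S.image (imgSlots J), r ^ T.card = r ^ J.card := by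
      intro T hT
      obtain ⟨φ, hφ, rfl⟩ := Finset.mem_image.mp hT
      rw [card_imgSlots J (fun e he => H.not_isDiag_of_mem_edgeSet (hJ e he)) φ
        (Finset.mem_filter.mp hφ).2]
    rw [Finset.sum_congr rfl hcard, Finset.sum_const, nsmul_eq_mul]
    refine le_trans (mul_le_mul_of_nonneg_right ?_ (pow_nonneg hr0 _)) hcon
    let g : δ → Finset (EdgeSlot n) := fun d =>
      if hd : ∃ φ, Function.Injective φ ∧ desc φ = d then imgSlots J hd.choose else ∅
    have hsub : S.image (imgSlots J) ⊆ D.image g := by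
      intro T hT
      obtain ⟨φ, hφ, rfl⟩ := Finset.mem_image.mp hT
      have hφ' := (Finset.mem_filter.mp hφ).2
      refine Finset.mem_image.mpr ⟨desc φ, hmem φ hφ', ?_⟩
      have hd : ∃ ψ, Function.Injective ψ ∧ desc ψ = desc φ := ⟨φ, hφ', rfl⟩
      simp only [g, dif_pos hd]
      unfold imgSlots
      rw [hdet _ _ hd.choose_spec.1 hφ' hd.choose_spec.2]
    exact_mod_cast (Finset.card_le_card hsub).trans Finset.card_image_le

theorem count_density (h : ¬ SmallAt n H r) (hr0 : 0 ≤ r) (U : Finset W)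
    (J : Finset (Sym2 W)) (hJ : ∀ e ∈ J, e ∈ H.edgeSet ∧ ∀ v ∈ e, v ∈ U) :
    1 / 2 < (n : ℝ) ^ U.card * r ^ J.card := by
  have := count_generic h hr0 J (fun e he => (hJ e he).1) (Finset.univ : Finset (U → Fin n))
    (fun φ v => φ v) (fun _ _ => Finset.mem_univ _) (by
      intro φ ψ _ _ hd
      refine Finset.image_congr ?_
      intro e he
      refine Sym2.map_congr ?_
      intro v hv
      exact congrFun hd ⟨v, (hJ e he).2 v hv⟩)
  simpa using this

theorem count_biclique (h : ¬ SmallAt n H r) (hr0 : 0 ≤ r) (K T : Finset W)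
    (hKT : Disjoint K T) (hadj : ∀ u ∈ K, ∀ v ∈ T, H.Adj u v) :
    1 / 2 < (n : ℝ) ^ K.card * (n.choose T.card : ℝ) * r ^ (K.card * T.card) := by
  let J : Finset (Sym2 W) := (K ×ˢ T).image (fun x => s(x.1, x.2))
  have hJc : J.card = K.card * T.card := by
    rw [← Finset.card_product]
    refine Finset.card_image_of_injOn ?_
    rintro ⟨a, b⟩ hab ⟨c, d⟩ hcd heq
    rw [Finset.mem_coe, Finset.mem_product] at hab hcd
    rcases Sym2.eq_iff.mp heq with ⟨h1, h2⟩ | ⟨h1, h2⟩
    · exact Prod.ext h1 h2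
    · have h3 : a = d := h1
      have h4 : d ∈ T := hcd.2
      exact absurd (h3 ▸ h4 : a ∈ T) (Finset.disjoint_left.mp hKT hab.1)
  have key : ∀ φ ψ : W → Fin n, (∀ u ∈ K, φ u = ψ u) → T.image φ = T.image ψ →
      J.image (Sym2.map φ) ⊆ J.image (Sym2.map ψ) := by
    intro φ ψ h1 h2 z hz
    obtain ⟨e, he, rfl⟩ := Finset.mem_image.mp hz
    obtain ⟨⟨a, b⟩, hab, rfl⟩ := Finset.mem_image.mp he
    rw [Finset.mem_product] at hab
    have hb : φ b ∈ T.image ψ := h2 ▸ Finset.mem_image_of_mem φ hab.2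
    obtain ⟨b', hb', hbb⟩ := Finset.mem_image.mp hb
    refine Finset.mem_image.mpr ⟨s(a, b'), Finset.mem_image.mpr ⟨(a, b'),
      Finset.mem_product.mpr ⟨hab.1, hb'⟩, rfl⟩, ?_⟩
    simp [h1 a hab.1, hbb]
  have := count_generic h hr0 J (by
      intro e he
      obtain ⟨⟨a, b⟩, hab, rfl⟩ := Finset.mem_image.mp he
      rw [Finset.mem_product] at hab
      simpa using hadj a hab.1 b hab.2)
    ((Finset.univ : Finset (K → Fin n)) ×ˢ (Finset.univ : Finset (Fin n)).powersetCard T.card)
    (fun φ => (fun v => φ v, T.image φ))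
    (by
      intro φ hφ
      rw [Finset.mem_product, Finset.mem_powersetCard]
      exact ⟨Finset.mem_univ _, Finset.subset_univ _, Finset.card_image_of_injective _ hφ⟩)
    (by
      intro φ ψ _ _ hd
      have h1 : ∀ u ∈ K, φ u = ψ u := fun u hu => congrFun (congrArg Prod.fst hd) ⟨u, hu⟩
      have h2 : T.image φ = T.image ψ := congrArg Prod.snd hd
      exact Finset.Subset.antisymm (key φ ψ h1 h2)
        (key ψ φ (fun u hu => (h1 u hu).symm) h2.symm))
  rw [hJc] at this
  simpa using this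

theorem count_stars (h : ¬ SmallAt n H r) (hr0 : 0 ≤ r) (C : Finset W) (Lf : W → Finset W)
    (d : ℕ) (hLf : ∀ c ∈ C, (Lf c).card = d ∧ ∀ v ∈ Lf c, H.Adj c v ∧ v ∉ C) :
    1 / 2 < ((n * n.choose d).choose C.card : ℝ) * r ^ (d * C.card) := by
  let J : Finset (Sym2 W) := C.biUnion (fun c => (Lf c).image (fun v => s(c, v)))
  have hJc : J.card = d * C.card := by
    rw [Finset.card_biUnion]
    · rw [Finset.sum_congr rfl (g := fun _ => d)]
      · simp [mul_comm]
      · intro c hc
        rw [Finset.card_image_of_injective _ (fun a b hab => Sym2.congr_right.mp hab),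
          (hLf c hc).1]
    · intro c hc c' hc' hne
      rw [Function.onFun, Finset.disjoint_left]
      intro e he he'
      obtain ⟨v, hv, rfl⟩ := Finset.mem_image.mp he
      obtain ⟨v', hv', heq⟩ := Finset.mem_image.mp he'
      rcases Sym2.eq_iff.mp heq with ⟨h1, _⟩ | ⟨_, h2⟩
      · exact hne h1.symm
      · exact ((hLf c' hc').2 v' hv').2 (h2 ▸ hc)
  have key : ∀ φ ψ : W → Fin n, C.image (fun c => (φ c, (Lf c).image φ))
      = C.image (fun c => (ψ c, (Lf c).image ψ)) →
      J.image (Sym2.map φ) ⊆ J.image (Sym2.map ψ) := by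
    intro φ ψ h1 z hz
    obtain ⟨e, he, rfl⟩ := Finset.mem_image.mp hz
    obtain ⟨c, hc, he'⟩ := Finset.mem_biUnion.mp he
    obtain ⟨v, hv, rfl⟩ := Finset.mem_image.mp he'
    have hc2 : (φ c, (Lf c).image φ) ∈ C.image (fun c => (ψ c, (Lf c).image ψ)) :=
      h1 ▸ Finset.mem_image_of_mem (fun c => (φ c, (Lf c).image φ)) hc
    obtain ⟨c', hc', heq⟩ := Finset.mem_image.mp hc2
    have e1 : ψ c' = φ c := congrArg Prod.fst heq
    have e2 : (Lf c').image ψ = (Lf c).image φ := congrArg Prod.snd heq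
    have hv2 : φ v ∈ (Lf c').image ψ := e2 ▸ Finset.mem_image_of_mem φ hv
    obtain ⟨v', hv', hvv⟩ := Finset.mem_image.mp hv2
    refine Finset.mem_image.mpr ⟨s(c', v'), Finset.mem_biUnion.mpr ⟨c', hc',
      Finset.mem_image.mpr ⟨v', hv', rfl⟩⟩, ?_⟩
    simp [e1, hvv]
  have := count_generic h hr0 J (by
      intro e he
      obtain ⟨c, hc, he'⟩ := Finset.mem_biUnion.mp he
      obtain ⟨v, hv, rfl⟩ := Finset.mem_image.mp he'
      simpa using ((hLf c hc).2 v hv).1)
    (((Finset.univ : Finset (Fin n)) ×ˢ (Finset.univ : Finset (Fin n)).powersetCard d).powersetCard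
      C.card)
    (fun φ => C.image (fun c => (φ c, (Lf c).image φ)))
    (by
      intro φ hφ
      rw [Finset.mem_powersetCard]
      refine ⟨?_, ?_⟩
      · intro x hx
        obtain ⟨c, hc, rfl⟩ := Finset.mem_image.mp hx
        rw [Finset.mem_product, Finset.mem_powersetCard]
        exact ⟨Finset.mem_univ _, Finset.subset_univ _, by
          rw [Finset.card_image_of_injective _ hφ, (hLf c hc).1]⟩
      · exact Finset.card_image_of_injective _ (fun a b hab => hφ (congrArg Prod.fst hab)))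
    (by
      intro φ ψ _ _ hd
      exact Finset.Subset.antisymm (key φ ψ hd) (key ψ φ hd.symm))
  rw [hJc] at this
  simpa using this

/-- Every non-empty vertex set has a vertex of small degree. -/
theorem exists_low_degree (h : ¬ SmallAt n H r) (hr0 : 0 ≤ r) (hr1 : r ≤ 1)
    [DecidableRel H.Adj] (U : Finset W) (hU : U.Nonempty) :
    ∃ v ∈ U, 1 < 4 * (n : ℝ) ^ 2 * r ^ (U.filter (fun u => H.Adj v u)).card := by
  by_contra hcon
  push Not at hcon
  let Pp : Finset (W × W) := (U ×ˢ U).filter (fun x => H.Adj x.1 x.2)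
  let J : Finset (Sym2 W) := Pp.image (fun x => s(x.1, x.2))
  have hdens := count_density h hr0 U J (by
    intro e he
    obtain ⟨⟨a, b⟩, hab, rfl⟩ := Finset.mem_image.mp he
    rw [Finset.mem_filter, Finset.mem_product] at hab
    refine ⟨by simpa using hab.2, ?_⟩
    intro v hv
    rcases Sym2.mem_iff.mp hv with rfl | rfl
    · exact hab.1.1
    · exact hab.1.2)
  have hP : Pp.card ≤ 2 * J.card := by
    refine Finset.card_le_mul_card_image Pp 2 ?_
    intro e he
    obtain ⟨⟨a, b⟩, _, rfl⟩ := Finset.mem_image.mp he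
    refine le_trans (Finset.card_le_card (t := {(a, b), (b, a)}) ?_) Finset.card_le_two
    rintro ⟨c, d⟩ hcd
    have := (Finset.mem_filter.mp hcd).2
    rcases Sym2.eq_iff.mp this with ⟨h1, h2⟩ | ⟨h1, h2⟩
    · simp only at h1 h2; simp [h1, h2]
    · simp only at h1 h2; simp [h1, h2]
  have hsum : ∑ v ∈ U, (U.filter (fun u => H.Adj v u)).card = Pp.card := by
    simp only [Pp, Finset.card_filter, Finset.sum_product]
  have hprod : ∏ v ∈ U, (4 * (n : ℝ) ^ 2 * r ^ (U.filter (fun u => H.Adj v u)).card) ≤ 1 :=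
    Finset.prod_le_one (fun v _ => by positivity) hcon
  rw [Finset.prod_mul_distrib, Finset.prod_const, Finset.prod_pow_eq_pow_sum, hsum] at hprod
  have h2 : r ^ (2 * J.card) ≤ r ^ Pp.card := pow_le_pow_of_le_one hr0 hr1 hP
  have h3 : (4 * (n : ℝ) ^ 2) ^ U.card * r ^ (2 * J.card) ≤ 1 :=
    le_trans (mul_le_mul_of_nonneg_left h2 (by positivity)) hprod
  have h4 : (4 * (n : ℝ) ^ 2) ^ U.card * r ^ (2 * J.card)
      = 4 ^ U.card * ((n : ℝ) ^ U.card * r ^ J.card) ^ 2 := by
    rw [mul_pow, mul_pow, ← pow_mul, ← pow_mul, ← pow_mul]; ring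
  have h5 : (4 : ℝ) ≤ 4 ^ U.card := by
    have := Finset.card_pos.mpr hU
    calc (4 : ℝ) = 4 ^ 1 := by norm_num
      _ ≤ 4 ^ U.card := pow_le_pow_right₀ (by norm_num) this
  rw [h4] at h3
  set x := (n : ℝ) ^ U.card * r ^ J.card
  have h6 : 1 / 4 < x ^ 2 := by nlinarith
  nlinarith

theorem smallAt_mono {p q : ℝ} (hp : 0 ≤ p) (hpq : p ≤ q) (h : SmallAt n H q) :
    SmallAt n H p := by
  obtain ⟨C, hC, hs⟩ := h
  exact ⟨C, hC, le_trans (Finset.sum_le_sum fun S _ => pow_le_pow_left₀ hp hpq _) hs⟩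

theorem exists_smallAt_pow (hH : H ≠ ⊥) : ∃ j : ℕ, SmallAt n H ((1 / 2) ^ j) := by
  classical
  obtain ⟨a, b, hab⟩ := SimpleGraph.ne_bot_iff_exists_adj.mp hH
  set N := Fintype.card (EdgeSlot n) with hN
  refine ⟨N + 1, Finset.univ.image (fun z : EdgeSlot n => ({z} : Finset (EdgeSlot n))), ?_, ?_⟩
  · rintro A ⟨f⟩
    have h2 : (edgeGraph A).Adj (f a) (f b) := f.toHom.map_adj hab
    rw [edgeGraph_adj] at h2
    obtain ⟨hd, hA⟩ := h2
    exact ⟨{⟨_, hd⟩}, Finset.mem_image_of_mem _ (Finset.mem_univ _), by simpa using hA⟩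
  · rw [Finset.sum_image (fun a _ b _ hab => Finset.singleton_injective hab)]
    simp only [Finset.card_singleton, pow_one, Finset.sum_const, Finset.card_univ, nsmul_eq_mul,
      ← hN]
    have h1 : (N : ℝ) ≤ 2 ^ N := by exact_mod_cast (Nat.lt_two_pow_self).le
    have h2 : (0 : ℝ) < 2 ^ N := by positivity
    rw [pow_succ, one_div_pow, ← mul_assoc]
    have : (N : ℝ) * (1 / 2 ^ N) ≤ 1 := by
      rw [mul_one_div, div_le_one h2]; exact h1
    linarith

theorem gnpProb_one_of_card_le (hW : Fintype.card W ≤ n) (H' : SimpleGraph W) :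
    gnpProb n 1 {G | H'.IsContained G} = 1 := by
  classical
  unfold gnpProb
  refine le_antisymm (prob_le_one zero_le_one le_rfl _) ?_
  have h1 := Ex_prod (ι := EdgeSlot n) (1 : ℝ) (fun _ b => if b then (1 : ℝ) else 0)
  simp only [if_true, mul_one, sub_self, zero_mul, add_zero, Finset.prod_const_one] at h1
  refine le_trans h1.ge ?_
  refine Ex_le_prob zero_le_one le_rfl ?_ ?_
  · intro ω
    exact Finset.prod_le_one (fun i _ => by split_ifs <;> norm_num)
      (fun i _ => by split_ifs <;> norm_num)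
  · intro ω hω
    by_contra hpos
    apply hω
    have hall : ∀ z, ω z = true := by
      intro z
      by_contra hz
      apply hpos
      rw [Finset.prod_eq_zero (Finset.mem_univ z)]
      simp [hz]
    have hc : Fintype.card W ≤ Fintype.card (Fin n) := by simpa using hW
    obtain ⟨e⟩ := Function.Embedding.nonempty_of_card_le hc
    refine ⟨⟨⟨e, ?_⟩, e.injective⟩⟩
    intro a b hab
    rw [graphOf_adj]
    refine ⟨?_, hall _⟩
    simpa using hab.ne

end Crest.Agent.R52
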