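import Crest.Agent.R52.Prob

/-! Definitions shared by the pieces of the proof of S0073. -/

set_option autoImplicit false

namespace Crest.Agent.R52
open Finset Crest.FinProb Crest.CombinatoricsR.RandomGraph

/-- The family of edge sets containing a copy of `H` has a cover of cost at most `1/2` at `p`. -/
def SmallAt {W : Type*} (n : ℕ) (H : SimpleGraph W) (p : ℝ) : Prop :=
  ∃ C : Finset (Finset (EdgeSlot n)),
    (∀ A : Finset (EdgeSlot n), H.IsContained (edgeGraph A) → ∃ S ∈ C, S ⊆ A) ∧
    ∑ S ∈ C, p ^ S.card ≤ 1 / 2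

/-- Upper tail of the binomial distribution `Bin(m, p)` at `d`. -/
noncomputable def binTail (m d : ℕ) (p : ℝ) : ℝ :=
  bernoulliProb p {ω : Fin m → Bool | d ≤ (Finset.univ.filter (fun i => ω i = true)).card}

end Crest.Agent.R52
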