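import Crest.Agent.R52.Prob

/-! A biased Fourier identity: sets not covered by two members of a large family. -/

set_option autoImplicit false

namespace Crest.Agent.R52
open Finset Crest.FinProb

section
variable {A : Type*} [Fintype A] [DecidableEq A]

/-- Centred coin. -/
noncomputable def ctr (p : ℝ) (b : Bool) : ℝ := (if b then 1 else 0) - p

/-- Unnormalised biased Fourier coefficient. -/
noncomputable def fc (p : ℝ) (f : (A → Bool) → ℝ) (I : Finset A) : ℝ :=
  Ex p (fun X => f X * ∏ a ∈ I, ctr p (X a))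

theorem kernel_identity (p γ : ℝ) (f : (A → Bool) → ℝ) (S : Finset A) :
    ∑ I ∈ S.powerset, γ ^ I.card * fc p f I ^ 2
      = Ex p (fun X => Ex p (fun Y =>
          f X * f Y * ∏ a ∈ S, (1 + γ * ctr p (X a) * ctr p (Y a)))) := by
  simp_rw [Finset.prod_one_add, Finset.mul_sum, Ex_sum]
  refine Finset.sum_congr rfl fun I _ => ?_
  have e1 : ∀ X Y : A → Bool, f X * f Y * ∏ a ∈ I, γ * ctr p (X a) * ctr p (Y a)
      = (γ ^ I.card * (f X * ∏ a ∈ I, ctr p (X a))) * (f Y * ∏ a ∈ I, ctr p (Y a)) := by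
    intro X Y
    rw [Finset.prod_mul_distrib, Finset.prod_mul_distrib, Finset.prod_const]; ring
  simp_rw [e1, Ex_const_mul, Ex_mul_const, Ex_const_mul]
  unfold fc; ring

theorem parseval {p : ℝ} (h0 : 0 < p) (h1 : p < 1) (f : (A → Bool) → ℝ) :
    ∑ I : Finset A, (1 / (p * (1 - p))) ^ I.card * fc p f I ^ 2 = Ex p (fun X => f X ^ 2) := by
  rw [← Finset.powerset_univ, kernel_identity]
  congr 1; funext X
  unfold Ex
  have h1' : 1 - p ≠ 0 := by linarith
  have e1 : ∀ Y : A → Bool, bernoulliWeight p Y *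
      ∏ a, (1 + 1 / (p * (1 - p)) * ctr p (X a) * ctr p (Y a)) = if Y = X then 1 else 0 := by
    intro Y
    unfold bernoulliWeight
    rw [← Finset.prod_mul_distrib]
    split_ifs with h
    · subst h
      refine Finset.prod_eq_one fun a _ => ?_
      unfold ctr
      cases Y a <;> simp <;> field_simp <;> ring
    · obtain ⟨a, ha⟩ := Function.ne_iff.mp h
      refine Finset.prod_eq_zero (Finset.mem_univ a) ?_
      unfold ctr
      revert ha
      cases Y a <;> cases X a <;> simp <;> right <;> field_simp <;> ring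
  calc _ = ∑ Y : A → Bool, f X * f Y * (if Y = X then 1 else 0) :=
        Finset.sum_congr rfl fun Y _ => by rw [← e1 Y]; ring
    _ = _ := by simp [sq]

open Classical in
/-- Indicator of a family. -/
noncomputable def indic (𝒜 : Set (A → Bool)) (X : A → Bool) : ℝ := if X ∈ 𝒜 then 1 else 0

theorem Ex_indic (p : ℝ) (𝒜 : Set (A → Bool)) : Ex p (indic 𝒜) = bernoulliProb p 𝒜 := by
  rw [prob_eq_Ex]; rfl

theorem fc_empty (p : ℝ) (𝒜 : Set (A → Bool)) : fc p (indic 𝒜) ∅ = bernoulliProb p 𝒜 := by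
  unfold fc; simp [Ex_indic]

theorem variance_indic {p : ℝ} (h0 : 0 < p) (h1 : p < 1) (𝒜 : Set (A → Bool)) :
    ∑ I ∈ (univ : Finset (Finset A)).erase ∅, (1 / (p * (1 - p))) ^ I.card * fc p (indic 𝒜) I ^ 2
      = bernoulliProb p 𝒜 * (1 - bernoulliProb p 𝒜) := by
  have h := parseval h0 h1 (indic 𝒜)
  rw [← Finset.add_sum_erase _ _ (mem_univ ∅), fc_empty] at h
  have e : (fun X => indic 𝒜 X ^ 2) = indic 𝒜 := by
    funext X; unfold indic; split_ifs <;> simp
  rw [e, Ex_indic] at h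
  simp only [Finset.card_empty, pow_zero, one_mul] at h
  linarith

/-- If every pair of members of `𝒜` covering `S` meets the exceptional family `Θ`, then `S`
carries a lot of Fourier weight. -/
theorem fourier_cover {p : ℝ} (h0 : 0 < p) (h1 : p < 1) (𝒜 Θ : Set (A → Bool)) (S : Finset A)
    (h : ∀ X ∈ 𝒜, ∀ Y ∈ 𝒜, (∀ a ∈ S, X a = true ∨ Y a = true) → X ∈ Θ ∨ Y ∈ Θ) :
    bernoulliProb p 𝒜 ^ 2 - 2 * bernoulliProb p Θ * (1 / p ^ 2) ^ S.card
      ≤ ∑ I ∈ S.powerset.erase ∅, (1 / p ^ 2) ^ I.card * fc p (indic 𝒜) I ^ 2 := by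
  have hk := kernel_identity p (-(1 / p ^ 2)) (indic 𝒜) S
  rw [← Finset.add_sum_erase _ _ (Finset.empty_mem_powerset S), fc_empty] at hk
  simp only [Finset.card_empty, pow_zero, one_mul] at hk
  have hlow : -∑ I ∈ S.powerset.erase ∅, (1 / p ^ 2) ^ I.card * fc p (indic 𝒜) I ^ 2
      ≤ ∑ I ∈ S.powerset.erase ∅, (-(1 / p ^ 2)) ^ I.card * fc p (indic 𝒜) I ^ 2 := by
    rw [← Finset.sum_neg_distrib]
    refine Finset.sum_le_sum fun I _ => ?_
    rw [← neg_mul]
    refine mul_le_mul_of_nonneg_right ?_ (sq_nonneg _)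
    have : |(-(1 / p ^ 2)) ^ I.card| = (1 / p ^ 2) ^ I.card := by
      rw [abs_pow, abs_neg, abs_of_nonneg (by positivity)]
    rw [← this]; exact neg_abs_le _
  have hp2 : 1 ≤ 1 / p ^ 2 := by
    rw [le_div_iff₀ (by positivity)]; nlinarith
  have hfac : ∀ x y : Bool, |1 + -(1 / p ^ 2) * ctr p x * ctr p y| ≤ 1 / p ^ 2 := by
    intro x y
    have e : 1 + -(1 / p ^ 2) * ctr p x * ctr p y = (p ^ 2 - ctr p x * ctr p y) / p ^ 2 := by
      field_simp; ring
    rw [e, abs_div, abs_of_pos (pow_pos h0 2)]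
    refine div_le_div_of_nonneg_right ?_ (by positivity)
    unfold ctr
    rw [abs_le]
    cases x <;> cases y <;> simp <;> constructor <;> nlinarith
  have hi0 : ∀ (ℬ : Set (A → Bool)) X, 0 ≤ indic ℬ X := fun ℬ X => by
    unfold indic; split_ifs <;> norm_num
  have hup : ∀ X Y : A → Bool, indic 𝒜 X * indic 𝒜 Y *
      ∏ a ∈ S, (1 + -(1 / p ^ 2) * ctr p (X a) * ctr p (Y a))
        ≤ (indic Θ X + indic Θ Y) * (1 / p ^ 2) ^ S.card := by
    intro X Y
    have hR : 0 ≤ (indic Θ X + indic Θ Y) * (1 / p ^ 2) ^ S.card :=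
      mul_nonneg (add_nonneg (hi0 _ _) (hi0 _ _)) (by positivity)
    by_cases hX : X ∈ 𝒜
    swap
    · simpa [indic, hX] using hR
    by_cases hY : Y ∈ 𝒜
    swap
    · simpa [indic, hY] using hR
    by_cases hc : ∀ a ∈ S, X a = true ∨ Y a = true
    · have h2 : 1 ≤ indic Θ X + indic Θ Y := by
        rcases h X hX Y hY hc with h' | h'
        · have := hi0 Θ Y; simp only [indic, h', if_true] at this ⊢; linarith
        · have := hi0 Θ X; simp only [indic, h', if_true] at this ⊢; linarith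
      have h3 : ∏ a ∈ S, (1 + -(1 / p ^ 2) * ctr p (X a) * ctr p (Y a))
          ≤ (1 / p ^ 2) ^ S.card := by
        refine (le_abs_self _).trans ?_
        rw [Finset.abs_prod, ← Finset.prod_const]
        exact Finset.prod_le_prod (fun _ _ => abs_nonneg _) fun a _ => hfac _ _
      have h4 : indic 𝒜 X * indic 𝒜 Y = 1 := by simp [indic, hX, hY]
      rw [h4, one_mul]
      exact h3.trans (le_mul_of_one_le_left (by positivity) h2)
    · push Not at hc
      obtain ⟨a, ha, hXa, hYa⟩ := hc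
      rw [Finset.prod_eq_zero ha, mul_zero]
      · exact hR
      · simp only [ctr, hXa, hYa]; field_simp; simp
  have hup2 := Ex_mono h0.le h1.le (fun X => Ex_mono h0.le h1.le (hup X))
  simp_rw [Ex_mul_const, Ex_add, Ex_const] at hup2
  rw [Ex_indic] at hup2
  linarith

end

end Crest.Agent.R52
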