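import Crest.Agent.R52.Pieces

/-! Assembly of the partition theorem (S0073). -/

set_option autoImplicit false

namespace Crest.Agent.R52
open Finset Crest.FinProb Crest.CombinatoricsR.RandomGraph

/-- The labels of the pieces. -/
abbrev Lab : Type := Fin 500 × Fin 501 × Fin 600 × Fin 600 × Bool × Bool

variable {W : Type} [Fintype W] [DecidableEq W] {n : ℕ}

theorem exists_labelling {H : SimpleGraph W} {r P S₀ : ℝ} (hW : Fintype.card W ≤ n)
    (hn : 600 ≤ n) (hns : ¬ SmallAt n H r) (hr0 : 0 < r) (hrP : 1000000 * r ≤ P)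
    (hP : P ≤ 1 / 2) (hS₀ : 1000 ≤ S₀) (hS₀' : ∀ s, S₀ ≤ s → 1000 * s ^ 100 ≤ Real.exp s)
    (hrS : S₀ * r ≤ 1) (Nb : W → Finset W) (rk : W → ℕ) (hadj : ∀ v, ∀ u ∈ Nb v, H.Adj v u)
    (hrk : ∀ v, ∀ u ∈ Nb v, rk u < rk v)
    (hdeg : ∀ v, 1 < 4 * (n : ℝ) ^ 2 * r ^ (Nb v).card) :
    ∃ lab : W → W → Lab, ∀ l : Lab,
      1 / 2 ≤ gnpProb n P (EmbEv n (fun v => (Nb v).filter (fun u => lab v u = l))) := by
  classical
  have hP0 : 0 < P := by linarith
  have hP1 : P ≤ 1 := by linarith
  obtain ⟨cls, hcls⟩ := exists_split (univ : Finset W) 600 (n / 600 + 1) (by norm_num)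
    (by rw [Finset.card_univ]; omega)
  by_cases hA : ∀ v, (Nb v).card ≤ 500
  · choose slot hslot using fun v => exists_split (Nb v) 500 1 (by norm_num) (by simpa using hA v)
    obtain ⟨col, hcol⟩ := exists_back_colouring Nb rk hrk 500 hA
    refine ⟨fun v u => (slot v u, col v, cls v, cls u, false, false), ?_⟩
    rintro ⟨j, c, a, a', b₁, b₂⟩
    refine le_trans (piece_stars (H := H) hW hn hns hr0 hrP hP
      (fun v => (Nb v).filter (fun u => slot v u = j ∧ col v = c ∧ cls v = a ∧ cls u = a'))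
      (fun v u hu => hadj v u (Finset.mem_filter.mp hu).1) (fun v => ?_) (fun v u hu => ?_)
      (univ.filter (fun x => cls x = a')) (univ.filter (fun x => cls x = a)) (fun v u hu => ?_)
      (hcls _) (hcls _)) (gnpProb_EmbEv_mono hP0.le hP1 fun v u hu => ?_)
    · refine le_trans (Finset.card_le_card fun u hu => ?_) (hslot v j)
      rw [Finset.mem_filter] at hu ⊢
      exact ⟨hu.1, hu.2.1⟩
    · rw [Finset.filter_eq_empty_iff]
      intro w _ hw
      rw [Finset.mem_filter] at hu
      exact hcol v u hu.1 (hu.2.2.1.trans hw.2.1.symm)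
    · rw [Finset.mem_filter] at hu
      simp [hu.2.2.2.1, hu.2.2.2.2]
    · rw [Finset.mem_filter] at hu ⊢
      simp only [Prod.mk.injEq] at hu
      exact ⟨hu.1, hu.2.1, hu.2.2.1, hu.2.2.2.1, hu.2.2.2.2.1⟩
  · push Not at hA
    obtain ⟨v₁, hv₁⟩ := hA
    obtain ⟨v₀, -, hv₀⟩ := Finset.exists_max_image univ (fun v => (Nb v).card) ⟨v₁, mem_univ _⟩
    set b := (Nb v₀).card with hb
    have hb500 : 500 < b := hv₁.trans_le (hv₀ v₁ (mem_univ _))
    set D := b / 500 + 1 with hD
    have hnR : (600 : ℝ) ≤ n := by exact_mod_cast hn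
    have hr1 : r ≤ 1 / 1000 := by nlinarith
    set s : ℝ := (n : ℝ) ^ ((100 : ℕ) : ℝ)⁻¹ with hs
    have hsn : s ^ 100 = n := Real.rpow_inv_natCast_pow (Nat.cast_nonneg _) (by norm_num)
    have hs0 : 0 ≤ s := by positivity
    have hrD : 1 ≤ s * r ^ D := by
      have h1 := hdeg v₀
      rw [← hb] at h1
      have h2 : r ^ (2 * b) ≤ r ^ (500 * D) :=
        pow_le_pow_of_le_one hr0.le (by linarith) (by omega)
      have h3 : 1 ≤ (4 * (n : ℝ) ^ 2 * r ^ b) ^ 2 := one_le_pow₀ h1.le
      have h4 : (1 : ℝ) ^ 500 ≤ (s * r ^ D) ^ 500 := by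
        have e1 : (s * r ^ D) ^ 500 = (n : ℝ) ^ 5 * r ^ (500 * D) := by
          rw [mul_pow, ← hsn, ← pow_mul, ← pow_mul, mul_comm D 500]
        have e2 : (4 * (n : ℝ) ^ 2 * r ^ b) ^ 2 = 16 * (n : ℝ) ^ 4 * r ^ (2 * b) := by ring
        rw [e1, one_pow]
        refine h3.trans ?_
        rw [e2]
        have : 16 * (n : ℝ) ^ 4 ≤ (n : ℝ) ^ 5 := by
          rw [pow_succ _ 4, mul_comm]; gcongr; linarith
        gcongr
      exact le_of_pow_le_pow_left₀ (by norm_num) (by positivity) h4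
    have hD1 : D ≠ 0 := by omega
    have hSs : S₀ ≤ s := by
      have h1 : r ^ D ≤ r := pow_le_of_le_one hr0.le (by linarith) hD1
      have h2 : S₀ * r ≤ s * r := hrS.trans (hrD.trans (by gcongr))
      exact le_of_mul_le_mul_right h2 hr0
    have hs1000 : 1000 ≤ s := hS₀.trans hSs
    have hDs : (D : ℝ) ≤ s := by
      have h1 : r ^ D ≤ (1 / 2) ^ D := pow_le_pow_left₀ hr0.le (by linarith) D
      have h2 : (D : ℝ) ≤ 2 ^ D := by exact_mod_cast Nat.lt_two_pow_self.le
      have h3 : 1 ≤ s * (1 / 2) ^ D := hrD.trans (by gcongr)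
      rw [one_div_pow, mul_one_div, le_div_iff₀ (by positivity)] at h3
      linarith
    have hexp := hS₀' s hSs
    choose slot hslot using fun v => exists_split (Nb v) 500 D (by norm_num)
      ((hv₀ v (mem_univ _)).trans (by omega))
    let fdeg : W → ℕ := fun u => (univ.filter (fun v => u ∈ Nb v)).card
    let hub : W → Prop := fun u => s ^ 50 < fdeg u
    have hhub : ((univ.filter hub).card : ℝ) ≤ s ^ 52 := by
      have h1 : ∑ u, fdeg u = ∑ v, (Nb v).card := by
        simp only [fdeg, Finset.card_filter]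
        rw [Finset.sum_comm]
        refine Finset.sum_congr rfl fun v _ => ?_
        rw [← Finset.card_filter]; simp
      have h2 : ∑ v, (Nb v).card ≤ n * (500 * D) := by
        refine (Finset.sum_le_card_nsmul _ _ (500 * D) fun v _ =>
          (hv₀ v (mem_univ _)).trans (by omega)).trans ?_
        rw [smul_eq_mul, Finset.card_univ]
        exact Nat.mul_le_mul_right _ hW
      have h3 : ((univ.filter hub).card : ℝ) * s ^ 50 ≤ ∑ u, (fdeg u : ℝ) := by
        rw [← nsmul_eq_mul, ← Finset.sum_const]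
        exact le_trans (Finset.sum_le_sum fun u hu => (Finset.mem_filter.mp hu).2.le)
          (Finset.sum_le_sum_of_subset_of_nonneg (Finset.subset_univ _)
            fun _ _ _ => Nat.cast_nonneg _)
      have h4 : ∑ u, (fdeg u : ℝ) ≤ n * (500 * D) := by exact_mod_cast h1.le.trans h2
      have h5 : (n : ℝ) * (500 * D) ≤ s ^ 52 * s ^ 50 := by
        rw [← hsn]
        calc s ^ 100 * (500 * (D : ℝ)) ≤ s ^ 100 * (s * s) := by gcongr; linarith
          _ = _ := by ring
      exact le_of_mul_le_mul_right (h3.trans (h4.trans h5)) (by positivity)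
    have hI : ∀ (j : Fin 500) (a a' : Fin 600), ∃ side : W → W → Bool, ∀ i : Bool,
        1 / 2 ≤ gnpProb n P (EmbEv n (fun v => ((Nb v).filter (fun u =>
          slot v u = j ∧ cls v = a ∧ cls u = a' ∧ (hub u ∧ ¬ hub v))).filter
            (fun u => side v u = i))) := by
      intro j a a'
      refine piece_typeI (H := H) hW hns hr0 hrP hP hs1000 hsn hexp D hDs hrD _
        (fun v u hu => hadj v u (Finset.mem_filter.mp hu).1) (fun v => ?_)
        (univ.filter (fun x => cls x = a' ∧ hub x)) (univ.filter (fun x => cls x = a ∧ ¬ hub x))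
        ?_ (fun v u hu => ?_) ?_ ?_
      · refine le_trans (Finset.card_le_card fun u hu => ?_) (hslot v j)
        rw [Finset.mem_filter] at hu ⊢
        exact ⟨hu.1, hu.2.1⟩
      · rw [Finset.disjoint_left]
        intro x hx hx'
        exact (Finset.mem_filter.mp hx').2.2 (Finset.mem_filter.mp hx).2.2
      · rw [Finset.mem_filter] at hu
        exact ⟨Finset.mem_filter.mpr ⟨mem_univ _, hu.2.2.1, hu.2.2.2.2.2⟩,
          Finset.mem_filter.mpr ⟨mem_univ _, hu.2.2.2.1, hu.2.2.2.2.1⟩⟩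
      · refine le_trans (Finset.card_le_card fun x hx => ?_) (hcls a')
        rw [Finset.mem_filter] at hx ⊢
        exact ⟨hx.1, hx.2.1⟩
      · refine le_trans (Finset.card_le_card fun x hx => ?_) (hcls a)
        rw [Finset.mem_filter] at hx ⊢
        exact ⟨hx.1, hx.2.1⟩
    choose side hside using hI
    refine ⟨fun v u => (slot v u, 0, cls v, cls u, decide (hub u ∧ ¬ hub v),
      side (slot v u) (cls v) (cls u) v u), ?_⟩
    rintro ⟨j, c, a, a', b₁, i⟩
    cases b₁
    · refine le_trans (piece_typeII hW hr0 (by linarith) hP1 hs1000 hsn hexp D hDs hrD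
        (fun v => (Nb v).filter (fun u =>
          slot v u = j ∧ cls v = a ∧ cls u = a' ∧ ¬ (hub u ∧ ¬ hub v))) rk
        (fun v u hu => hrk v u (Finset.mem_filter.mp hu).1) (fun v => ?_) (fun u => ?_)
        (univ.filter (fun x => cls x = a')) (univ.filter (fun x => cls x = a)) (fun v u hu => ?_)
        (hcls _) (hcls _)) (gnpProb_EmbEv_mono hP0.le hP1 fun v u hu => ?_)
      · refine le_trans (Finset.card_le_card fun u hu => ?_) (hslot v j)
        rw [Finset.mem_filter] at hu ⊢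
        exact ⟨hu.1, hu.2.1⟩
      · by_cases hu : hub u
        · refine le_trans ?_ hhub
          refine Nat.cast_le.mpr (Finset.card_le_card fun v hv => ?_)
          have h := (Finset.mem_filter.mp (Finset.mem_filter.mp hv).2).2.2.2.2
          refine Finset.mem_filter.mpr ⟨mem_univ _, ?_⟩
          by_contra h'
          exact h ⟨hu, h'⟩
        · have h1 : (fdeg u : ℝ) ≤ s ^ 50 := not_lt.mp hu
          have h2 : s ^ 50 ≤ s ^ 52 := pow_le_pow_right₀ (by linarith) (by norm_num)
          refine le_trans ?_ (h1.trans h2)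
          refine Nat.cast_le.mpr (Finset.card_le_card fun v hv => ?_)
          exact Finset.mem_filter.mpr ⟨mem_univ _,
            (Finset.mem_filter.mp (Finset.mem_filter.mp hv).2).1⟩
      · rw [Finset.mem_filter] at hu
        simp [hu.2.2.1, hu.2.2.2.1]
      · rw [Finset.mem_filter] at hu ⊢
        simp only [Prod.mk.injEq] at hu
        exact ⟨hu.1, hu.2.1, hu.2.2.2.1, hu.2.2.2.2.1, of_decide_eq_false hu.2.2.2.2.2.1⟩
    · refine le_trans (hside j a a' i) (gnpProb_EmbEv_mono hP0.le hP1 fun v u hu => ?_)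
      rw [Finset.mem_filter] at hu
      simp only [Prod.mk.injEq] at hu
      obtain ⟨h1, h2, -, h3, h4, h5, h6⟩ := hu
      rw [h2, h3, h4] at h6
      exact Finset.mem_filter.mpr ⟨Finset.mem_filter.mpr
        ⟨h1, h2, h3, h4, of_decide_eq_true h5⟩, h6⟩

theorem exists_threshold : ∃ S₀ : ℝ, 1000 ≤ S₀ ∧ ∀ s, S₀ ≤ s → 1000 * s ^ 100 ≤ Real.exp s := by
  have h := (Real.tendsto_pow_mul_exp_neg_atTop_nhds_zero 100).eventually
    (ge_mem_nhds (by norm_num : (0 : ℝ) < 1 / 1000))
  obtain ⟨a, ha⟩ := Filter.eventually_atTop.mp h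
  refine ⟨max a 1000, le_max_right _ _, fun s hs => ?_⟩
  have h1 := ha s ((le_max_left _ _).trans hs)
  rw [Real.exp_neg, ← div_eq_mul_inv, div_le_iff₀ (Real.exp_pos _)] at h1
  linarith

theorem partition_thm : ∃ L : ℝ, 1 ≤ L ∧ ∀ (n : ℕ) (W : Type) [Fintype W] [DecidableEq W]
    (H : SimpleGraph W), Fintype.card W ≤ n → H ≠ ⊥ →
    ∃ c : H.edgeSet → Fin (Fintype.card Lab), ∃ p : ℝ, 0 ≤ p ∧ p ≤ 1 ∧ SmallAt n H p ∧
      ∀ i, 1 / 2 ≤ gnpProb n (min 1 (L * p)) {G | (pieceGraph H c i).IsContained G} := by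
  classical
  obtain ⟨S₀, hS₀, hS₀'⟩ := exists_threshold
  refine ⟨4000000 * S₀, by linarith, fun n W _ _ H hW hH => ?_⟩
  have hex := exists_smallAt_pow (n := n) hH
  set j := Nat.find hex with hj
  have hsm : SmallAt n H ((1 / 2) ^ j) := Nat.find_spec hex
  have hq0 : (0 : ℝ) < (1 / 2) ^ j := by positivity
  have hq1 : ((1 : ℝ) / 2) ^ j ≤ 1 := pow_le_one₀ (by norm_num) (by norm_num)
  by_cases hL : 1 ≤ 4000000 * S₀ * (1 / 2) ^ j
  · refine ⟨fun _ => (Fintype.equivFin Lab) default, _, hq0.le, hq1, hsm, fun i => ?_⟩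
    rw [min_eq_left hL, gnpProb_one_of_card_le hW]; norm_num
  have hL := not_le.mp hL
  have hj0 : j ≠ 0 := by
    intro h; rw [h] at hL; simp at hL; linarith
  obtain ⟨j', hj'⟩ := Nat.exists_eq_succ_of_ne_zero hj0
  have hns : ¬ SmallAt n H ((1 / 2) ^ j') := Nat.find_min hex (by omega)
  set r : ℝ := (1 / 2) ^ j' with hr
  have hr0 : 0 < r := by positivity
  have hq : ((1 : ℝ) / 2) ^ j = r / 2 := by rw [hj', pow_succ]; ring
  rw [hq] at hL hsm hq1
  have hSr : 2000000 * (S₀ * r) < 1 := by linarith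
  have hr1 : 2000000000 * r < 1 := by nlinarith
  have hn : 600 ≤ n := by
    obtain ⟨a, b, hab⟩ := SimpleGraph.ne_bot_iff_exists_adj.mp hH
    have h1 := count_density hns hr0.le {a, b} {s(a, b)} (by
      intro e he
      rw [Finset.mem_singleton] at he
      subst he
      exact ⟨hab, fun v hv => by simpa using hv⟩)
    rw [Finset.card_pair hab.ne, Finset.card_singleton, pow_one] at h1
    by_contra hlt
    have h2 : (n : ℝ) ≤ 600 := by exact_mod_cast (not_le.mp hlt).le
    have h3 : (n : ℝ) ^ 2 ≤ 600 ^ 2 := by gcongr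
    nlinarith
  obtain ⟨rk, hrk, hdeg⟩ := exists_degeneracy_order H (fun d => 1 < 4 * (n : ℝ) ^ 2 * r ^ d)
    (fun a b hab h => h.trans_le (by
      have := pow_le_pow_of_le_one hr0.le (by linarith) hab
      gcongr)) (exists_low_degree hns hr0.le (by linarith))
  have hP : 4000000 * S₀ * (r / 4) ≤ 1 / 2 := by linarith
  obtain ⟨lab, hlab⟩ := exists_labelling (P := 4000000 * S₀ * (r / 4)) hW hn hns hr0
    (by nlinarith) hP hS₀ hS₀' (by linarith)
    (fun v => univ.filter (fun u => H.Adj v u ∧ rk u < rk v)) rk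
    (fun v u hu => (Finset.mem_filter.mp hu).2.1) (fun v u hu => (Finset.mem_filter.mp hu).2.2)
    hdeg
  obtain ⟨c, hc⟩ := piece_reduction H n rk hrk (Fintype.equivFin Lab) lab
    (P := 4000000 * S₀ * (r / 4)) (by positivity) (by linarith) (fun l => by
      have := hlab l
      simp only [Finset.filter_filter, and_assoc] at this
      exact this)
  refine ⟨c, r / 4, by positivity, by linarith, smallAt_mono (by positivity) (by linarith) hsm,
    fun i => ?_⟩
  rw [min_eq_right (by linarith)]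
  exact hc i

end Crest.Agent.R52
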