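import Crest.Agent.R52.Defs

/-! Degeneracy order, greedy colouring, splitting and the reduction to oriented pieces. -/

set_option autoImplicit false
set_option linter.unusedSectionVars false

namespace Crest.Agent.R52
open Finset Crest.FinProb Crest.CombinatoricsR.RandomGraph

variable {W : Type} [Fintype W] [DecidableEq W]

omit [Fintype W] in
theorem exists_degeneracy_order_aux (H : SimpleGraph W) [DecidableRel H.Adj] (P : ℕ → Prop)
    (h : ∀ U : Finset W, U.Nonempty → ∃ v ∈ U, P (U.filter (fun u => H.Adj v u)).card)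
    (hP : ∀ a b, a ≤ b → P b → P a) (m : ℕ) :
    ∀ U : Finset W, U.card = m → ∃ rk : W → ℕ, Set.InjOn rk U ∧ (∀ v ∈ U, rk v < m) ∧
      ∀ v ∈ U, P (U.filter (fun u => H.Adj v u ∧ rk u < rk v)).card := by
  induction m with
  | zero =>
    intro U hU
    rw [Finset.card_eq_zero] at hU
    subst hU
    exact ⟨fun _ => 0, by simp, by simp, by simp⟩
  | succ m ih =>
    intro U hU
    obtain ⟨v0, hv0, hP0⟩ := h U (Finset.card_pos.mp (by omega))
    obtain ⟨rk, hinj, hlt, hdeg⟩ := ih (U.erase v0) (by rw [Finset.card_erase_of_mem hv0]; omega)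
    refine ⟨fun v => if v = v0 then m else rk v, ?_, ?_, ?_⟩
    · intro a ha b hb hab
      by_cases h1 : a = v0 <;> by_cases h2 : b = v0
      · rw [h1, h2]
      · simp only [h1, h2, if_true, if_false] at hab
        have := hlt b (Finset.mem_erase.mpr ⟨h2, hb⟩)
        omega
      · simp only [h1, h2, if_true, if_false] at hab
        have := hlt a (Finset.mem_erase.mpr ⟨h1, ha⟩)
        omega
      · simp only [h1, h2, if_false] at hab
        exact hinj (Finset.mem_coe.mpr (Finset.mem_erase.mpr ⟨h1, ha⟩))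
          (Finset.mem_coe.mpr (Finset.mem_erase.mpr ⟨h2, hb⟩)) hab
    · intro v hv
      by_cases h1 : v = v0
      · simp [h1]
      · simp only [h1, if_false]
        have := hlt v (Finset.mem_erase.mpr ⟨h1, hv⟩)
        omega
    · intro v hv
      by_cases h1 : v = v0
      · subst h1
        refine hP _ _ (Finset.card_le_card ?_) hP0
        intro u hu
        rw [Finset.mem_filter] at hu ⊢
        exact ⟨hu.1, hu.2.1⟩
      · refine hP _ _ (Finset.card_le_card ?_) (hdeg v (Finset.mem_erase.mpr ⟨h1, hv⟩))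
        intro u hu
        rw [Finset.mem_filter] at hu ⊢
        obtain ⟨huU, hadj, hr⟩ := hu
        have hv' := hlt v (Finset.mem_erase.mpr ⟨h1, hv⟩)
        by_cases h2 : u = v0
        · simp only [h1, h2, if_true, if_false] at hr
          omega
        · simp only [h1, h2, if_false] at hr
          exact ⟨Finset.mem_erase.mpr ⟨h2, huU⟩, hadj, hr⟩

theorem exists_degeneracy_order (H : SimpleGraph W) [DecidableRel H.Adj] (P : ℕ → Prop)
    (hP : ∀ a b, a ≤ b → P b → P a)
    (h : ∀ U : Finset W, U.Nonempty → ∃ v ∈ U, P (U.filter (fun u => H.Adj v u)).card) :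
    ∃ rk : W → ℕ, Function.Injective rk ∧
      ∀ v, P (Finset.univ.filter (fun u => H.Adj v u ∧ rk u < rk v)).card := by
  obtain ⟨rk, hinj, -, hdeg⟩ := exists_degeneracy_order_aux H P h hP _ Finset.univ rfl
  refine ⟨rk, fun a b hab => hinj (by simp) (by simp) hab, fun v => hdeg v (Finset.mem_univ v)⟩

omit [Fintype W] [DecidableEq W] in
theorem exists_back_colouring_aux (N : W → Finset W) (rk : W → ℕ)
    (hrk : ∀ v, ∀ u ∈ N v, rk u < rk v) (b : ℕ) (hN : ∀ v, (N v).card ≤ b) (m : ℕ) :
    ∃ col : W → Fin (b + 1), ∀ v, rk v < m → ∀ u ∈ N v, col v ≠ col u := by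
  classical
  induction m with
  | zero => exact ⟨fun _ => 0, fun v hv => absurd hv (Nat.not_lt_zero _)⟩
  | succ m ih =>
    obtain ⟨col, hcol⟩ := ih
    have hex : ∀ v, ∃ c : Fin (b + 1), c ∉ (N v).image col := by
      intro v
      by_contra hcon
      push Not at hcon
      have h1 : (Finset.univ : Finset (Fin (b + 1))) ⊆ (N v).image col := fun c _ => hcon c
      have h2 := Finset.card_le_card h1
      have h3 := Finset.card_image_le (s := N v) (f := col)
      have h4 := hN v
      simp at h2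
      omega
    choose c hc using hex
    refine ⟨fun v => if rk v = m then c v else col v, fun v hv u hu => ?_⟩
    have hlt := hrk v u hu
    have hu' : rk u ≠ m := by omega
    by_cases h1 : rk v = m
    · simp only [h1, hu', if_true, if_false]
      intro heq
      exact hc v (heq ▸ Finset.mem_image_of_mem col hu)
    · simp only [h1, hu', if_false]
      exact hcol v (by omega) u hu

omit [DecidableEq W] in
theorem exists_back_colouring (N : W → Finset W) (rk : W → ℕ)
    (hrk : ∀ v, ∀ u ∈ N v, rk u < rk v) (b : ℕ) (hN : ∀ v, (N v).card ≤ b) :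
    ∃ col : W → Fin (b + 1), ∀ v, ∀ u ∈ N v, col v ≠ col u := by
  obtain ⟨col, hcol⟩ := exists_back_colouring_aux N rk hrk b hN (Finset.univ.sup rk + 1)
  exact ⟨col, fun v => hcol v (Nat.lt_succ_of_le (Finset.le_sup (f := rk) (Finset.mem_univ v)))⟩

theorem exists_split {α : Type*} [DecidableEq α] (S : Finset α) (k D : ℕ) (hk : 0 < k)
    (h : S.card ≤ k * D) : ∃ f : α → Fin k, ∀ j, (S.filter (fun x => f x = j)).card ≤ D := by
  classical
  have hc : Fintype.card S ≤ Fintype.card (Fin k × Fin D) := by simpa using h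
  obtain ⟨e⟩ := Function.Embedding.nonempty_of_card_le hc
  refine ⟨fun x => if hx : x ∈ S then (e ⟨x, hx⟩).1 else ⟨0, hk⟩, fun j => ?_⟩
  have hD : (Finset.univ : Finset (Fin D)).card = D := by simp
  refine le_trans ?_ hD.le
  rcases Nat.eq_zero_or_pos D with h0 | hpos
  · subst h0
    have : S = ∅ := by
      rw [← Finset.card_eq_zero]; simpa using h
    simp [this]
  refine Finset.card_le_card_of_injOn
    (fun x => if hx : x ∈ S then (e ⟨x, hx⟩).2 else ⟨0, hpos⟩) (fun _ _ => by simp) ?_
  intro a ha b hb hab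
  rw [Finset.mem_coe, Finset.mem_filter] at ha hb
  obtain ⟨ha1, ha2⟩ := ha
  obtain ⟨hb1, hb2⟩ := hb
  simp only [ha1, hb1, dif_pos] at ha2 hb2 hab
  have : e ⟨a, ha1⟩ = e ⟨b, hb1⟩ := Prod.ext (ha2.trans hb2.symm) hab
  exact congrArg Subtype.val (e.injective this)

theorem piece_reduction (H : SimpleGraph W) [DecidableRel H.Adj] (n : ℕ) (rk : W → ℕ)
    (hrk : Function.Injective rk) {Λ : Type} [DecidableEq Λ] {k : ℕ} (e : Λ ≃ Fin k)
    (lab : W → W → Λ) {P : ℝ} (h0 : 0 ≤ P) (h1 : P ≤ 1)
    (h : ∀ l : Λ, 1 / 2 ≤ gnpProb n P (EmbEv n (fun v => Finset.univ.filter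
      (fun u => H.Adj v u ∧ rk u < rk v ∧ lab v u = l)))) :
    ∃ c : H.edgeSet → Fin k, ∀ i : Fin k,
      1 / 2 ≤ gnpProb n P {G | (pieceGraph H c i).IsContained G} := by
  let g : W → W → Λ := fun a b => if rk b < rk a then lab a b else
    if rk a < rk b then lab b a else lab a a
  have hg : ∀ a b, g a b = g b a := by
    intro a b
    rcases lt_trichotomy (rk a) (rk b) with hlt | heq | hgt
    · simp [g, hlt, hlt.not_gt]
    · have := hrk heq
      subst this; rfl
    · simp [g, hgt, hgt.not_gt]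
  let c : H.edgeSet → Fin k := fun z => e (Sym2.lift ⟨g, hg⟩ z.1)
  refine ⟨c, fun i => (h (e.symm i)).trans ?_⟩
  unfold gnpProb
  refine prob_mono h0 h1 ?_
  rintro ω ⟨φ, hφ, hadj⟩
  refine ⟨⟨⟨φ, ?_⟩, hφ⟩⟩
  intro a b hab
  unfold pieceGraph at hab
  rw [SimpleGraph.fromEdgeSet_adj] at hab
  obtain ⟨⟨hmem, hc⟩, hne⟩ := hab
  have hH : H.Adj a b := by simpa using hmem
  have hc' : g a b = e.symm i := by
    rw [← hc]; simp [c]
  rcases lt_trichotomy (rk a) (rk b) with hlt | heq | hgt
  · have : lab b a = e.symm i := by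
      rw [← hc']; simp [g, hlt, hlt.not_gt]
    exact (hadj b a (by simp [hH.symm, hlt, this])).symm
  · exact absurd (hrk heq) hne
  · have : lab a b = e.symm i := by
      rw [← hc']; simp [g, hgt]
    exact hadj a b (by simp [hH, hgt, this])

end Crest.Agent.R52
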