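import Crest.Agent.R52.Defs

/-! Binomial tails and the embedding of a star forest. -/

set_option autoImplicit false

namespace Crest.Agent.R52
open Finset Crest.FinProb Crest.CombinatoricsR.RandomGraph

theorem binTail_ge_half {m d : ℕ} {p : ℝ} (h0 : 0 ≤ p) (h1 : p ≤ 1)
    (h : 2 * (d : ℝ) ≤ m * p) : 1 / 2 ≤ binTail m d p := by
  unfold binTail
  set E : Set (Fin m → Bool) := {ω | d ≤ (Finset.univ.filter (fun i => ω i = true)).card} with hE
  have h2 := prob_compl p E
  have h3 : bernoulliProb p Eᶜ ≤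
      Ex p (fun ω : Fin m → Bool => 2 ^ d / 2 * ∏ i, (if ω i = true then (1 / 2 : ℝ) else 1)) := by
    refine prob_le_Ex h0 h1 (fun ω => ?_) fun ω hω => ?_
    · refine mul_nonneg (by positivity) (Finset.prod_nonneg fun i _ => ?_)
      split_ifs <;> norm_num
    · rw [Finset.prod_ite, Finset.prod_const_one, mul_one, Finset.prod_const]
      have hc : (Finset.univ.filter (fun i => ω i = true)).card + 1 ≤ d := by
        simpa [hE] using hω
      have : (2 : ℝ) ^ ((Finset.univ.filter (fun i => ω i = true)).card + 1) ≤ 2 ^ d :=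
        pow_le_pow_right₀ (by norm_num) hc
      rw [one_div, inv_pow, ← div_eq_mul_inv, div_div, le_div_iff₀ (by positivity), one_mul,
        ← pow_succ']
      exact this
  rw [Ex_const_mul, Ex_prod p (fun _ b => if b = true then (1 / 2 : ℝ) else 1)] at h3
  simp only [if_true, Bool.false_eq_true, if_false, Finset.prod_const, Finset.card_univ,
    Fintype.card_fin] at h3
  have h4 : (p * (1 / 2) + (1 - p) * 1) ^ m ≤ Real.exp (-(p / 2)) ^ m := by
    refine pow_le_pow_left₀ (by linarith) ?_ m
    have := Real.add_one_le_exp (-(p / 2))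
    linarith
  have h5 : Real.exp (-(p / 2)) ^ m ≤ Real.exp (-1) ^ d := by
    rw [← Real.exp_nat_mul, ← Real.exp_nat_mul]
    exact Real.exp_le_exp.2 (by linarith)
  have h6 : (2 : ℝ) ^ d * Real.exp (-1) ^ d ≤ 1 := by
    rw [← mul_pow]
    refine pow_le_one₀ (by positivity) ?_
    have := Real.add_one_le_exp 1
    rw [Real.exp_neg, ← div_eq_mul_inv, div_le_one (Real.exp_pos 1)]
    linarith
  have h7 : (2 : ℝ) ^ d / 2 * (p * (1 / 2) + (1 - p) * 1) ^ m ≤ 2 ^ d / 2 * Real.exp (-1) ^ d :=
    mul_le_mul_of_nonneg_left (h4.trans h5) (by positivity)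
  linarith

theorem binTail_ge_choose {m d : ℕ} {p : ℝ} (h0 : 0 ≤ p) (h1 : p ≤ 1) :
    (m.choose d : ℝ) * p ^ d * (1 - p) ^ m ≤ binTail m d p := by
  classical
  unfold binTail bernoulliProb
  set g : Finset (Fin m) → Fin m → Bool := fun T i => decide (i ∈ T) with hg
  have hinj : Function.Injective g := by
    intro T T' h
    ext i
    simpa [hg] using congrFun h i
  calc (m.choose d : ℝ) * p ^ d * (1 - p) ^ m
      = ∑ _T ∈ (Finset.univ : Finset (Fin m)).powersetCard d, p ^ d * (1 - p) ^ m := by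
        simp [mul_assoc]
    _ ≤ ∑ T ∈ (Finset.univ : Finset (Fin m)).powersetCard d, bernoulliWeight p (g T) := by
        refine Finset.sum_le_sum fun T hT => ?_
        have hc := (Finset.mem_powersetCard.1 hT).2
        unfold bernoulliWeight
        rw [Finset.prod_ite, Finset.prod_const, Finset.prod_const]
        have e1 : Finset.univ.filter (fun i => g T i = true) = T := by ext i; simp [hg]
        rw [e1, hc]
        refine mul_le_mul_of_nonneg_left (pow_le_pow_of_le_one (by linarith) (by linarith) ?_)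
          (by positivity)
        simpa using Finset.card_le_univ (Finset.univ.filter (fun i => ¬ g T i = true))
    _ = ∑ ω ∈ ((Finset.univ : Finset (Fin m)).powersetCard d).image g, bernoulliWeight p ω :=
        (Finset.sum_image hinj.injOn).symm
    _ ≤ _ := by
        refine Finset.sum_le_sum_of_subset_of_nonneg (fun ω hω => ?_)
          fun ω _ _ => wt_nonneg h0 h1 ω
        obtain ⟨T, hT, rfl⟩ := Finset.mem_image.1 hω
        have hc := (Finset.mem_powersetCard.1 hT).2
        have e1 : Finset.univ.filter (fun i => g T i = true) = T := by ext i; simp [hg]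
        simp only [Finset.mem_filter, Finset.mem_univ, true_and, Set.mem_ofPred_eq, e1, hc, le_refl]

/-- The centres in `C` can be placed on distinct rows with disjoint leaf sets inside `B`. -/
def st_good {W : Type} {a b : ℕ} (deg : W → ℕ) (X : Fin a → Fin b → Bool) (C : Finset W)
    (B : Finset (Fin b)) : Prop :=
  ∃ (r : W → Fin a) (L : W → Finset (Fin b)), Set.InjOn r C ∧
    (∀ c ∈ C, L c ⊆ B ∧ (L c).card = deg c ∧ ∀ j ∈ L c, X (r c) j = true) ∧
    ∀ c ∈ C, ∀ c' ∈ C, c ≠ c' → Disjoint (L c) (L c')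

theorem st_good_skip {W : Type} {a b : ℕ} {deg : W → ℕ} (X₀ : Fin b → Bool)
    {X : Fin a → Fin b → Bool} {C : Finset W} {B : Finset (Fin b)} (h : st_good deg X C B) :
    st_good deg (Fin.cons X₀ X : Fin (a + 1) → Fin b → Bool) C B := by
  obtain ⟨r, L, hr, hL, hd⟩ := h
  refine ⟨fun c => (r c).succ, L, fun c hc c' hc' hh => hr hc hc' (Fin.succ_injective _ hh),
    fun c hc => ?_, hd⟩
  simpa using hL c hc

theorem st_good_use {W : Type} [DecidableEq W] {a b : ℕ} {deg : W → ℕ} (X₀ : Fin b → Bool)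
    {X : Fin a → Fin b → Bool} {C : Finset W} {B : Finset (Fin b)} (c₀ : W)
    (L₀ : Finset (Fin b)) (hL₀ : L₀ ⊆ B) (hc₀ : L₀.card = deg c₀) (hX : ∀ j ∈ L₀, X₀ j = true)
    (h : st_good deg X (C.erase c₀) (B \ L₀)) :
    st_good deg (Fin.cons X₀ X : Fin (a + 1) → Fin b → Bool) C B := by
  obtain ⟨r, L, hr, hL, hd⟩ := h
  refine ⟨fun c => if c = c₀ then 0 else (r c).succ, fun c => if c = c₀ then L₀ else L c,
    fun c hc c' hc' hh => ?_, fun c hc => ?_, fun c hc c' hc' hne => ?_⟩
  · by_cases h1 : c = c₀ <;> by_cases h2 : c' = c₀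
    · rw [h1, h2]
    · simp [h1, h2, (Fin.succ_ne_zero _).symm] at hh
    · simp [h1, h2] at hh
    · simp only [h1, h2, if_false] at hh
      exact hr (by simpa using ⟨hc, h1⟩) (by simpa using ⟨hc', h2⟩) (Fin.succ_injective _ hh)
  · by_cases h1 : c = c₀
    · simpa [h1] using ⟨hL₀, hc₀, hX⟩
    · obtain ⟨e1, e2, e3⟩ := hL c (Finset.mem_erase.2 ⟨h1, hc⟩)
      simpa [h1] using ⟨e1.trans Finset.sdiff_subset, e2, e3⟩
  · by_cases h1 : c = c₀ <;> by_cases h2 : c' = c₀
    · exact absurd (h1.trans h2.symm) hne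
    · simp only [h1, h2, if_true, if_false]
      exact Finset.disjoint_sdiff.mono_right (hL c' (Finset.mem_erase.2 ⟨h2, hc'⟩)).1
    · simp only [h1, h2, if_true, if_false]
      exact (Finset.disjoint_sdiff.mono_right (hL c (Finset.mem_erase.2 ⟨h1, hc⟩)).1).symm
    · simp only [h1, h2, if_false]
      exact hd c (Finset.mem_erase.2 ⟨h1, hc⟩) c' (Finset.mem_erase.2 ⟨h2, hc'⟩) hne

theorem st_ExRows_cons {a b : ℕ} (p : ℝ) (F : (Fin (a + 1) → Fin b → Bool) → ℝ) :
    ExRows p F = Ex p fun X₀ => ExRows p fun X : Fin a → Fin b → Bool => F (Fin.cons X₀ X) := by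
  unfold ExRows Ex
  rw [← (Fin.consEquiv fun _ : Fin (a + 1) => Fin b → Bool).sum_comp, Fintype.sum_prod_type]
  refine Finset.sum_congr rfl fun X₀ _ => ?_
  rw [Finset.mul_sum]
  refine Finset.sum_congr rfl fun X _ => ?_
  rw [Fin.prod_univ_succ]
  simp [Fin.consEquiv, mul_assoc]

theorem st_row {b m d : ℕ} {p : ℝ} (h0 : 0 ≤ p) (h1 : p ≤ 1) (B : Finset (Fin b))
    (hB : m ≤ B.card) :
    binTail m d p ≤ Ex p fun X₀ : Fin b → Bool =>
      if d ≤ (B.filter (fun j => X₀ j = true)).card then (1 : ℝ) else 0 := by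
  classical
  obtain ⟨e⟩ := Function.Embedding.nonempty_of_card_le (α := Fin m) (β := B) (by simpa using hB)
  have he : Function.Injective fun k => (e k).1 := Subtype.val_injective.comp e.injective
  unfold binTail
  rw [prob_eq_Ex, ← Ex_comp_injective p _ he]
  refine Ex_mono h0 h1 fun X₀ => ?_
  split_ifs with ha hb
  · exact le_rfl
  · refine absurd (le_trans ha ?_) hb
    refine Finset.card_le_card_of_injOn (fun k => (e k).1) (fun k hk => ?_) he.injOn
    simpa using hk
  · norm_num
  · exact le_rfl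

open Classical in
theorem st_main {W : Type} [DecidableEq W] {b m : ℕ} (deg : W → ℕ) {p : ℝ} (h0 : 0 ≤ p)
    (h1 : p ≤ 1) (σ : W → ℝ) (hσ0 : ∀ u, 0 < σ u) (a : ℕ) :
    ∀ (C : Finset W) (B : Finset (Fin b)), (∀ c ∈ C, σ c ≤ binTail m (deg c) p) →
      m + ∑ c ∈ C, deg c ≤ B.card →
      (a : ℝ) * ExRows p (fun X : Fin a → Fin b → Bool => if st_good deg X C B then 0 else 1) ≤
        ∑ c ∈ C, 1 / σ c := by
  induction a with
  | zero =>
    intro C B _ _
    simp only [Nat.cast_zero, zero_mul]
    exact Finset.sum_nonneg fun c _ => (one_div_pos.2 (hσ0 c)).le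
  | succ a ih =>
    intro C B hσ hB
    rcases C.eq_empty_or_nonempty with rfl | ⟨c₀, hc₀⟩
    · have : ∀ X : Fin (a + 1) → Fin b → Bool, st_good deg X ∅ B := fun X =>
        ⟨fun _ => 0, fun _ => ∅, by simp, by simp, by simp⟩
      simp [this, ExRows_const]
    have hsum := Finset.add_sum_erase C deg hc₀
    have hsum' := Finset.add_sum_erase C (fun c => 1 / σ c) hc₀
    have hrow := st_row (d := deg c₀) h0 h1 B (m := m) (by omega)
    rw [st_ExRows_cons, ← Ex_const_mul]
    have hpt : ∀ X₀ : Fin b → Bool, ((a + 1 : ℕ) : ℝ) *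
        ExRows p (fun X : Fin a → Fin b → Bool =>
          if st_good deg (Fin.cons X₀ X : Fin (a + 1) → Fin b → Bool) C B then (0 : ℝ) else 1) ≤
        (∑ c ∈ C, 1 / σ c + 1) - 1 / σ c₀ *
          if deg c₀ ≤ (B.filter (fun j => X₀ j = true)).card then (1 : ℝ) else 0 := by
      intro X₀
      have hle1 : ExRows p (fun X : Fin a → Fin b → Bool =>
          if st_good deg (Fin.cons X₀ X : Fin (a + 1) → Fin b → Bool) C B then (0 : ℝ) else 1)
          ≤ 1 := by
        refine (ExRows_mono h0 h1 (G := fun _ => 1) fun X => ?_).trans (ExRows_const p 1).le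
        split_ifs <;> norm_num
      have ha : (0 : ℝ) ≤ a := Nat.cast_nonneg a
      push_cast
      split_ifs with hs
      · obtain ⟨L₀, hL₀, hcard⟩ := Finset.exists_subset_card_eq hs
        have hL₀B : L₀ ⊆ B := hL₀.trans (Finset.filter_subset _ _)
        have e1 := ih (C.erase c₀) (B \ L₀) (fun c hc => hσ c (Finset.mem_of_mem_erase hc)) (by
          rw [Finset.card_sdiff_of_subset hL₀B]; omega)
        have e2 := ExRows_mono h0 h1 (F := fun X : Fin a → Fin b → Bool =>
          if st_good deg (Fin.cons X₀ X : Fin (a + 1) → Fin b → Bool) C B then (0 : ℝ) else 1)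
          (G := fun X => if st_good deg X (C.erase c₀) (B \ L₀) then 0 else 1) fun X => by
            by_cases hX : st_good deg X (C.erase c₀) (B \ L₀)
            · rw [if_pos hX, if_pos (st_good_use X₀ c₀ L₀ hL₀B hcard
                (fun j hj => (Finset.mem_filter.1 (hL₀ hj)).2) hX)]
            · rw [if_neg hX]; split_ifs <;> norm_num
        have e3 := mul_le_mul_of_nonneg_left e2 ha
        linarith
      · have e1 := ih C B hσ hB
        have e2 := ExRows_mono h0 h1 (F := fun X : Fin a → Fin b → Bool =>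
          if st_good deg (Fin.cons X₀ X : Fin (a + 1) → Fin b → Bool) C B then (0 : ℝ) else 1)
          (G := fun X => if st_good deg X C B then 0 else 1) fun X => by
            by_cases hX : st_good deg X C B
            · rw [if_pos hX, if_pos (st_good_skip X₀ hX)]
            · rw [if_neg hX]; split_ifs <;> norm_num
        have e3 := mul_le_mul_of_nonneg_left e2 ha
        linarith
    refine (Ex_mono h0 h1 hpt).trans ?_
    rw [Ex_sub, Ex_const, Ex_const_mul]
    have e4 : 1 / σ c₀ * σ c₀ = 1 := by have := (hσ0 c₀).ne'; field_simp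
    have e5 := mul_le_mul_of_nonneg_left ((hσ c₀ hc₀).trans hrow) (one_div_pos.2 (hσ0 c₀)).le
    linarith

theorem stars {W : Type} [Fintype W] [DecidableEq W] {n : ℕ} (hW : Fintype.card W ≤ n)
    (N : W → Finset W) (hN1 : ∀ v, (N v).card ≤ 1) (hdisj : ∀ v, ∀ u ∈ N v, N u = ∅)
    (a b m : ℕ) (hab : a + b ≤ n)
    (hb : (Finset.univ.filter (fun v => (N v).Nonempty)).card + m ≤ b)
    {p : ℝ} (h0 : 0 ≤ p) (h1 : p ≤ 1) (σ : W → ℝ) (hσ0 : ∀ u, 0 < σ u)
    (hσ : ∀ u, (∃ v, u ∈ N v) →
      σ u ≤ binTail m (Finset.univ.filter (fun v => u ∈ N v)).card p) :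
    (a : ℝ) * (1 - gnpProb n p (EmbEv n N))
      ≤ ∑ u ∈ Finset.univ.filter (fun u => ∃ v, u ∈ N v), 1 / σ u := by
  classical
  set C : Finset W := Finset.univ.filter (fun u => ∃ v, u ∈ N v) with hC
  set Lv : W → Finset W := fun u => Finset.univ.filter (fun v => u ∈ N v) with hLv
  have huniq : ∀ v, ∀ u ∈ N v, ∀ u' ∈ N v, u = u' := fun v => Finset.card_le_one.1 (hN1 v)
  have hdeg : ∑ c ∈ C, (Lv c).card ≤ (Finset.univ.filter (fun v => (N v).Nonempty)).card := by
    rw [← Finset.card_biUnion]
    · refine Finset.card_le_card fun v hv => ?_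
      simp only [hLv, Finset.mem_biUnion, Finset.mem_filter, Finset.mem_univ, true_and] at hv ⊢
      obtain ⟨u, -, hu⟩ := hv
      exact ⟨u, hu⟩
    · intro u _ u' _ hne
      refine Finset.disjoint_left.2 fun v hv hv' => hne ?_
      simp only [hLv, Finset.mem_filter, Finset.mem_univ, true_and] at hv hv'
      exact huniq v u hv u' hv'
  have hmain := st_main (b := b) (m := m) (fun u => (Lv u).card) h0 h1 σ hσ0 a C Finset.univ
    (fun c hc => hσ c (by simpa [hC] using hc))
    (by simp only [Finset.card_univ, Fintype.card_fin]; omega)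
  let ρ : Fin a → Fin n := fun x => ⟨x, by omega⟩
  let α : Fin b → Fin n := fun j => ⟨a + j, by omega⟩
  have hρ : Function.Injective ρ := fun x y h => Fin.ext (by simpa [ρ] using h)
  have hα : Function.Injective α := fun x y h => Fin.ext (by simpa [α] using h)
  have hd : ∀ x j, ρ x ≠ α j := fun x j h => by
    have : (x : ℕ) = a + j := by simpa [ρ, α] using h
    omega
  have hG := ExRows_le_gnpProb h0 h1 ρ α hρ hα hd
    (fun X => st_good (fun u => (Lv u).card) X C Finset.univ) (EmbEv n N) (by
      rintro X G hXG ⟨r, L, hr, hL, hdis⟩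
      have hf : ∀ c, ∃ f : W → Fin n, c ∈ C →
          ((Lv c : Set W) ⊆ f ⁻¹' ((L c).image α : Finset (Fin n)) ∧ Set.InjOn f (Lv c)) := by
        intro c
        have : Nonempty (Fin n) := ⟨ρ (r c)⟩
        by_cases hc : c ∈ C
        · obtain ⟨f, hf⟩ := (Lv c).finite_toSet.exists_injOn_of_encard_le
            (t := (((L c).image α : Finset (Fin n)) : Set (Fin n))) (by
              rw [Set.encard_coe_eq_coe_finsetCard, Set.encard_coe_eq_coe_finsetCard,
                Finset.card_image_of_injective _ hα, (hL c hc).2.1])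
          exact ⟨f, fun _ => hf⟩
        · exact ⟨fun _ => ρ (r c), fun h => absurd h hc⟩
      choose f hf using hf
      have hf1 := fun c hc => (hf c hc).1
      have hf2 := fun c hc => (hf c hc).2
      let φ : W → Fin n := fun v => if h : (N v).Nonempty then f h.choose v else ρ (r v)
      have hmemC : ∀ v, ∀ u ∈ N v, u ∈ C := fun v u hu => by simpa [hC] using ⟨v, hu⟩
      have hmemL : ∀ v, ∀ u ∈ N v, v ∈ Lv u := fun v u hu => by simpa [hLv] using hu
      have hφ1 : ∀ v, ∀ u ∈ N v, φ v = f u v := by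
        intro v u hu
        have hne : (N v).Nonempty := ⟨u, hu⟩
        simp only [φ, dif_pos hne]
        rw [huniq v _ hne.choose_spec u hu]
      have hφ2 : ∀ u ∈ C, φ u = ρ (r u) := by
        intro u hu
        obtain ⟨v, hv⟩ : ∃ v, u ∈ N v := by simpa [hC] using hu
        simp [φ, hdisj v u hv]
      have hφ3 : ∀ v, ∀ u ∈ N v, ∃ j ∈ L u, α j = φ v := by
        intro v u hu
        rw [hφ1 v u hu]
        simpa using hf1 u (hmemC v u hu) (hmemL v u hu)
      obtain ⟨ψ, hψ, hψφ⟩ := exists_injective_extend hW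
        (C ∪ Finset.univ.filter (fun v => (N v).Nonempty)) φ (by
          intro x hx y hy hxy
          simp only [Finset.coe_union, Set.mem_union, Finset.mem_coe, Finset.mem_filter,
            Finset.mem_univ, true_and] at hx hy
          rcases hx with hx | ⟨u, hu⟩ <;> rcases hy with hy | ⟨u', hu'⟩
          · rw [hφ2 x hx, hφ2 y hy] at hxy
            exact hr hx hy (hρ hxy)
          · obtain ⟨j, -, hj⟩ := hφ3 y u' hu'
            rw [hφ2 x hx, ← hj] at hxy
            exact absurd hxy (hd _ _)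
          · obtain ⟨j, -, hj⟩ := hφ3 x u hu
            rw [hφ2 y hy, ← hj] at hxy
            exact absurd hxy.symm (hd _ _)
          · obtain ⟨j, hjL, hj⟩ := hφ3 x u hu
            obtain ⟨j', hjL', hj'⟩ := hφ3 y u' hu'
            have hjj : j = j' := hα (by rw [hj, hj', hxy])
            have huu : u = u' := by
              by_contra hne
              exact Finset.disjoint_left.1 (hdis u (hmemC x u hu) u' (hmemC y u' hu') hne) hjL
                (hjj ▸ hjL')
            subst huu
            rw [hφ1 x u hu, hφ1 y u hu'] at hxy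
            exact hf2 u (hmemC x u hu) (hmemL x u hu) (hmemL y u hu') hxy)
      refine ⟨ψ, hψ, fun v u hu => ?_⟩
      rw [hψφ v (Finset.mem_union_right _ (by simpa using ⟨u, hu⟩)),
        hψφ u (Finset.mem_union_left _ (hmemC v u hu)), hφ2 u (hmemC v u hu)]
      obtain ⟨j, hjL, hj⟩ := hφ3 v u hu
      rw [← hj]
      exact (hXG _ _ ((hL u (hmemC v u hu)).2.2 j hjL)).symm)
  have he : ExRows p (fun X : Fin a → Fin b → Bool =>
      if st_good (fun u => (Lv u).card) X C Finset.univ then (0 : ℝ) else 1) =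
      1 - ExRows p (fun X : Fin a → Fin b → Bool =>
        if st_good (fun u => (Lv u).card) X C Finset.univ then (1 : ℝ) else 0) := by
    rw [← ExRows_const (R := Fin a) (A := Fin b) p 1, ← ExRows_sub]
    congr 1
    funext X
    split_ifs <;> simp [ExRows_const]
  rw [he] at hmain
  have ha : (0 : ℝ) ≤ a := Nat.cast_nonneg a
  refine le_trans (mul_le_mul_of_nonneg_left ?_ ha) hmain
  linarith

end Crest.Agent.R52
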