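import Crest.Agent.R52.Defs

/-! Adaptive embedding of a degenerate oriented graph of bounded forward degree. -/

set_option autoImplicit false

namespace Crest.Agent.R52
open Finset Crest.FinProb Crest.CombinatoricsR.RandomGraph

/-- Override the coins in `Y`: heads exactly on `y`. -/
def t2_ovr {ι : Type*} [DecidableEq ι] (Y y : Finset ι) (ω : ι → Bool) : ι → Bool :=
  fun z => if z ∈ Y then decide (z ∈ y) else ω z

open Classical in
/-- Failure probability of the event `E` when the coins in `Y` are overridden. -/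
noncomputable def t2_fail {ι : Type*} [Fintype ι] [DecidableEq ι] (p : ℝ) (E : Set (ι → Bool))
    (Y y : Finset ι) : ℝ :=
  Ex p (fun ω => if t2_ovr Y y ω ∈ E then 0 else 1)

section test
variable {ι : Type*} [Fintype ι] [DecidableEq ι] {p : ℝ}

theorem t2_fail_le_one (h0 : 0 ≤ p) (h1 : p ≤ 1) (E : Set (ι → Bool)) (Y y : Finset ι) :
    t2_fail p E Y y ≤ 1 := by
  unfold t2_fail
  refine (Ex_mono h0 h1 (g := fun _ => 1) fun ω => ?_).trans (Ex_const p 1).le
  split_ifs <;> norm_num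

theorem t2_Ex_all (p : ℝ) (Q : Finset ι) :
    Ex p (fun ω : ι → Bool => if ∀ z ∈ Q, ω z = true then (1 : ℝ) else 0) = p ^ Q.card := by
  have h := Ex_prod (ι := ι) p (fun z b => if z ∈ Q then (if b = true then 1 else 0) else 1)
  have h2 : ∏ z : ι, (p * (if z ∈ Q then (if true = true then (1 : ℝ) else 0) else 1) +
      (1 - p) * (if z ∈ Q then (if false = true then (1 : ℝ) else 0) else 1)) = p ^ Q.card := by
    have : ∀ z : ι, (p * (if z ∈ Q then (if true = true then (1 : ℝ) else 0) else 1) +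
      (1 - p) * (if z ∈ Q then (if false = true then (1 : ℝ) else 0) else 1)) =
        if z ∈ Q then p else 1 := by
      intro z; by_cases hz : z ∈ Q <;> simp [hz]
    rw [Finset.prod_congr rfl fun z _ => this z, Finset.prod_ite_mem, Finset.univ_inter,
      Finset.prod_const]
  rw [← h2, ← h]
  congr 1
  funext ω
  rw [Finset.prod_ite_mem, Finset.univ_inter, Finset.prod_ite_zero]
  simp

theorem t2_test (h0 : 0 ≤ p) (h1 : p ≤ 1) (E : Set (ι → Bool))
    (hE : ∀ ω ω', (∀ z, ω z = true → ω' z = true) → ω ∈ E → ω' ∈ E) (Y y Q : Finset ι)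
    (hQ : Disjoint Q Y) :
    t2_fail p E Y y ≤ p ^ Q.card * t2_fail p E (Y ∪ Q) (y ∪ Q) +
      (1 - p ^ Q.card) * t2_fail p E (Y ∪ Q) (y \ Q) := by
  classical
  have hdep : ∀ (y' : Finset ι) (ω ω' : ι → Bool), (∀ z, z ∉ (Q : Set ι) → ω z = ω' z) →
      t2_ovr (Y ∪ Q) y' ω = t2_ovr (Y ∪ Q) y' ω' := by
    intro y' ω ω' h
    funext z
    unfold t2_ovr
    split_ifs with hz
    · rfl
    · exact h z fun hz' => hz (Finset.mem_union_right _ hz')
  have hall : ∀ ω ω' : ι → Bool, (∀ z ∈ (Q : Set ι), ω z = ω' z) →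
      (if ∀ z ∈ Q, ω z = true then (1 : ℝ) else 0) = if ∀ z ∈ Q, ω' z = true then 1 else 0 := by
    intro ω ω' h
    refine if_congr (forall₂_congr fun z hz => ?_) rfl rfl
    rw [h z hz]
  have e1 := Ex_mul_indep p (Q : Set ι) (fun ω => if ∀ z ∈ Q, ω z = true then (1 : ℝ) else 0)
    (fun ω => if t2_ovr (Y ∪ Q) (y ∪ Q) ω ∈ E then 0 else 1) hall
    (fun ω ω' h => by rw [hdep _ ω ω' h])
  have e2 := Ex_mul_indep p (Q : Set ι) (fun ω => 1 - if ∀ z ∈ Q, ω z = true then (1 : ℝ) else 0)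
    (fun ω => if t2_ovr (Y ∪ Q) (y \ Q) ω ∈ E then 0 else 1)
    (fun ω ω' h => by rw [hall ω ω' h]) (fun ω ω' h => by rw [hdep _ ω ω' h])
  rw [Ex_sub, Ex_const, t2_Ex_all] at e2
  rw [t2_Ex_all] at e1
  unfold t2_fail
  rw [← e1, ← e2, ← Ex_add]
  refine Ex_mono h0 h1 fun ω => ?_
  by_cases hω : ∀ z ∈ Q, ω z = true
  · have : t2_ovr (Y ∪ Q) (y ∪ Q) ω = t2_ovr Y y ω := by
      funext z
      unfold t2_ovr
      by_cases hz : z ∈ Y
      · have : z ∉ Q := fun h => Finset.disjoint_left.1 hQ h hz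
        simp [hz, this]
      · by_cases hz' : z ∈ Q
        · simp [hz, hz', hω z hz']
        · simp [hz, hz']
    rw [if_pos hω, this]
    simp
  · rw [if_neg hω]
    simp only [zero_mul, sub_zero, one_mul, zero_add]
    by_cases hin : t2_ovr (Y ∪ Q) (y \ Q) ω ∈ E
    · rw [if_pos hin, if_pos]
      refine hE _ _ (fun z hz => ?_) hin
      unfold t2_ovr at hz ⊢
      by_cases hzY : z ∈ Y
      · simp [hzY] at hz ⊢
        exact hz.1
      · by_cases hz' : z ∈ Q
        · simp [hz'] at hz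
        · simpa [hzY, hz'] using hz
    · rw [if_neg hin]
      split_ifs <;> norm_num

end test

section main
variable {W : Type} [Fintype W] [DecidableEq W] {n : ℕ}

/-- The invariant of the exposure process. -/
structure t2_Inv (N : W → Finset W) (U : Finset W) (R : ℕ) (S : Finset W) (φ : W → Fin n)
    (Y y : Finset (EdgeSlot n)) (τ : W → Finset (Fin n)) : Prop where
  sub : S ⊆ U
  inj : Set.InjOn φ S
  emb : ∀ v ∈ S, ∀ u ∈ N v, u ∈ S ∧ ∃ z ∈ Y, z ∈ y ∧ z.1 = s(φ v, φ u)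
  src : ∀ z ∈ Y, ∃ v, ∃ u ∈ N v, u ∈ S ∧ ∃ x ∈ τ v, z.1 = s(φ u, x)
  card : ∀ v, (τ v).card ≤ R

theorem t2_fresh {N : W → Finset W} {U : Finset W} {D Δ R : ℕ} (hD : ∀ v, (N v).card ≤ D)
    (hΔ : ∀ u, (Finset.univ.filter (fun v => u ∈ N v)).card ≤ Δ)
    (hn : U.card + D * R * Δ ≤ n) {S : Finset W} {φ : W → Fin n} {Y y : Finset (EdgeSlot n)}
    {τ : W → Finset (Fin n)} (h : t2_Inv N U R S φ Y y τ) {v : W} (hvU : v ∈ U) (hvS : v ∉ S)
    (hNv : N v ⊆ S) : ∃ x : Fin n, x ∉ S.image φ ∧ ∀ z ∈ Y, ∀ u ∈ N v, z.1 ≠ s(φ u, x) := by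
  set B : Finset (Fin n) := S.image φ ∪
    (N v).biUnion fun u => (Finset.univ.filter (fun v' => u ∈ N v')).biUnion τ with hB
  have hS : S.card < U.card := Finset.card_lt_card ⟨h.sub, fun hh => hvS (hh hvU)⟩
  have hc : B.card < n := by
    have h1 : (S.image φ).card ≤ S.card := Finset.card_image_le
    have h2 : ((N v).biUnion fun u => (Finset.univ.filter (fun v' => u ∈ N v')).biUnion τ).card
        ≤ (N v).card * (Δ * R) := by
      refine Finset.card_biUnion_le_card_mul _ _ _ fun u _ => ?_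
      exact (Finset.card_biUnion_le_card_mul _ _ _ fun v' _ => h.card v').trans
        (Nat.mul_le_mul_right _ (hΔ u))
    have h3 : (N v).card * (Δ * R) ≤ D * R * Δ := by
      rw [mul_assoc, mul_comm R Δ]; exact Nat.mul_le_mul_right _ (hD v)
    have h4 := Finset.card_union_le (S.image φ)
      ((N v).biUnion fun u => (Finset.univ.filter (fun v' => u ∈ N v')).biUnion τ)
    rw [← hB] at h4
    omega
  obtain ⟨x, -, hx⟩ := Finset.exists_mem_notMem_of_card_lt_card
    (s := B) (t := Finset.univ) (by simpa using hc)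
  have hx1 : x ∉ S.image φ := fun hh => hx (Finset.mem_union_left _ hh)
  refine ⟨x, hx1, fun z hz u hu he => ?_⟩
  obtain ⟨v', u', hu', hu'S, x', hx', he'⟩ := h.src z hz
  rw [he] at he'
  rcases Sym2.eq_iff.1 he' with ⟨h1, h2⟩ | ⟨h1, h2⟩
  · have : u = u' := h.inj (hNv hu) hu'S h1
    subst this
    refine hx (Finset.mem_union_right _ ?_)
    simp only [Finset.mem_biUnion, Finset.mem_filter, Finset.mem_univ, true_and]
    exact ⟨u, hu, v', hu', h2 ▸ hx'⟩
  · exact hx1 (h2 ▸ Finset.mem_image_of_mem φ hu'S)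

omit [Fintype W] in
theorem t2_inv_fail {N : W → Finset W} {U : Finset W} {R : ℕ} {S : Finset W} {φ : W → Fin n}
    {Y y : Finset (EdgeSlot n)} {τ : W → Finset (Fin n)} (h : t2_Inv N U R S φ Y y τ) {v : W}
    (hNv : N v ⊆ S) (hτ : (τ v).card + 1 ≤ R) (x : Fin n) (Q : Finset (EdgeSlot n))
    (hQ : ∀ z, z ∈ Q ↔ ∃ u ∈ N v, z.1 = s(φ u, x)) (hQY : Disjoint Q Y) :
    t2_Inv N U R S φ (Y ∪ Q) (y \ Q) (Function.update τ v (insert x (τ v))) where
  sub := h.sub
  inj := h.inj
  emb := by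
    intro w hw u hu
    obtain ⟨h1, z, hz, hzy, he⟩ := h.emb w hw u hu
    exact ⟨h1, z, Finset.mem_union_left _ hz,
      Finset.mem_sdiff.2 ⟨hzy, fun hh => Finset.disjoint_left.1 hQY hh hz⟩, he⟩
  src := by
    intro z hz
    rcases Finset.mem_union.1 hz with hz | hz
    · obtain ⟨w, u, hu, huS, x', hx', he⟩ := h.src z hz
      refine ⟨w, u, hu, huS, x', ?_, he⟩
      by_cases hw : w = v
      · subst hw; simp [hx']
      · simpa [hw] using hx'
    · obtain ⟨u, hu, he⟩ := (hQ z).1 hz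
      exact ⟨v, u, hu, hNv hu, x, by simp, he⟩
  card := by
    intro w
    by_cases hw : w = v
    · subst hw
      rw [Function.update_self]
      exact (Finset.card_insert_le _ _).trans hτ
    · simpa [hw] using h.card w

omit [Fintype W] in
theorem t2_inv_succ {N : W → Finset W} {U : Finset W} {R : ℕ} {S : Finset W} {φ : W → Fin n}
    {Y y : Finset (EdgeSlot n)} {τ : W → Finset (Fin n)} (h : t2_Inv N U R S φ Y y τ) {v : W}
    (hvU : v ∈ U) (hvS : v ∉ S)
    (hNv : N v ⊆ S) (hτ : (τ v).card + 1 ≤ R) (x : Fin n) (hx : x ∉ S.image φ)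
    (Q : Finset (EdgeSlot n))
    (hQ : ∀ z, z ∈ Q ↔ ∃ u ∈ N v, z.1 = s(φ u, x)) (hQY : Disjoint Q Y) :
    t2_Inv N U R (insert v S) (Function.update φ v x) (Y ∪ Q) (y ∪ Q)
      (Function.update τ v (insert x (τ v))) := by
  have hf := t2_inv_fail h hNv hτ x Q hQ hQY
  have hup : ∀ u ∈ S, Function.update φ v x u = φ u := fun u hu =>
    Function.update_of_ne (fun hh : u = v => hvS (hh ▸ hu)) _ _
  have hne : ∀ u ∈ S, φ u ≠ x := fun u hu hh => hx (hh ▸ Finset.mem_image_of_mem φ hu)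
  refine ⟨Finset.insert_subset hvU h.sub, ?_, ?_, ?_, hf.card⟩
  · intro a ha b hb hab
    rw [Finset.mem_coe, Finset.mem_insert] at ha hb
    rcases ha with rfl | ha <;> rcases hb with rfl | hb
    · rfl
    · rw [Function.update_self, hup b hb] at hab
      exact absurd hab.symm (hne b hb)
    · rw [Function.update_self, hup a ha] at hab
      exact absurd hab (hne a ha)
    · rw [hup a ha, hup b hb] at hab
      exact h.inj ha hb hab
  · intro w hw u hu
    rcases Finset.mem_insert.1 hw with rfl | hw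
    · have huS := hNv hu
      have hz : (⟨s(φ u, x), by simpa using hne u huS⟩ : EdgeSlot n) ∈ Q := (hQ _).2 ⟨u, hu, rfl⟩
      refine ⟨Finset.mem_insert_of_mem huS, _, Finset.mem_union_right _ hz,
        Finset.mem_union_right _ hz, ?_⟩
      rw [Function.update_self, hup u huS]
      exact Sym2.eq_swap
    · obtain ⟨h1, z, hz, hzy, he⟩ := h.emb w hw u hu
      refine ⟨Finset.mem_insert_of_mem h1, z, Finset.mem_union_left _ hz,
        Finset.mem_union_left _ hzy, ?_⟩
      rw [hup w hw, hup u h1, he]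
  · intro z hz
    obtain ⟨w, u, hu, huS, x', hx', he⟩ := hf.src z hz
    exact ⟨w, u, hu, Finset.mem_insert_of_mem huS, x', hx', by rw [hup u huS, he]⟩

omit [Fintype W] [DecidableEq W] in
theorem t2_mono (N : W → Finset W) (ω ω' : EdgeSlot n → Bool)
    (h : ∀ z, ω z = true → ω' z = true) (hω : graphOf ω ∈ EmbEv n N) : graphOf ω' ∈ EmbEv n N := by
  obtain ⟨φ, hφ, hadj⟩ := hω
  refine ⟨φ, hφ, fun v u hu => ?_⟩
  obtain ⟨hd, ht⟩ := (graphOf_adj _ _ _).1 (hadj v u hu)
  exact (graphOf_adj _ _ _).2 ⟨hd, h _ ht⟩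

theorem t2_main (hW : Fintype.card W ≤ n)
    (N : W → Finset W) (rk : W → ℕ) (hrk : ∀ v, ∀ u ∈ N v, rk u < rk v)
    (U : Finset W) (hU : ∀ v, ∀ u ∈ N v, v ∈ U ∧ u ∈ U)
    (D Δ R : ℕ) (hD : ∀ v, (N v).card ≤ D)
    (hΔ : ∀ u, (Finset.univ.filter (fun v => u ∈ N v)).card ≤ Δ)
    (hn : U.card + D * R * Δ ≤ n) {p : ℝ} (h0 : 0 ≤ p) (h1 : p ≤ 1) (k : ℕ) :
    ∀ (S : Finset W) (φ : W → Fin n) (Y y : Finset (EdgeSlot n)) (τ : W → Finset (Fin n)),
      t2_Inv N U R S φ Y y τ → (∀ w, w ∉ S → τ w = ∅) → (U \ S).card = k →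
      t2_fail p {ω | graphOf ω ∈ EmbEv n N} Y y ≤ k * (1 - p ^ D) ^ R := by
  have hq : 0 ≤ 1 - p ^ D := sub_nonneg.2 (pow_le_one₀ h0 h1)
  induction k with
  | zero =>
    intro S φ Y y τ h _ hk
    have hUS : U ⊆ S := Finset.sdiff_eq_empty_iff_subset.1 (Finset.card_eq_zero.1 hk)
    obtain ⟨ψ, hψ, hψφ⟩ := exists_injective_extend hW S φ h.inj
    have : ∀ ω, t2_ovr Y y ω ∈ {ω | graphOf ω ∈ EmbEv n N} := by
      intro ω
      refine ⟨ψ, hψ, fun v u hu => ?_⟩
      have hv := hUS (hU v u hu).1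
      obtain ⟨huS, z, hz, hzy, he⟩ := h.emb v hv u hu
      rw [hψφ v hv, hψφ u huS, graphOf_adj]
      obtain ⟨z, hd⟩ := z
      simp only at he
      subst he
      exact ⟨hd, by simp [t2_ovr, hz, hzy]⟩
    unfold t2_fail
    simp only [this, if_true, Ex_const]
    simp
  | succ k ih =>
    intro S φ Y y τ h hτ hk
    obtain ⟨v, hv, hmin⟩ := Finset.exists_min_image (U \ S) rk (Finset.card_pos.1 (by omega))
    obtain ⟨hvU, hvS⟩ := Finset.mem_sdiff.1 hv
    have hNv : N v ⊆ S := by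
      intro u hu
      by_contra huS
      have := hmin u (Finset.mem_sdiff.2 ⟨(hU v u hu).2, huS⟩)
      have := hrk v u hu
      omega
    have hk' : (U \ insert v S).card = k := by
      rw [Finset.sdiff_insert, Finset.card_erase_of_mem hv]; omega
    have inner : ∀ (t : ℕ) (Y y : Finset (EdgeSlot n)) (τ : W → Finset (Fin n)),
        t2_Inv N U R S φ Y y τ → (∀ w, w ∉ insert v S → τ w = ∅) → (τ v).card + t ≤ R →
        t2_fail p {ω | graphOf ω ∈ EmbEv n N} Y y ≤ (1 - p ^ D) ^ t + k * (1 - p ^ D) ^ R := by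
      intro t
      induction t with
      | zero =>
        intro Y y τ _ _ _
        have := t2_fail_le_one h0 h1 {ω | graphOf ω ∈ EmbEv n N} Y y
        have h2 : 0 ≤ k * (1 - p ^ D) ^ R := by positivity
        rw [pow_zero]; linarith
      | succ t iht =>
        intro Y y τ h hτ ht
        obtain ⟨x, hx, hxY⟩ := t2_fresh hD hΔ hn h hvU hvS hNv
        set Q : Finset (EdgeSlot n) := Finset.univ.filter (fun z => ∃ u ∈ N v, z.1 = s(φ u, x))
          with hQdef
        have hQ : ∀ z, z ∈ Q ↔ ∃ u ∈ N v, z.1 = s(φ u, x) := by simp [hQdef]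
        have hQY : Disjoint Q Y := Finset.disjoint_left.2 fun z hz hzY => by
          obtain ⟨u, hu, he⟩ := (hQ z).1 hz
          exact hxY z hzY u hu he
        have hQc : Q.card ≤ D := by
          refine le_trans ?_ ((Finset.card_image_le (f := fun u => s(φ u, x))).trans (hD v))
          refine Finset.card_le_card_of_injOn Subtype.val (fun z hz => ?_)
            Subtype.val_injective.injOn
          obtain ⟨u, hu, he⟩ := (hQ z).1 hz
          exact Finset.mem_coe.2 (Finset.mem_image.2 ⟨u, hu, he.symm⟩)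
        have hτ' : ∀ w, w ∉ insert v S → Function.update τ v (insert x (τ v)) w = ∅ := by
          intro w hw
          rw [Function.update_of_ne fun hh : w = v => hw (hh ▸ Finset.mem_insert_self _ _)]
          exact hτ w hw
        have e1 := ih _ _ _ _ _ (t2_inv_succ h hvU hvS hNv (by omega) x hx Q hQ hQY) hτ' hk'
        have e2 := iht _ _ _ (t2_inv_fail h hNv (by omega) x Q hQ hQY) hτ' (by
          rw [Function.update_self]
          have := Finset.card_insert_le x (τ v)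
          omega)
        have e3 := t2_test h0 h1 {ω | graphOf ω ∈ EmbEv n N} (t2_mono N) Y y Q hQY
        have hp1 : p ^ D ≤ p ^ Q.card := pow_le_pow_of_le_one h0 h1 hQc
        have hp2 : p ^ Q.card ≤ 1 := pow_le_one₀ h0 h1
        have hp3 : 0 ≤ p ^ Q.card := pow_nonneg h0 _
        have e4 := mul_le_mul_of_nonneg_left e1 hp3
        have e5 := mul_le_mul_of_nonneg_left e2 (sub_nonneg.2 hp2)
        have e6 : (1 - p ^ Q.card) * (1 - p ^ D) ^ t ≤ (1 - p ^ D) * (1 - p ^ D) ^ t :=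
          mul_le_mul_of_nonneg_right (by linarith) (pow_nonneg hq _)
        rw [pow_succ']
        nlinarith
    have := inner R Y y τ h (fun w hw => hτ w fun hh => hw (Finset.mem_insert_of_mem hh))
      (by simp [hτ v hvS])
    push_cast
    linarith

end main

theorem typeII {W : Type} [Fintype W] [DecidableEq W] {n : ℕ} (hW : Fintype.card W ≤ n)
    (N : W → Finset W) (rk : W → ℕ) (hrk : ∀ v, ∀ u ∈ N v, rk u < rk v)
    (U : Finset W) (hU : ∀ v, ∀ u ∈ N v, v ∈ U ∧ u ∈ U)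
    (D Δ R : ℕ) (hD : ∀ v, (N v).card ≤ D)
    (hΔ : ∀ u, (Finset.univ.filter (fun v => u ∈ N v)).card ≤ Δ)
    (hn : U.card + D * R * Δ ≤ n) {p : ℝ} (h0 : 0 ≤ p) (h1 : p ≤ 1) :
    1 - U.card * (1 - p ^ D) ^ R ≤ gnpProb n p (EmbEv n N) := by
  classical
  obtain ⟨φ⟩ := Function.Embedding.nonempty_of_card_le (α := W) (β := Fin n) (by simpa using hW)
  have h := t2_main hW N rk hrk U hU D Δ R hD hΔ hn h0 h1 U.card ∅ φ ∅ ∅ (fun _ => ∅)
    ⟨by simp, by simp, by simp, by simp, by simp⟩ (fun _ _ => rfl) (by simp)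
  have h2 : t2_fail p {ω | graphOf ω ∈ EmbEv n N} ∅ ∅ = 1 - gnpProb n p (EmbEv n N) := by
    unfold gnpProb t2_fail
    rw [← prob_compl, prob_eq_Ex]
    congr 1
    funext ω
    have : t2_ovr ∅ ∅ ω = ω := by funext z; simp [t2_ovr]
    rw [this]
    by_cases hω : graphOf ω ∈ EmbEv n N <;> simp [hω]
  linarith

end Crest.Agent.R52
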