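import Crest.Agent.R52.TypeI
import Crest.Agent.R52.TypeII
import Crest.Agent.R52.Stars
import Crest.Agent.R52.Count
import Crest.Agent.R52.Order

/-! The three kinds of pieces, with explicit numerical hypotheses. -/

set_option autoImplicit false

namespace Crest.Agent.R52
open Finset Crest.FinProb Crest.CombinatoricsR.RandomGraph

variable {W : Type} [Fintype W] [DecidableEq W] {n : ℕ}

omit [Fintype W] [DecidableEq W] in
theorem gnpProb_EmbEv_mono {p : ℝ} (h0 : 0 ≤ p) (h1 : p ≤ 1) {N N' : W → Finset W}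
    (h : ∀ v, N v ⊆ N' v) : gnpProb n p (EmbEv n N') ≤ gnpProb n p (EmbEv n N) := by
  unfold gnpProb
  refine prob_mono h0 h1 ?_
  rintro ω ⟨φ, hφ, hadj⟩
  exact ⟨φ, hφ, fun v u hu => hadj v u (h v hu)⟩

theorem typeI_graph (hW : Fintype.card W ≤ n) (hn : 0 < n) (N : W → Finset W)
    (Aset Bset : Finset W) (hAB : Disjoint Aset Bset)
    (hN : ∀ v, ∀ u ∈ N v, v ∈ Bset ∧ u ∈ Aset) {p n' M β : ℝ} (D : ℕ) (hp0 : 0 < p)
    (hp1 : p < 1) (hn' : 0 < n') (hD : ∀ v, (N v).card ≤ D) (hB : (Bset.card : ℝ) ≤ n')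
    (hspread : ∀ K : Finset W, K.Nonempty →
      ((univ.filter (fun v => K ⊆ N v)).card : ℝ) ≤ n' * p ^ K.card)
    (hM : 16 * (2 / p ^ 2) ^ D ≤ M) (hβ0 : 0 < β) (hβ : 2 * β * M ≤ n')
    (ρ : ℕ) (hρ : ρ + Aset.card ≤ n) (hR : 130 * n' ≤ ρ) :
    ∃ side : W → W → Bool, ∀ i : Bool,
      1 - (ρ * (64 * Real.exp (-β)) + n' * Real.exp (-(ρ / (8 * M)))) ≤
        gnpProb n p (EmbEv n (fun v => (N v).filter (fun u => side v u = i))) := by
  classical
  let N' : Bset → Finset Aset := fun v => (N v).subtype (· ∈ Aset)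
  obtain ⟨side, hside⟩ := typeI_rows (A := Aset) (B := Bset) (R := Fin ρ) N' (M := M) (β := β)
    D hp0 hp1 hn'
    (fun v => by
      simp only [N', Finset.card_subtype]
      exact (Finset.card_filter_le _ _).trans (hD v))
    (by simpa using hB)
    (fun K hK => by
      have h1 := hspread (K.map (Function.Embedding.subtype _)) (by simpa using hK)
      rw [Finset.card_map] at h1
      refine le_trans ?_ h1
      have : (univ.filter (fun v : Bset => K ⊆ N' v)).card ≤
          (univ.filter (fun v => K.map (Function.Embedding.subtype _) ⊆ N v)).card := by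
        refine Finset.card_le_card_of_injOn Subtype.val ?_ Subtype.val_injective.injOn
        intro v hv
        simp only [Finset.coe_filter, mem_univ, true_and, Set.mem_ofPred_eq] at hv ⊢
        intro u hu
        obtain ⟨a, ha, rfl⟩ := Finset.mem_map.mp hu
        simpa [N'] using hv ha
      exact_mod_cast this)
    hM hβ0 hβ (by simpa using hR)
  refine ⟨fun v u => if h : v ∈ Bset ∧ u ∈ Aset then side ⟨v, h.1⟩ ⟨u, h.2⟩ else false,
    fun i => ?_⟩
  have h1 := hside i
  rw [Fintype.card_fin, Fintype.card_coe] at h1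
  let ρm : Fin ρ → Fin n := fun x => ⟨x, by have := x.2; omega⟩
  let αm : Aset → Fin n := fun a => ⟨ρ + Aset.equivFin a, by have := (Aset.equivFin a).2; omega⟩
  have hρm : Function.Injective ρm := fun x y h => Fin.ext (by simpa [ρm] using h)
  have hαm : Function.Injective αm := fun a b h => Aset.equivFin.injective (Fin.ext (by
    simpa [αm] using h))
  have hd : ∀ x a, ρm x ≠ αm a := fun x a h => by
    have := congrArg Fin.val h
    have := x.2
    simp only [ρm, αm] at *
    omega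
  have h2 := ExRows_le_gnpProb hp0.le hp1.le ρm αm hρm hαm hd
    (fun X => ∃ ψ : Bset → Fin ρ, Function.Injective ψ ∧
        ∀ v, ∀ a ∈ N' v, side v a = i → X (ψ v) a = true)
    (EmbEv n (fun v => (N v).filter (fun u =>
      (if h : v ∈ Bset ∧ u ∈ Aset then side ⟨v, h.1⟩ ⟨u, h.2⟩ else false) = i))) (by
      rintro X G hG ⟨ψ, hψ, hX⟩
      let φ : W → Fin n := fun w => if h : w ∈ Bset then ρm (ψ ⟨w, h⟩)
        else if h : w ∈ Aset then αm ⟨w, h⟩ else ⟨0, hn⟩
      have hφB : ∀ w (h : w ∈ Bset), φ w = ρm (ψ ⟨w, h⟩) := fun w h => by simp [φ, h]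
      have hφA : ∀ w (h : w ∈ Aset), φ w = αm ⟨w, h⟩ := fun w h => by
        have : w ∉ Bset := Finset.disjoint_left.mp hAB h
        simp [φ, h, this]
      obtain ⟨φ', hφ', heq⟩ := exists_injective_extend hW (Aset ∪ Bset) φ (by
        intro a ha b hb hab
        rcases Finset.mem_union.mp ha with ha | ha <;> rcases Finset.mem_union.mp hb with hb | hb
        · rw [hφA a ha, hφA b hb] at hab; simpa using hαm hab
        · rw [hφA a ha, hφB b hb] at hab; exact absurd hab.symm (hd _ _)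
        · rw [hφB a ha, hφA b hb] at hab; exact absurd hab (hd _ _)
        · rw [hφB a ha, hφB b hb] at hab; simpa using hψ (hρm hab))
      refine ⟨φ', hφ', fun v u hu => ?_⟩
      obtain ⟨hu1, hu2⟩ := Finset.mem_filter.mp hu
      obtain ⟨hv, hu3⟩ := hN v u hu1
      rw [heq v (Finset.mem_union_right _ hv), heq u (Finset.mem_union_left _ hu3),
        hφB v hv, hφA u hu3]
      apply hG
      apply hX
      · simpa [N'] using hu1
      · simpa [hv, hu3] using hu2)
  refine le_trans ?_ (le_trans h1 ?_)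
  · gcongr
  · refine le_trans (le_of_eq ?_) h2
    convert rfl

theorem le_six_mul_of_half_lt {y : ℝ} (hy : 0 ≤ y) {μ : ℕ}
    (h : 1 / 2 < y ^ μ / μ.factorial) : (μ : ℝ) ≤ 6 * y := by
  by_contra hlt
  have hμ : μ ≠ 0 := by rintro rfl; apply hlt; simpa using hy
  have h1 : y ^ μ ≤ ((μ : ℝ) / 6) ^ μ := pow_le_pow_left₀ hy (by linarith) _
  have h2 := Real.pow_div_factorial_le_exp (x := (μ : ℝ)) (Nat.cast_nonneg _) μ
  have h3 : Real.exp μ ≤ 3 ^ μ := by
    rw [← mul_one (μ : ℝ), Real.exp_nat_mul]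
    exact pow_le_pow_left₀ (Real.exp_pos _).le (Real.exp_one_lt_d9.le.trans (by norm_num)) _
  have h4 : ((1 : ℝ) / 2) ^ μ ≤ 1 / 2 := pow_le_of_le_one (by norm_num) (by norm_num) hμ
  have hf : (0 : ℝ) < μ.factorial := by exact_mod_cast μ.factorial_pos
  have h5 : y ^ μ / μ.factorial ≤ (1 / 2) ^ μ := by
    calc y ^ μ / μ.factorial ≤ ((μ : ℝ) / 6) ^ μ / μ.factorial := by gcongr
      _ = (μ : ℝ) ^ μ / μ.factorial * (1 / 6) ^ μ := by
          rw [div_eq_mul_one_div (μ : ℝ) 6, mul_pow]; ring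
      _ ≤ 3 ^ μ * (1 / 6) ^ μ := by gcongr; exact h2.trans h3
      _ = (1 / 2) ^ μ := by rw [← mul_pow]; norm_num
  linarith

/-- A star-forest piece. -/
theorem piece_stars {H : SimpleGraph W} {r P : ℝ} (hW : Fintype.card W ≤ n) (hn : 600 ≤ n)
    (hns : ¬ SmallAt n H r) (hr0 : 0 < r) (hrP : 1000000 * r ≤ P) (hP : P ≤ 1 / 2)
    (N : W → Finset W) (hadj : ∀ v, ∀ u ∈ N v, H.Adj v u)
    (hN1 : ∀ v, (N v).card ≤ 1) (hdisj : ∀ v, ∀ u ∈ N v, N u = ∅)
    (Aset Bset : Finset W) (hN : ∀ v, ∀ u ∈ N v, v ∈ Bset ∧ u ∈ Aset)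
    (hA : Aset.card ≤ n / 600 + 1) (hB : Bset.card ≤ n / 600 + 1) :
    1 / 2 ≤ gnpProb n P (EmbEv n N) := by
  classical
  have hP0 : 0 < P := by linarith
  set m := n / 4 with hm
  let deg : W → ℕ := fun u => (univ.filter (fun v => u ∈ N v)).card
  have hdegB : ∀ u, deg u ≤ n / 600 + 1 := fun u => le_trans (Finset.card_le_card fun v hv =>
    (hN v u (Finset.mem_filter.mp hv).2).1) hB
  let τ : ℕ → ℝ := fun d => (m.choose d : ℝ) * P ^ d * (1 - P) ^ m
  have hτ : ∀ d ≤ n / 600 + 1, 0 < τ d := by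
    intro d hd
    have : 0 < m.choose d := Nat.choose_pos (by omega)
    have : (0 : ℝ) < 1 - P := by linarith
    simp only [τ]; positivity
  let σ : W → ℝ := fun u => if 2 * (deg u : ℝ) ≤ m * P then 1 / 2 else τ (deg u)
  have hσ0 : ∀ u, 0 < σ u := fun u => by
    simp only [σ]; split_ifs
    · norm_num
    · exact hτ _ (hdegB u)
  have h1 := stars hW N hN1 hdisj (n / 2) (n - n / 2) m (by omega)
    (by
      have : (univ.filter (fun v => (N v).Nonempty)).card ≤ Bset.card :=
        Finset.card_le_card fun v hv => by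
          obtain ⟨u, hu⟩ := (Finset.mem_filter.mp hv).2
          exact (hN v u hu).1
      omega) hP0.le (by linarith) σ hσ0 (by
      intro u _
      simp only [σ]; split_ifs with h
      · exact binTail_ge_half hP0.le (by linarith) h
      · exact binTail_ge_choose hP0.le (by linarith))
  set Cn := univ.filter (fun u => ∃ v, u ∈ N v) with hCn
  have hCnA : Cn.card ≤ n / 600 + 1 := le_trans (Finset.card_le_card fun u hu => by
    obtain ⟨v, hv⟩ := (Finset.mem_filter.mp hu).2
    exact (hN v u hv).2) hA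
  have hnR : (600 : ℝ) ≤ n := by exact_mod_cast hn
  -- hard degrees
  have hhard : ∀ d : ℕ, 1 ≤ d → d ≤ n / 600 + 1 → ¬ 2 * (d : ℝ) ≤ m * P →
      ((Cn.filter (fun u => deg u = d)).card : ℝ) * (1 / τ d) ≤ 6 * n * (1 / 1000) ^ d := by
    intro d _ hd hlt
    have h2 := count_stars hns hr0.le (Cn.filter (fun u => deg u = d))
      (fun u => univ.filter (fun v => u ∈ N v)) d (by
        intro c hc
        refine ⟨(Finset.mem_filter.mp hc).2, fun v hv => ?_⟩
        have hv' := (Finset.mem_filter.mp hv).2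
        refine ⟨(hadj v c hv').symm, fun h => ?_⟩
        obtain ⟨w, hw⟩ := (Finset.mem_filter.mp (Finset.mem_filter.mp h).1).2
        rw [hdisj w v hw] at hv'
        exact absurd hv' (Finset.notMem_empty _))
    set μ := (Cn.filter (fun u => deg u = d)).card
    have h3 : (μ : ℝ) ≤ 6 * ((n * n.choose d : ℕ) * r ^ d) := by
      refine le_six_mul_of_half_lt (by positivity) (lt_of_lt_of_le h2 ?_)
      have := Nat.choose_le_pow_div (α := ℝ) μ (n * n.choose d)
      rw [mul_pow, pow_mul, mul_div_right_comm]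
      gcongr
    have hf : (0 : ℝ) < d.factorial := by exact_mod_cast d.factorial_pos
    have h4 : (n.choose d : ℝ) ≤ (n : ℝ) ^ d / d.factorial := Nat.choose_le_pow_div d n
    have h5 : ((n : ℝ) / 10) ^ d / d.factorial ≤ m.choose d := by
      refine le_trans ?_ (Nat.pow_le_choose d m)
      gcongr
      have : n ≤ 10 * (m + 1 - d) := by omega
      have : (n : ℝ) ≤ 10 * ((m + 1 - d : ℕ) : ℝ) := by exact_mod_cast this
      linarith
    have h6 : (1 / 100 : ℝ) ^ d ≤ (1 - P) ^ m := by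
      have e1 : Real.exp (-(2 * P)) ≤ 1 - P := by
        rw [Real.exp_neg, inv_le_comm₀ (Real.exp_pos _) (by linarith)]
        refine le_trans ?_ (Real.add_one_le_exp _)
        rw [inv_le_iff_one_le_mul₀ (by linarith)]
        nlinarith
      have e2 : (1 / 100 : ℝ) ≤ Real.exp (-4) := by
        rw [Real.exp_neg, le_inv_comm₀ (by norm_num) (Real.exp_pos _)]
        have : Real.exp 4 = Real.exp 1 ^ 4 := by rw [← Real.exp_nat_mul]; norm_num
        rw [this]
        refine (pow_le_pow_left₀ (Real.exp_pos _).le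
          (Real.exp_one_lt_d9.le.trans (by norm_num : (2.7182818286 : ℝ) ≤ 3)) 4).trans ?_
        norm_num
      calc (1 / 100 : ℝ) ^ d ≤ Real.exp (-4) ^ d := by gcongr
        _ ≤ Real.exp (-(2 * P)) ^ m := by
            rw [← Real.exp_nat_mul, ← Real.exp_nat_mul, Real.exp_le_exp]; nlinarith
        _ ≤ _ := by gcongr
    rw [mul_one_div, div_le_iff₀ (hτ d hd)]
    calc (μ : ℝ) ≤ 6 * (n * ((n : ℝ) ^ d / d.factorial) * r ^ d) := by
          refine h3.trans ?_
          push_cast
          gcongr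
      _ = 6 * n * (1 / 1000) ^ d * (((n : ℝ) / 10) ^ d / d.factorial * (1000000 * r) ^ d
            * (1 / 100) ^ d) := by
          have : (n : ℝ) ^ d * r ^ d = (1 / 1000) ^ d * (((n : ℝ) / 10) ^ d * (1000000 * r) ^ d
              * (1 / 100) ^ d) := by
            rw [← mul_pow, ← mul_pow, ← mul_pow, ← mul_pow]; congr 1; ring
          calc _ = 6 * n * ((n : ℝ) ^ d * r ^ d) / d.factorial := by ring
            _ = _ := by rw [this]; ring
      _ ≤ _ := by simp only [τ]; gcongr
  have hsum : ∑ u ∈ Cn, 1 / σ u ≤ 2 * (n / 600 + 1) + n / 100 := by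
    have hmaps : ∀ u ∈ Cn, deg u ∈ Finset.range (n / 600 + 1 + 1) :=
      fun u _ => Finset.mem_range.mpr (Nat.lt_succ_of_le (hdegB u))
    rw [← Finset.sum_fiberwise_of_maps_to hmaps]
    have hc : (Cn.card : ℝ) = ∑ d ∈ Finset.range (n / 600 + 1 + 1),
        ((Cn.filter (fun u => deg u = d)).card : ℝ) := by
      rw [Finset.card_eq_sum_card_fiberwise hmaps]; push_cast; rfl
    calc _ ≤ ∑ d ∈ Finset.range (n / 600 + 1 + 1), (2 * ((Cn.filter (fun u => deg u = d)).card : ℝ)
          + if d = 0 then (0 : ℝ) else 6 * n * (1 / 1000 : ℝ) ^ d) := by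
          refine Finset.sum_le_sum fun d hd => ?_
          have hd' : d ≤ n / 600 + 1 := Nat.lt_succ_iff.mp (Finset.mem_range.mp hd)
          have hc0 : (0 : ℝ) ≤ (Cn.filter (fun u => deg u = d)).card := Nat.cast_nonneg _
          by_cases he : 2 * (d : ℝ) ≤ m * P
          · have : ∑ u ∈ Cn with deg u = d, 1 / σ u
                = 2 * ((Cn.filter (fun u => deg u = d)).card : ℝ) := by
              rw [mul_comm, ← nsmul_eq_mul, ← Finset.sum_const]
              refine Finset.sum_congr rfl fun u hu => ?_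
              simp [σ, (Finset.mem_filter.mp hu).2, he]
            rw [this]
            split_ifs
            · simp
            · have : (0 : ℝ) ≤ 6 * n * (1 / 1000) ^ d := by positivity
              linarith
          · have hd0 : d ≠ 0 := by
              rintro rfl; apply he; simp only [Nat.cast_zero, mul_zero]; positivity
            have : ∑ u ∈ Cn with deg u = d, 1 / σ u
                = ((Cn.filter (fun u => deg u = d)).card : ℝ) * (1 / τ d) := by
              rw [← nsmul_eq_mul, ← Finset.sum_const]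
              refine Finset.sum_congr rfl fun u hu => ?_
              simp [σ, (Finset.mem_filter.mp hu).2, he]
            rw [this, if_neg hd0]
            have := hhard d (Nat.one_le_iff_ne_zero.mpr hd0) hd' he
            linarith
      _ ≤ _ := by
          rw [Finset.sum_add_distrib, ← Finset.mul_sum, ← hc]
          refine add_le_add ?_ ?_
          · have h2 : (Cn.card : ℝ) ≤ ((n / 600 : ℕ) : ℝ) + 1 := by exact_mod_cast hCnA
            have h3 : ((n / 600 : ℕ) : ℝ) ≤ n / 600 := Nat.cast_div_le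
            linarith
          · have : ∀ k : ℕ, ∑ d ∈ Finset.range (k + 1),
                (if d = 0 then 0 else 6 * n * (1 / 1000 : ℝ) ^ d)
                  ≤ n / 100 - n / 100 * (1 / 1000) ^ k := by
              intro k
              induction k with
              | zero => simp
              | succ k ih =>
                rw [Finset.sum_range_succ, if_neg (Nat.succ_ne_zero k), pow_succ]
                have : (0 : ℝ) ≤ n * (1 / 1000) ^ k := by positivity
                nlinarith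
            have h2 := this (n / 600 + 1)
            have : (0 : ℝ) ≤ n / 100 * (1 / 1000) ^ (n / 600 + 1) := by positivity
            linarith
  have ha : (n : ℝ) ≤ 2 * ((n / 2 : ℕ) : ℝ) + 1 := by
    have : n ≤ 2 * (n / 2) + 1 := by omega
    exact_mod_cast this
  by_contra hlt
  have h7 : ((n / 2 : ℕ) : ℝ) * (1 / 2) ≤ ((n / 2 : ℕ) : ℝ) * (1 - gnpProb n P (EmbEv n N)) :=
    mul_le_mul_of_nonneg_left (by linarith) (Nat.cast_nonneg _)
  linarith

/-- A piece of bounded forward degree. -/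
theorem piece_typeII {r P s : ℝ} (hW : Fintype.card W ≤ n) (hr0 : 0 < r) (hrP : r ≤ P)
    (hP : P ≤ 1) (hs : 1000 ≤ s) (hsn : s ^ 100 = n) (hexp : 1000 * s ^ 100 ≤ Real.exp s)
    (D : ℕ) (hDs : (D : ℝ) ≤ s) (hrD : 1 ≤ s * r ^ D)
    (N : W → Finset W) (rk : W → ℕ) (hrk : ∀ v, ∀ u ∈ N v, rk u < rk v)
    (hD : ∀ v, (N v).card ≤ D)
    (hΔ : ∀ u, ((univ.filter (fun v => u ∈ N v)).card : ℝ) ≤ s ^ 52)
    (Aset Bset : Finset W) (hN : ∀ v, ∀ u ∈ N v, v ∈ Bset ∧ u ∈ Aset)
    (hA : Aset.card ≤ n / 600 + 1) (hB : Bset.card ≤ n / 600 + 1) :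
    1 / 2 ≤ gnpProb n P (EmbEv n N) := by
  have hs0 : 0 < s := by linarith
  have hs1 : 1 ≤ s := by linarith
  have hU : ((Aset ∪ Bset).card : ℝ) ≤ n / 300 + 2 := by
    have h1 : (Aset ∪ Bset).card ≤ 2 * (n / 600) + 2 := (Finset.card_union_le _ _).trans (by omega)
    have h2 : ((Aset ∪ Bset).card : ℝ) ≤ 2 * ((n / 600 : ℕ) : ℝ) + 2 := by exact_mod_cast h1
    have h3 : ((n / 600 : ℕ) : ℝ) ≤ n / 600 := Nat.cast_div_le
    linarith
  have hR1 : s ^ 2 ≤ (⌈s ^ 2⌉₊ : ℝ) := Nat.le_ceil _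
  have hR2 : (⌈s ^ 2⌉₊ : ℝ) ≤ 2 * s ^ 2 := by
    have := (Nat.ceil_lt_add_one (sq_nonneg s)).le
    nlinarith
  have h55 : 1000 * s ^ 55 ≤ s ^ 100 := by
    calc 1000 * s ^ 55 ≤ s * s ^ 55 := by gcongr
      _ = s ^ 56 := by ring
      _ ≤ _ := pow_le_pow_right₀ hs1 (by norm_num)
  have h55' : 1 ≤ s ^ 55 := one_le_pow₀ hs1
  have h := typeII hW N rk hrk (Aset ∪ Bset) (fun v u hu => ⟨Finset.mem_union_right _ (hN v u hu).1,
    Finset.mem_union_left _ (hN v u hu).2⟩) D ⌊s ^ 52⌋₊ ⌈s ^ 2⌉₊ hD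
    (fun u => Nat.le_floor (hΔ u)) (by
      have h1 : (⌊s ^ 52⌋₊ : ℝ) ≤ s ^ 52 := Nat.floor_le (by positivity)
      have h2 : (D : ℝ) * ⌈s ^ 2⌉₊ * ⌊s ^ 52⌋₊ ≤ s * (2 * s ^ 2) * s ^ 52 := by gcongr
      have h3 : ((Aset ∪ Bset).card : ℝ) + D * ⌈s ^ 2⌉₊ * ⌊s ^ 52⌋₊ ≤ n := by
        have : s * (2 * s ^ 2) * s ^ 52 = 2 * s ^ 55 := by ring
        linarith
      exact_mod_cast h3) (p := P) (by linarith) hP
  refine le_trans ?_ h
  have h1 : 1 / s ≤ P ^ D := by
    rw [div_le_iff₀ hs0]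
    have := pow_le_pow_left₀ hr0.le hrP D
    nlinarith
  have h2 : (1 - P ^ D) ^ ⌈s ^ 2⌉₊ ≤ Real.exp (-s) := by
    have h3 : 0 ≤ 1 - P ^ D := by have := pow_le_one₀ (n := D) (by linarith) hP; linarith
    have h4 : 1 - P ^ D ≤ Real.exp (-(1 / s)) := by
      have := Real.add_one_le_exp (-(1 / s)); linarith
    refine (pow_le_pow_left₀ h3 h4 _).trans ?_
    rw [← Real.exp_nat_mul, Real.exp_le_exp]
    have : s = s ^ 2 * (1 / s) := by field_simp
    have h5 := mul_le_mul_of_nonneg_right hR1 (by positivity : 0 ≤ 1 / s)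
    linarith
  have h3 : ((Aset ∪ Bset).card : ℝ) ≤ s ^ 100 := by linarith
  have h4 : s ^ 100 * Real.exp (-s) ≤ 1 / 1000 := by
    rw [Real.exp_neg, ← div_eq_mul_inv, div_le_iff₀ (Real.exp_pos _)]; linarith
  have h5 : ((Aset ∪ Bset).card : ℝ) * (1 - P ^ D) ^ ⌈s ^ 2⌉₊ ≤ s ^ 100 * Real.exp (-s) := by
    have h3 : 0 ≤ 1 - P ^ D := by have := pow_le_one₀ (n := D) (by linarith) hP; linarith
    gcongr
  linarith

/-- A bipartite piece towards hubs. -/
theorem piece_typeI {H : SimpleGraph W} {r P s : ℝ} (hW : Fintype.card W ≤ n)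
    (hns : ¬ SmallAt n H r) (hr0 : 0 < r) (hrP : 1000000 * r ≤ P)
    (hP : P ≤ 1 / 2) (hs : 1000 ≤ s) (hsn : s ^ 100 = n) (hexp : 1000 * s ^ 100 ≤ Real.exp s)
    (D : ℕ) (hDs : (D : ℝ) ≤ s) (hrD : 1 ≤ s * r ^ D)
    (N : W → Finset W) (hadj : ∀ v, ∀ u ∈ N v, H.Adj v u) (hD : ∀ v, (N v).card ≤ D)
    (Aset Bset : Finset W) (hAB : Disjoint Aset Bset)
    (hN : ∀ v, ∀ u ∈ N v, v ∈ Bset ∧ u ∈ Aset)
    (hA : Aset.card ≤ n / 600 + 1) (hB : Bset.card ≤ n / 600 + 1) :
    ∃ side : W → W → Bool, ∀ i : Bool,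
      1 / 2 ≤ gnpProb n P (EmbEv n (fun v => (N v).filter (fun u => side v u = i))) := by
  classical
  have hs0 : 0 < s := by linarith
  have hs1 : 1 ≤ s := by linarith
  have hP0 : 0 < P := by linarith
  have hpw : ∀ a b : ℕ, a < b → 1000 * s ^ a ≤ s ^ b := by
    intro a b hab
    calc 1000 * s ^ a ≤ s * s ^ a := by gcongr
      _ = s ^ (a + 1) := by ring
      _ ≤ _ := pow_le_pow_right₀ hs1 hab
  have hnR : (1000 : ℝ) ≤ n := by have := hpw 0 100 (by norm_num); rw [← hsn]; linarith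
  have hnN : 1000 ≤ n := by exact_mod_cast hnR
  have hPD : ∀ k ≤ D, 1 ≤ s * P ^ k := by
    intro k hk
    have h1 : r ^ D ≤ P ^ D := pow_le_pow_left₀ hr0.le (by linarith) D
    have h2 : P ^ D ≤ P ^ k := pow_le_pow_of_le_one hP0.le (by linarith) hk
    nlinarith
  have hρ : (n : ℝ) / 2 ≤ ((n - n / 2 : ℕ) : ℝ) := by
    have : n ≤ 2 * (n - n / 2) := by omega
    have : (n : ℝ) ≤ 2 * ((n - n / 2 : ℕ) : ℝ) := by exact_mod_cast this
    linarith
  have hρ' : ((n - n / 2 : ℕ) : ℝ) ≤ n := by exact_mod_cast Nat.sub_le _ _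
  obtain ⟨side, hside⟩ := typeI_graph hW (by omega) N Aset Bset hAB hN (p := P)
    (n' := n / 300) (M := 16 * s ^ 3) (β := s) D hP0 (by linarith) (by positivity) hD
    (by
      have h2 : (Bset.card : ℝ) ≤ ((n / 600 : ℕ) : ℝ) + 1 := by exact_mod_cast hB
      have h3 : ((n / 600 : ℕ) : ℝ) ≤ n / 600 := Nat.cast_div_le
      linarith)
    (by
      intro K hK
      set T := univ.filter (fun v => K ⊆ N v) with hT
      by_contra hlt
      have hlt := not_le.mp hlt
      have hTne : T.Nonempty := by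
        rw [← Finset.card_pos]
        have : (0 : ℝ) < T.card := lt_of_le_of_lt (by positivity) hlt
        exact_mod_cast this
      obtain ⟨v0, hv0⟩ := hTne
      have hv0' : K ⊆ N v0 := (Finset.mem_filter.mp hv0).2
      have hKD : K.card ≤ D := (Finset.card_le_card hv0').trans (hD v0)
      obtain ⟨u0, hu0⟩ := hK
      have hK0 : K.card ≠ 0 := Finset.card_ne_zero.mpr ⟨u0, hu0⟩
      have h1 := count_biclique hns hr0.le K T
        (Finset.disjoint_of_subset_left (fun u hu => (hN v0 u (hv0' hu)).2)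
          (Finset.disjoint_of_subset_right
            (fun v hv => (hN v u0 ((Finset.mem_filter.mp hv).2 hu0)).1) hAB))
        (fun u hu v hv => (hadj v u ((Finset.mem_filter.mp hv).2 hu)).symm)
      set t := T.card
      set κ := K.card
      have hf : (0 : ℝ) < t.factorial := by exact_mod_cast t.factorial_pos
      have h2 : (n.choose t : ℝ) ≤ (n : ℝ) ^ t / t.factorial := Nat.choose_le_pow_div t n
      have h3 : (n : ℝ) * r ^ κ ≤ t * (1 / 9) := by
        have h4 : (1000000 * r) ^ κ ≤ P ^ κ := by gcongr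
        have h5 : (1000000 : ℝ) ≤ 1000000 ^ κ := le_self_pow₀ (by norm_num) hK0
        have h6 : 1000000 * r ^ κ ≤ P ^ κ := by
          rw [mul_pow] at h4
          exact le_trans (by gcongr) h4
        have h7 := mul_le_mul_of_nonneg_left h6 (by positivity : (0 : ℝ) ≤ n / 300)
        have : (0 : ℝ) ≤ n * r ^ κ := by positivity
        linarith
      have he3 : Real.exp 1 ≤ 3 := Real.exp_one_lt_d9.le.trans (by norm_num)
      have h4 : (n.choose t : ℝ) * r ^ (κ * t) ≤ Real.exp (-t) := by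
        calc (n.choose t : ℝ) * r ^ (κ * t) ≤ (n : ℝ) ^ t / t.factorial * r ^ (κ * t) := by gcongr
          _ = ((n : ℝ) * r ^ κ) ^ t / t.factorial := by rw [mul_pow, pow_mul]; ring
          _ ≤ ((t : ℝ) * (1 / 9)) ^ t / t.factorial := by gcongr
          _ = (t : ℝ) ^ t / t.factorial * (1 / 9) ^ t := by rw [mul_pow]; ring
          _ ≤ Real.exp t * (Real.exp (-2)) ^ t := by
              gcongr
              · exact Real.pow_div_factorial_le_exp _ (Nat.cast_nonneg _) t
              · rw [Real.exp_neg, le_inv_comm₀ (by norm_num) (Real.exp_pos _)]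
                have : Real.exp 2 = Real.exp 1 ^ 2 := by rw [← Real.exp_nat_mul]; norm_num
                rw [this]
                have := Real.exp_pos 1
                nlinarith
          _ = _ := by rw [← Real.exp_nat_mul, ← Real.exp_add]; congr 1; ring
      have h5 : (n : ℝ) ^ κ ≤ Real.exp (s ^ 2) := by
        have h6 : (n : ℝ) ≤ Real.exp s := by linarith
        refine (pow_le_pow_left₀ (Nat.cast_nonneg _) h6 κ).trans ?_
        rw [← Real.exp_nat_mul, Real.exp_le_exp, sq]
        have : (κ : ℝ) ≤ D := by exact_mod_cast hKD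
        gcongr
        linarith
      have h6 : s ^ 2 + 1 ≤ t := by
        have h7 := hPD κ hKD
        have h8 : s ^ 99 ≤ n * P ^ κ := by
          rw [← hsn]
          have := mul_le_mul_of_nonneg_left h7 (by positivity : 0 ≤ s ^ 99)
          calc s ^ 99 = s ^ 99 * 1 := by ring
            _ ≤ s ^ 99 * (s * P ^ κ) := this
            _ = _ := by ring
        have h9 := hpw 2 99 (by norm_num)
        have h10 : 1 ≤ s ^ 2 := one_le_pow₀ hs1
        linarith
      have h7 : (n : ℝ) ^ κ * (n.choose t : ℝ) * r ^ (κ * t) ≤ Real.exp (-1) := by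
        rw [mul_assoc]
        refine le_trans (mul_le_mul h5 h4 (by positivity) (Real.exp_pos _).le) ?_
        rw [← Real.exp_add, Real.exp_le_exp]; linarith
      have h8 : Real.exp (-1) ≤ 1 / 2 := by
        rw [Real.exp_neg, inv_le_comm₀ (Real.exp_pos _) (by norm_num)]
        exact le_trans (by norm_num) Real.exp_one_gt_d9.le
      linarith)
    (by
      have h1 : 2 / P ^ 2 ≤ (1 / P) ^ 3 := by
        rw [one_div_pow, div_le_div_iff₀ (by positivity) (by positivity)]
        nlinarith [pow_pos hP0 2]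
      have h2 : (1 / P) ^ D ≤ s := by
        rw [one_div_pow, div_le_iff₀ (by positivity)]; exact hPD D le_rfl
      calc 16 * (2 / P ^ 2) ^ D ≤ 16 * ((1 / P) ^ 3) ^ D := by gcongr
        _ = 16 * ((1 / P) ^ D) ^ 3 := by rw [← pow_mul, ← pow_mul, mul_comm 3 D]
        _ ≤ _ := by gcongr)
    hs0
    (by
      have h1 := hpw 4 5 (by norm_num)
      have h2 := hpw 5 100 (by norm_num)
      have : 2 * s * (16 * s ^ 3) = 32 * s ^ 4 := by ring
      have h3 : 0 ≤ s ^ 4 := by positivity
      linarith)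
    (n - n / 2) (by omega) (by linarith)
  refine ⟨side, fun i => le_trans ?_ (hside i)⟩
  have h4 : (n : ℝ) * Real.exp (-s) ≤ 1 / 1000 := by
    rw [Real.exp_neg, ← div_eq_mul_inv, div_le_iff₀ (Real.exp_pos _)]; linarith
  have h5 : Real.exp (-(((n - n / 2 : ℕ) : ℝ) / (8 * (16 * s ^ 3)))) ≤ Real.exp (-s) := by
    rw [Real.exp_le_exp, neg_le_neg_iff, le_div_iff₀ (by positivity)]
    have h1 := hpw 4 100 (by norm_num)
    have : s * (8 * (16 * s ^ 3)) = 128 * s ^ 4 := by ring
    have h3 : 0 ≤ s ^ 4 := by positivity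
    linarith
  have h6 := mul_le_mul_of_nonneg_left h5 (by positivity : (0 : ℝ) ≤ n / 300)
  have h7 := mul_le_mul_of_nonneg_right hρ' (by positivity : 0 ≤ 64 * Real.exp (-s))
  have h8 : (0 : ℝ) ≤ n * Real.exp (-s) := by positivity
  linarith

end Crest.Agent.R52
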