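import Mathlib
import Crest.Prelude.Def_FinProb
import Crest.Prelude.Def_RandomGraph
import Crest.Prelude.Def_CopyThreshold

/-! Finite product probability toolkit for row 52. -/

set_option autoImplicit false

namespace Crest.Agent.R52
open Finset Crest.FinProb Crest.CombinatoricsR.RandomGraph

section Basic
variable {ι : Type*} [Fintype ι] [DecidableEq ι]

/-- Expectation under independent coins of bias `p`. -/
noncomputable def Ex (p : ℝ) (f : (ι → Bool) → ℝ) : ℝ := ∑ ω, bernoulliWeight p ω * f ω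

omit [DecidableEq ι] in
theorem wt_nonneg {p : ℝ} (h0 : 0 ≤ p) (h1 : p ≤ 1) (ω : ι → Bool) :
    0 ≤ bernoulliWeight p ω := by
  unfold bernoulliWeight
  refine Finset.prod_nonneg fun i _ => ?_
  split_ifs <;> linarith

theorem Ex_prod (p : ℝ) (h : ι → Bool → ℝ) :
    Ex p (fun ω => ∏ i, h i (ω i)) = ∏ i, (p * h i true + (1 - p) * h i false) := by
  unfold Ex bernoulliWeight
  have : ∀ i, p * h i true + (1 - p) * h i false
      = ∑ b : Bool, (if b then p else 1 - p) * h i b := by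
    intro i; simp
  simp_rw [this, ← Finset.prod_mul_distrib]
  rw [Finset.prod_univ_sum, Fintype.piFinset_univ]

theorem sum_wt (p : ℝ) : ∑ ω : ι → Bool, bernoulliWeight p ω = 1 := by
  have := Ex_prod (ι := ι) p (fun _ _ => 1)
  simpa [Ex] using this

theorem Ex_const (p c : ℝ) : Ex p (fun _ : ι → Bool => c) = c := by
  unfold Ex; rw [← Finset.sum_mul, sum_wt, one_mul]

theorem Ex_add (p : ℝ) (f g : (ι → Bool) → ℝ) :
    Ex p (fun ω => f ω + g ω) = Ex p f + Ex p g := by
  unfold Ex; simp_rw [mul_add, Finset.sum_add_distrib]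

theorem Ex_sub (p : ℝ) (f g : (ι → Bool) → ℝ) :
    Ex p (fun ω => f ω - g ω) = Ex p f - Ex p g := by
  unfold Ex; simp_rw [mul_sub, Finset.sum_sub_distrib]

theorem Ex_const_mul (p c : ℝ) (f : (ι → Bool) → ℝ) :
    Ex p (fun ω => c * f ω) = c * Ex p f := by
  unfold Ex; rw [Finset.mul_sum]; exact Finset.sum_congr rfl fun _ _ => by ring

theorem Ex_mul_const (p c : ℝ) (f : (ι → Bool) → ℝ) :
    Ex p (fun ω => f ω * c) = Ex p f * c := by
  unfold Ex; rw [Finset.sum_mul]; exact Finset.sum_congr rfl fun _ _ => by ring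

theorem Ex_sum {κ : Type*} (p : ℝ) (s : Finset κ) (f : κ → (ι → Bool) → ℝ) :
    Ex p (fun ω => ∑ k ∈ s, f k ω) = ∑ k ∈ s, Ex p (f k) := by
  unfold Ex; simp_rw [Finset.mul_sum]; exact Finset.sum_comm

theorem Ex_mono {p : ℝ} (h0 : 0 ≤ p) (h1 : p ≤ 1) {f g : (ι → Bool) → ℝ}
    (h : ∀ ω, f ω ≤ g ω) : Ex p f ≤ Ex p g :=
  Finset.sum_le_sum fun ω _ => mul_le_mul_of_nonneg_left (h ω) (wt_nonneg h0 h1 ω)

theorem Ex_nonneg {p : ℝ} (h0 : 0 ≤ p) (h1 : p ≤ 1) {f : (ι → Bool) → ℝ}
    (h : ∀ ω, 0 ≤ f ω) : 0 ≤ Ex p f :=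
  Finset.sum_nonneg fun ω _ => mul_nonneg (wt_nonneg h0 h1 ω) (h ω)

open Classical in
theorem prob_eq_Ex (p : ℝ) (E : Set (ι → Bool)) :
    bernoulliProb p E = Ex p (fun ω => if ω ∈ E then 1 else 0) := by
  unfold bernoulliProb Ex
  rw [Finset.sum_filter]
  refine Finset.sum_congr rfl fun ω _ => ?_
  by_cases h : ω ∈ E <;> simp [h]

theorem prob_nonneg {p : ℝ} (h0 : 0 ≤ p) (h1 : p ≤ 1) (E : Set (ι → Bool)) :
    0 ≤ bernoulliProb p E := by
  rw [prob_eq_Ex]; exact Ex_nonneg h0 h1 fun ω => by split_ifs <;> norm_num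

/-- Markov-type bound. -/
theorem prob_le_Ex {p : ℝ} (h0 : 0 ≤ p) (h1 : p ≤ 1) {E : Set (ι → Bool)}
    {f : (ι → Bool) → ℝ} (hf : ∀ ω, 0 ≤ f ω) (hE : ∀ ω ∈ E, 1 ≤ f ω) :
    bernoulliProb p E ≤ Ex p f := by
  rw [prob_eq_Ex]
  refine Ex_mono h0 h1 fun ω => ?_
  split_ifs with h
  · exact hE ω h
  · exact hf ω

theorem Ex_le_prob {p : ℝ} (h0 : 0 ≤ p) (h1 : p ≤ 1) {E : Set (ι → Bool)}
    {f : (ι → Bool) → ℝ} (hf : ∀ ω, f ω ≤ 1) (hE : ∀ ω, ω ∉ E → f ω ≤ 0) :
    Ex p f ≤ bernoulliProb p E := by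
  rw [prob_eq_Ex]
  refine Ex_mono h0 h1 fun ω => ?_
  split_ifs with h
  · exact hf ω
  · exact hE ω h

theorem prob_le_one {p : ℝ} (h0 : 0 ≤ p) (h1 : p ≤ 1) (E : Set (ι → Bool)) :
    bernoulliProb p E ≤ 1 := by
  have := prob_le_Ex h0 h1 (E := E) (f := fun _ => 1) (fun _ => zero_le_one) (fun _ _ => le_rfl)
  rwa [Ex_const] at this

theorem prob_mono {p : ℝ} (h0 : 0 ≤ p) (h1 : p ≤ 1) {E F : Set (ι → Bool)} (h : E ⊆ F) :
    bernoulliProb p E ≤ bernoulliProb p F := by
  rw [prob_eq_Ex p F]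
  refine prob_le_Ex h0 h1 (fun ω => by split_ifs <;> norm_num) fun ω hω => by simp [h hω]

theorem prob_compl (p : ℝ) (E : Set (ι → Bool)) :
    bernoulliProb p Eᶜ = 1 - bernoulliProb p E := by
  rw [prob_eq_Ex, prob_eq_Ex, ← Ex_const (ι := ι) p 1, ← Ex_sub]
  congr 1; funext ω
  by_cases h : ω ∈ E <;> simp [h, Ex_const]

/-- Functions of disjoint sets of coordinates are independent. -/
theorem Ex_mul_indep (p : ℝ) (Q : Set ι) (a b : (ι → Bool) → ℝ)
    (ha : ∀ ω ω', (∀ z ∈ Q, ω z = ω' z) → a ω = a ω')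
    (hb : ∀ ω ω', (∀ z, z ∉ Q → ω z = ω' z) → b ω = b ω') :
    Ex p (fun ω => a ω * b ω) = Ex p a * Ex p b := by
  classical
  let e := Equiv.piEquivPiSubtypeProd (fun z => z ∈ Q) (fun _ => Bool)
  have hw : ∀ (x : {z // z ∈ Q} → Bool) (y : {z // ¬ z ∈ Q} → Bool),
      bernoulliWeight p (e.symm (x, y)) = bernoulliWeight p x * bernoulliWeight p y := by
    intro x y
    unfold bernoulliWeight
    rw [← Fintype.prod_subtype_mul_prod_subtype (fun z => z ∈ Q)]
    congr 1
    · refine Finset.prod_congr rfl fun z _ => ?_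
      simp [e, Equiv.piEquivPiSubtypeProd, z.2]
    · refine Finset.prod_congr rfl fun z _ => ?_
      simp [e, Equiv.piEquivPiSubtypeProd, z.2]
  have key : ∀ f : (ι → Bool) → ℝ, Ex p f = ∑ x, ∑ y, bernoulliWeight p x * bernoulliWeight p y
      * f (e.symm (x, y)) := by
    intro f
    unfold Ex
    rw [← e.symm.sum_comp, Fintype.sum_prod_type]
    simp_rw [hw]
  let x0 : {z // z ∈ Q} → Bool := fun _ => false
  let y0 : {z // ¬ z ∈ Q} → Bool := fun _ => false
  have ha' : ∀ x y, a (e.symm (x, y)) = a (e.symm (x, y0)) := by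
    intro x y; apply ha; intro z hz; simp [e, Equiv.piEquivPiSubtypeProd, hz]
  have hb' : ∀ x y, b (e.symm (x, y)) = b (e.symm (x0, y)) := by
    intro x y; apply hb; intro z hz; simp [e, Equiv.piEquivPiSubtypeProd, hz]
  have h1 : Ex p a = ∑ x, bernoulliWeight p x * a (e.symm (x, y0)) := by
    rw [key]
    refine Finset.sum_congr rfl fun x _ => ?_
    simp_rw [ha' x]
    rw [← Finset.sum_mul, ← Finset.mul_sum, sum_wt, mul_one]
  have h2 : Ex p b = ∑ y, bernoulliWeight p y * b (e.symm (x0, y)) := by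
    rw [key, Finset.sum_comm]
    refine Finset.sum_congr rfl fun y _ => ?_
    simp_rw [fun x => hb' x y]
    rw [← Finset.sum_mul, ← Finset.sum_mul, sum_wt, one_mul]
  rw [h1, h2, key, Finset.sum_mul_sum]
  refine Finset.sum_congr rfl fun x _ => Finset.sum_congr rfl fun y _ => ?_
  rw [ha' x y, hb' x y]; ring

/-- Marginalisation along an injection of index types. -/
theorem Ex_comp_injective {κ : Type*} [Fintype κ] [DecidableEq κ] (p : ℝ) (e : κ → ι)
    (he : Function.Injective e) (F : (κ → Bool) → ℝ) :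
    Ex p (fun ω : ι → Bool => F (fun k => ω (e k))) = Ex p F := by
  classical
  have h1 : ∀ ω : ι → Bool, F (fun k => ω (e k))
      = ∑ η : κ → Bool, F η * ∏ i, (if ∀ k, e k = i → ω i = η k then (1 : ℝ) else 0) := by
    intro ω
    rw [Finset.sum_eq_single (fun k => ω (e k))]
    · rw [Finset.prod_eq_one, mul_one]
      intro i _
      rw [if_pos]
      rintro k rfl; rfl
    · intro η _ hη
      obtain ⟨k, hk⟩ := Function.ne_iff.mp hη
      rw [Finset.prod_eq_zero (Finset.mem_univ (e k)), mul_zero]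
      rw [if_neg]
      intro h; exact hk (h k rfl).symm
    · simp
  simp_rw [h1]
  rw [Ex_sum]
  unfold Ex
  refine Finset.sum_congr rfl fun η _ => ?_
  have h2 := Ex_prod p (fun i b => if ∀ k, e k = i → b = η k then (1 : ℝ) else 0)
  have h3 := Ex_const_mul p (F η)
    (fun ω : ι → Bool => ∏ i, (if ∀ k, e k = i → ω i = η k then (1 : ℝ) else 0))
  unfold Ex at h2 h3
  rw [h3, h2, mul_comm]
  congr 1
  unfold bernoulliWeight
  symm
  refine Finset.prod_of_injOn e (he.injOn) (fun _ _ => Finset.mem_univ _) ?_ ?_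
  · intro i _ hi
    have : ∀ k, e k ≠ i := by
      intro k hk; apply hi; exact ⟨k, by simp, hk⟩
    simp [this]
  · intro k _
    have : ∀ b : Bool, (∀ k', e k' = e k → b = η k') ↔ b = η k := by
      intro b
      constructor
      · intro h; exact h k rfl
      · intro h k' hk'; rw [he hk']; exact h
    simp_rw [this]
    cases η k <;> simp

end Basic

section Rows
variable {R A : Type*} [Fintype R] [DecidableEq R] [Fintype A] [DecidableEq A]

/-- Expectation for independent rows, each row a `p`-random subset of `A`. -/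
noncomputable def ExRows (p : ℝ) (F : (R → A → Bool) → ℝ) : ℝ :=
  ∑ X : R → A → Bool, (∏ x, bernoulliWeight p (X x)) * F X

theorem Ex_curry (p : ℝ) (F : (R → A → Bool) → ℝ) :
    Ex p (fun ω : R × A → Bool => F (fun x a => ω (x, a))) = ExRows p F := by
  unfold Ex ExRows
  rw [← (Equiv.curry R A Bool).symm.sum_comp]
  refine Finset.sum_congr rfl fun X _ => ?_
  congr 1
  unfold bernoulliWeight
  rw [Fintype.prod_prod_type]
  rfl

theorem ExRows_prod (p : ℝ) (h : R → (A → Bool) → ℝ) :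
    ExRows p (fun X => ∏ x, h x (X x)) = ∏ x, Ex p (h x) := by
  unfold ExRows Ex
  simp_rw [← Finset.prod_mul_distrib]
  rw [Finset.prod_univ_sum]
  simp

theorem ExRows_row (p : ℝ) (x : R) (h : (A → Bool) → ℝ) :
    ExRows p (fun X : R → A → Bool => h (X x)) = Ex p h := by
  have := ExRows_prod (R := R) p (fun y X => if y = x then h X else 1)
  simp only [Finset.prod_ite_eq', Finset.mem_univ, if_true] at this
  rw [this, Finset.prod_eq_single x]
  · simp
  · intro y _ hy; simp [hy, Ex_const]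
  · simp

theorem ExRows_mono {p : ℝ} (h0 : 0 ≤ p) (h1 : p ≤ 1) {F G : (R → A → Bool) → ℝ}
    (h : ∀ X, F X ≤ G X) : ExRows p F ≤ ExRows p G :=
  Finset.sum_le_sum fun X _ => mul_le_mul_of_nonneg_left (h X)
    (Finset.prod_nonneg fun _ _ => wt_nonneg h0 h1 _)

theorem ExRows_const (p c : ℝ) : ExRows p (fun _ : R → A → Bool => c) = c := by
  rw [← Ex_curry, Ex_const]

theorem ExRows_add (p : ℝ) (F G : (R → A → Bool) → ℝ) :
    ExRows p (fun X => F X + G X) = ExRows p F + ExRows p G := by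
  unfold ExRows; simp_rw [mul_add, Finset.sum_add_distrib]

theorem ExRows_sub (p : ℝ) (F G : (R → A → Bool) → ℝ) :
    ExRows p (fun X => F X - G X) = ExRows p F - ExRows p G := by
  unfold ExRows; simp_rw [mul_sub, Finset.sum_sub_distrib]

theorem ExRows_const_mul (p c : ℝ) (F : (R → A → Bool) → ℝ) :
    ExRows p (fun X => c * F X) = c * ExRows p F := by
  unfold ExRows; rw [Finset.mul_sum]; exact Finset.sum_congr rfl fun _ _ => by ring

theorem ExRows_sum {κ : Type*} (p : ℝ) (s : Finset κ) (F : κ → (R → A → Bool) → ℝ) :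
    ExRows p (fun X => ∑ k ∈ s, F k X) = ∑ k ∈ s, ExRows p (F k) := by
  unfold ExRows; simp_rw [Finset.mul_sum]; exact Finset.sum_comm

end Rows

section Graphs

/-- The event that the oriented edges `v → u`, `u ∈ N v`, embed injectively in the graph. -/
def EmbEv {W : Type*} (n : ℕ) (N : W → Finset W) : Set (SimpleGraph (Fin n)) :=
  {G | ∃ φ : W → Fin n, Function.Injective φ ∧ ∀ v, ∀ u ∈ N v, G.Adj (φ v) (φ u)}

theorem graphOf_adj {n : ℕ} (ω : EdgeSlot n → Bool) (a b : Fin n) :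
    (graphOf ω).Adj a b ↔ ∃ h : ¬ (s(a, b)).IsDiag, ω ⟨s(a, b), h⟩ = true := by
  unfold graphOf
  rw [SimpleGraph.fromEdgeSet_adj]
  constructor
  · rintro ⟨h, -⟩; exact h
  · rintro ⟨h, h'⟩; exact ⟨⟨h, h'⟩, by simpa using h⟩

/-- A map injective on a finite set extends to an injective map. -/
theorem exists_injective_extend {W : Type*} [Fintype W] [DecidableEq W] {n : ℕ}
    (hW : Fintype.card W ≤ n) (U : Finset W) (φ : W → Fin n) (hφ : Set.InjOn φ U) :
    ∃ ψ : W → Fin n, Function.Injective ψ ∧ ∀ v ∈ U, ψ v = φ v := by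
  classical
  have hc : Fintype.card {v // v ∉ U} ≤ Fintype.card {x : Fin n // x ∉ U.image φ} := by
    rw [Fintype.card_subtype_compl, Fintype.card_subtype_compl]
    simp only [Fintype.card_coe, Fintype.card_fin, Finset.card_image_of_injOn hφ]
    omega
  obtain ⟨e⟩ := Function.Embedding.nonempty_of_card_le hc
  refine ⟨fun v => if h : v ∈ U then φ v else (e ⟨v, h⟩).1, ?_, fun v hv => by simp [hv]⟩
  intro a b hab
  by_cases ha : a ∈ U <;> by_cases hb : b ∈ U <;> simp only [ha, hb, dif_pos, dif_neg,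
    not_false_eq_true] at hab
  · exact hφ ha hb hab
  · exact absurd (hab ▸ Finset.mem_image_of_mem φ ha) (e ⟨b, hb⟩).2
  · exact absurd (hab ▸ Finset.mem_image_of_mem φ hb) (e ⟨a, ha⟩).2
  · simpa using e.injective (Subtype.ext hab)

open Classical in
/-- Transfer from the row model to the random graph along a bipartite placement. -/
theorem ExRows_le_gnpProb {R A : Type*} [Fintype R] [DecidableEq R] [Fintype A] [DecidableEq A]
    {n : ℕ} {p : ℝ} (h0 : 0 ≤ p) (h1 : p ≤ 1) (ρ : R → Fin n) (α : A → Fin n)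
    (hρ : Function.Injective ρ) (hα : Function.Injective α) (hd : ∀ x a, ρ x ≠ α a)
    (P : (R → A → Bool) → Prop) (E : Set (SimpleGraph (Fin n)))
    (hPE : ∀ (X : R → A → Bool) (G : SimpleGraph (Fin n)),
      (∀ x a, X x a = true → G.Adj (ρ x) (α a)) → P X → G ∈ E) :
    ExRows p (fun X => if P X then 1 else 0) ≤ gnpProb n p E := by
  let e : R × A → EdgeSlot n := fun z => ⟨s(ρ z.1, α z.2), by simpa using hd z.1 z.2⟩
  have he : Function.Injective e := by
    rintro ⟨x, a⟩ ⟨y, b⟩ h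
    have h' : s(ρ x, α a) = s(ρ y, α b) := congrArg Subtype.val h
    rcases Sym2.eq_iff.mp h' with ⟨h2, h3⟩ | ⟨h2, _⟩
    · rw [hρ h2, hα h3]
    · exact absurd h2 (hd x b)
  rw [← Ex_curry, ← Ex_comp_injective p e he]
  unfold gnpProb
  refine Ex_le_prob h0 h1 (fun ω => by split_ifs <;> norm_num) fun ω hω => ?_
  rw [if_neg]
  intro hP
  apply hω
  refine hPE _ _ ?_ hP
  intro x a hxa
  rw [graphOf_adj]
  exact ⟨_, hxa⟩

end Graphs

/-- Layer-cake comparison for finite weighted sums. -/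
theorem layer_cake {I J : Type*} (s : Finset I) (t : Finset J) (a f : I → ℝ) (b g : J → ℝ)
    (hf : ∀ i ∈ s, 0 ≤ f i) (hg : ∀ j ∈ t, 0 ≤ g j)
    (h : ∀ c : ℝ, 0 < c → ∑ i ∈ s, (if c < f i then a i else 0)
      ≤ ∑ j ∈ t, (if c < g j then b j else 0)) :
    ∑ i ∈ s, a i * f i ≤ ∑ j ∈ t, b j * g j := by
  open MeasureTheory in
  have e1 : ∀ x y : ℝ, (fun c : ℝ => if c < x then y else 0)
      = (Set.Iio x).indicator (fun _ => y) := by
    intro x y; funext c; simp [Set.indicator]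
  have int : ∀ x y : ℝ, MeasureTheory.IntegrableOn (fun c : ℝ => if c < x then y else 0)
      (Set.Ioi 0) := by
    intro x y
    rw [e1, MeasureTheory.IntegrableOn,
      MeasureTheory.integrable_indicator_iff measurableSet_Iio, MeasureTheory.IntegrableOn,
      MeasureTheory.Measure.restrict_restrict measurableSet_Iio]
    refine MeasureTheory.integrableOn_const ?_
    rw [Set.inter_comm, Set.Ioi_inter_Iio]; simp
  have val : ∀ x y : ℝ, 0 ≤ x → ∫ c in Set.Ioi (0 : ℝ), (if c < x then y else 0) = y * x := by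
    intro x y hx
    rw [e1, MeasureTheory.setIntegral_indicator measurableSet_Iio, Set.Ioi_inter_Iio]
    simp [hx, mul_comm]
  calc ∑ i ∈ s, a i * f i = ∑ i ∈ s, ∫ c in Set.Ioi (0 : ℝ), (if c < f i then a i else 0) :=
        Finset.sum_congr rfl fun i hi => (val _ _ (hf i hi)).symm
    _ = ∫ c in Set.Ioi (0 : ℝ), ∑ i ∈ s, (if c < f i then a i else 0) :=
        (MeasureTheory.integral_finsetSum _ fun i _ => int _ _).symm
    _ ≤ ∫ c in Set.Ioi (0 : ℝ), ∑ j ∈ t, (if c < g j then b j else 0) := by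
        refine MeasureTheory.setIntegral_mono_on ?_ ?_ measurableSet_Ioi fun c hc => h c hc
        · exact MeasureTheory.integrable_finsetSum _ fun i _ => int _ _
        · exact MeasureTheory.integrable_finsetSum _ fun i _ => int _ _
    _ = ∑ j ∈ t, ∫ c in Set.Ioi (0 : ℝ), (if c < g j then b j else 0) :=
        MeasureTheory.integral_finsetSum _ fun i _ => int _ _
    _ = ∑ j ∈ t, b j * g j := Finset.sum_congr rfl fun j hj => val _ _ (hg j hj)

end Crest.Agent.R52
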