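import Crest.Agent.R52.Prob

/-! Multi-level minimal fragments: combinatorial core of the rounding theorem (S0071). -/

set_option autoImplicit false

namespace Crest.Agent.R52
open Finset

section
variable {α : Type} [Fintype α] [DecidableEq α] {m : ℕ}

/-- Level set of the weight inside `H`. -/
noncomputable def lvl (lam : Finset α → α → ℝ) (H : Finset α) (s : ℝ) : Finset α :=
  H.filter (fun y => s < lam H y)

/-- The changed positions. -/
def chg (τ τ' : α → Fin (m + 1)) : Finset α := univ.filter (fun x => τ' x < τ x)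

/-- Number of changed positions whose new label is at most `i`. -/
def slack (τ τ' : α → Fin (m + 1)) (i : ℕ) : ℕ :=
  ((chg τ τ').filter (fun x => (τ' x : ℕ) ≤ i)).card

/-- Robust feasibility of the labelling `τ'` for `H` with slack vector `a`. -/
def Feas (lam : Finset α → α → ℝ) (H : Finset α) (τ' : α → Fin (m + 1)) (a : ℕ → ℕ) : Prop :=
  ∀ i < m, ∀ s : ℝ, ((lvl lam H s).filter (fun x => i < (τ' x : ℕ))).card = 0 ∨
    2 ^ (i + 1) * (((lvl lam H s).filter (fun x => i < (τ' x : ℕ))).card + a i)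
      ≤ (lvl lam H s).card

/-- Elements of `H` of rank below `N`. -/
noncomputable def topSet (lam : Finset α → α → ℝ) (H : Finset α) (N : ℕ) : Finset α :=
  H.filter (fun x => (H.filter (fun y => lam H x ≤ lam H y)).card < N)

omit [Fintype α] [DecidableEq α] in
theorem card_topSet_le (lam : Finset α → α → ℝ) (H : Finset α) (N : ℕ) :
    (topSet lam H N).card ≤ N := by
  rcases (topSet lam H N).eq_empty_or_nonempty with h | h
  · simp [h]
  · obtain ⟨x, hx, hmin⟩ := Finset.exists_min_image _ (lam H) h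
    have hx' := Finset.mem_filter.mp hx
    refine le_trans (Finset.card_le_card ?_) hx'.2.le
    intro y hy
    exact Finset.mem_filter.mpr ⟨(Finset.mem_filter.mp hy).1, hmin y hy⟩

/-- The relation satisfied by minimal fragments. -/
def FragRel (lam : Finset α → α → ℝ) (F : Finset (Finset α)) (τ τ' : α → Fin (m + 1)) : Prop :=
  (∀ x, τ' x ≤ τ x) ∧ (∃ H ∈ F, Feas lam H τ' (slack τ τ')) ∧
    ∀ H ∈ F, Feas lam H τ' (slack τ τ') → ∀ x ∈ chg τ τ',
      x ∈ topSet lam H (2 ^ ((τ' x : ℕ) + 1) * slack τ τ' (τ' x))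

theorem exists_fragRel (lam : Finset α → α → ℝ) (F : Finset (Finset α)) {H : Finset α}
    (hH : H ∈ F) (τ : α → Fin (m + 1)) :
    ∃ τ', FragRel lam F τ τ' ∧ chg τ τ' ⊆ H := by
  classical
  let cand : Finset (α → Fin (m + 1)) := univ.filter (fun τ' => (∀ x, τ' x ≤ τ x) ∧
    chg τ τ' ⊆ H ∧ ∃ H' ∈ F, Feas lam H' τ' (slack τ τ'))
  have hne : cand.Nonempty := by
    refine ⟨fun x => if x ∈ H then 0 else τ x, ?_⟩
    simp only [cand, mem_filter, mem_univ, true_and]
    refine ⟨fun x => by split_ifs <;> simp, ?_, H, hH, ?_⟩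
    · intro x hx
      simp only [chg, mem_filter, mem_univ, true_and] at hx
      by_contra h; simp [h] at hx
    · intro i _ s
      left
      rw [Finset.card_eq_zero, Finset.filter_eq_empty_iff]
      intro x hx
      have : x ∈ H := (Finset.mem_filter.mp hx).1
      simp [this]
  obtain ⟨τ', hτ', hmax⟩ := Finset.exists_max_image cand (fun τ' => ∑ x, (τ' x : ℕ)) hne
  simp only [cand, mem_filter, mem_univ, true_and] at hτ'
  obtain ⟨hle, hsub, hfe⟩ := hτ'
  refine ⟨τ', ⟨hle, hfe, ?_⟩, hsub⟩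
  intro H'' hH'' hF x0 hx0
  by_contra hnot
  have hlt : τ' x0 < τ x0 := (Finset.mem_filter.mp hx0).2
  have hlt' : (τ' x0 : ℕ) < τ x0 := hlt
  have hb : (τ' x0 : ℕ) + 1 < m + 1 := by have := (τ x0).2; omega
  let τ'' : α → Fin (m + 1) := Function.update τ' x0 ⟨τ' x0 + 1, hb⟩
  have h0 : (τ'' x0 : ℕ) = τ' x0 + 1 := by simp [τ'']
  have hne' : ∀ x, x ≠ x0 → τ'' x = τ' x := fun x hx => by simp [τ'', hx]
  have hge : ∀ x, (τ' x : ℕ) ≤ τ'' x := by
    intro x
    by_cases hx : x = x0
    · subst hx; omega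
    · rw [hne' x hx]
  have hchg : chg τ τ'' ⊆ chg τ τ' := by
    intro x hx
    simp only [chg, mem_filter, mem_univ, true_and] at hx ⊢
    have := hge x
    have hx' : (τ'' x : ℕ) < τ x := hx
    exact Fin.lt_def.mpr (by omega)
  have hsl : ∀ k, slack τ τ'' k ≤ slack τ τ' k := by
    intro k
    refine Finset.card_le_card fun x hx => ?_
    rw [Finset.mem_filter] at hx ⊢
    exact ⟨hchg hx.1, (hge x).trans hx.2⟩
  have hsl0 : slack τ τ'' (τ' x0) + 1 ≤ slack τ τ' (τ' x0) := by
    refine Finset.card_lt_card ⟨fun x hx => ?_, fun h => ?_⟩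
    · rw [Finset.mem_filter] at hx ⊢
      exact ⟨hchg hx.1, (hge x).trans hx.2⟩
    · have := (Finset.mem_filter.mp (h (Finset.mem_filter.mpr ⟨hx0, le_rfl⟩))).2
      omega
  have hmem : τ'' ∈ cand := by
    simp only [cand, mem_filter, mem_univ, true_and]
    refine ⟨fun x => ?_, hchg.trans hsub, H'', hH'', ?_⟩
    · by_cases hx : x = x0
      · subst hx; exact Fin.le_def.mpr (by omega)
      · rw [hne' x hx]; exact hle x
    · intro i hi s
      by_cases hc : x0 ∈ lvl lam H'' s ∧ i = τ' x0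
      · obtain ⟨hx0C, rfl⟩ := hc
        have hfil : (lvl lam H'' s).filter (fun x => (τ' x0 : ℕ) < (τ'' x : ℕ))
            = insert x0 ((lvl lam H'' s).filter (fun x => (τ' x0 : ℕ) < (τ' x : ℕ))) := by
          ext x
          simp only [mem_filter, mem_insert]
          by_cases hx : x = x0
          · subst hx; simp [hx0C, h0]
          · simp [hx, hne' x hx]
        have hnm : x0 ∉ (lvl lam H'' s).filter (fun x => (τ' x0 : ℕ) < (τ' x : ℕ)) := by simp
        right
        rw [hfil, Finset.card_insert_of_notMem hnm]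
        have hx0H : x0 ∈ H'' := (Finset.mem_filter.mp hx0C).1
        have hrank : 2 ^ ((τ' x0 : ℕ) + 1) * slack τ τ' (τ' x0) ≤ (lvl lam H'' s).card := by
          have h1 : ¬ (H''.filter (fun y => lam H'' x0 ≤ lam H'' y)).card
              < 2 ^ ((τ' x0 : ℕ) + 1) * slack τ τ' (τ' x0) :=
            fun h => hnot (Finset.mem_filter.mpr ⟨hx0H, h⟩)
          refine (not_lt.mp h1).trans (Finset.card_le_card fun y hy => ?_)
          rw [Finset.mem_filter] at hy
          exact Finset.mem_filter.mpr ⟨hy.1, (Finset.mem_filter.mp hx0C).2.trans_le hy.2⟩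
        rcases hF _ hi s with h | h
        · rw [h]
          exact le_trans (Nat.mul_le_mul_left _ (by omega)) hrank
        · exact le_trans (Nat.mul_le_mul_left _ (by omega)) h
      · have hfil : (lvl lam H'' s).filter (fun x => i < (τ'' x : ℕ))
            = (lvl lam H'' s).filter (fun x => i < (τ' x : ℕ)) := by
          refine Finset.filter_congr fun x hx => ?_
          by_cases hxx : x = x0
          · subst hxx
            have : i ≠ τ' x := fun h => hc ⟨hx, h⟩
            rw [h0]; omega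
          · rw [hne' x hxx]
        rw [hfil]
        rcases hF i hi s with h | h
        · exact Or.inl h
        · exact Or.inr (le_trans (Nat.mul_le_mul_left _ (by have := hsl i; omega)) h)
  have := hmax τ'' hmem
  have hlt2 : ∑ x, (τ' x : ℕ) < ∑ x, (τ'' x : ℕ) :=
    Finset.sum_lt_sum (fun x _ => hge x) ⟨x0, mem_univ _, by omega⟩
  omega

/-- Number of changed positions with new label `i`. -/
def vcnt (τ τ' : α → Fin (m + 1)) (i : Fin m) : ℕ :=
  ((chg τ τ').filter (fun x => (τ' x : ℕ) = i)).card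

omit [DecidableEq α] in
theorem lt_of_mem_chg {τ τ' : α → Fin (m + 1)} {x : α} (hx : x ∈ chg τ τ') : (τ' x : ℕ) < m := by
  have h : (τ' x : ℕ) < τ x := (Finset.mem_filter.mp hx).2
  have := (τ x).2; omega

omit [DecidableEq α] in
theorem prod_chg (τ τ' : α → Fin (m + 1)) (z : ℕ → ℝ) :
    ∏ x ∈ chg τ τ', z (τ' x) = ∏ i : Fin m, z i ^ vcnt τ τ' i := by
  classical
  have hmaps : ∀ x ∈ chg τ τ', (τ' x : ℕ) ∈ Finset.range m :=
    fun x hx => Finset.mem_range.mpr (lt_of_mem_chg hx)
  rw [← Finset.prod_fiberwise_of_maps_to hmaps, Finset.prod_range]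
  refine Finset.prod_congr rfl fun i _ => ?_
  rw [vcnt, ← Finset.prod_const]
  exact Finset.prod_congr rfl fun x hx => by rw [(Finset.mem_filter.mp hx).2]

omit [DecidableEq α] in
theorem slack_eq (τ τ' : α → Fin (m + 1)) (i : ℕ) :
    slack τ τ' i = ∑ k : Fin m, if (k : ℕ) ≤ i then vcnt τ τ' k else 0 := by
  classical
  have hmaps : ∀ x ∈ (chg τ τ').filter (fun x => (τ' x : ℕ) ≤ i), (τ' x : ℕ) ∈ Finset.range m :=
    fun x hx => Finset.mem_range.mpr (lt_of_mem_chg (Finset.mem_filter.mp hx).1)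
  rw [slack, Finset.card_eq_sum_card_fiberwise hmaps, Finset.sum_range]
  refine Finset.sum_congr rfl fun k _ => ?_
  split_ifs with h
  · rw [vcnt, Finset.filter_filter]
    congr 1
    exact Finset.filter_congr fun x _ => by omega
  · rw [Finset.filter_filter, Finset.card_eq_zero, Finset.filter_eq_empty_iff]
    intro x _; omega

open Classical in
/-- The encoding bound for one fibre. -/
theorem fibre_bound (lam : Finset α → α → ℝ) (F : Finset (Finset α)) (π : Fin (m + 1) → ℝ)
    (hπ : ∀ l, 0 ≤ π l) (hπ1 : ∑ l, π l = 1) (z : ℕ → ℝ) (hz : ∀ i, 0 ≤ z i) (p : ℝ)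
    (hp : ∀ l : Fin (m + 1), (l : ℕ) < m → p = z l * π l * (1 / 4 ^ ((l : ℕ) + 1)))
    (τ' : α → Fin (m + 1)) (v : Fin m → ℕ) :
    ∑ τ ∈ univ.filter (fun τ => FragRel lam F τ τ' ∧ vcnt τ τ' = v),
        (∏ x, π (τ x)) * p ^ (chg τ τ').card
      ≤ (∏ x, π (τ' x)) * ∏ i : Fin m, (Real.exp 1 * z i) ^ v i := by
  have hW : 0 ≤ ∏ x, π (τ' x) := Finset.prod_nonneg fun x _ => hπ _
  rcases (univ.filter (fun τ => FragRel lam F τ τ' ∧ vcnt τ τ' = v)).eq_empty_or_nonempty
    with h | ⟨τ0, hτ0⟩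
  · rw [h, Finset.sum_empty]
    exact mul_nonneg hW (Finset.prod_nonneg fun i _ =>
      pow_nonneg (mul_nonneg (Real.exp_pos 1).le (hz _)) _)
  obtain ⟨⟨-, ⟨H, hH, hF⟩, -⟩, hv0⟩ := (Finset.mem_filter.mp hτ0).2
  set a : ℕ → ℕ := fun i => ∑ k : Fin m, if (k : ℕ) ≤ i then v k else 0 with ha
  have hsl : ∀ τ, vcnt τ τ' = v → slack τ τ' = a := by
    intro τ hτ; funext i; rw [slack_eq, hτ]
  rw [hsl τ0 hv0] at hF
  let A : Finset α := univ.filter (fun x => (τ' x : ℕ) < m ∧
    x ∈ topSet lam H (2 ^ ((τ' x : ℕ) + 1) * a (τ' x)))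
  let θ : α → ℝ := fun x => if x ∈ A then 1 / 4 ^ ((τ' x : ℕ) + 1) else 0
  have hθ : ∀ x, 0 ≤ θ x := fun x => by simp only [θ]; split_ifs <;> positivity
  let h : α → Fin (m + 1) → ℝ := fun x l => if l = τ' x then 1 else π l * θ x
  have hh : ∀ x l, 0 ≤ h x l := fun x l => by
    simp only [h]; split_ifs
    · norm_num
    · exact mul_nonneg (hπ _) (hθ _)
  have step1 : ∀ τ ∈ univ.filter (fun τ => FragRel lam F τ τ' ∧ vcnt τ τ' = v),
      (∏ x, π (τ x)) * p ^ (chg τ τ').card
        = ((∏ x, π (τ' x)) * ∏ i : Fin m, z i ^ v i) * ∏ x, h x (τ x) := by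
    intro τ hτ
    obtain ⟨⟨hle, -, hmin⟩, hv⟩ := (Finset.mem_filter.mp hτ).2
    rw [hsl τ hv] at hmin
    have hA : ∀ x ∈ chg τ τ', x ∈ A := fun x hx =>
      Finset.mem_filter.mpr ⟨mem_univ _, lt_of_mem_chg hx, hmin H hH hF x hx⟩
    rw [← hv, ← prod_chg τ τ' z, ← Finset.prod_const]
    have e1 : ∏ x ∈ chg τ τ', p = ∏ x, (if x ∈ chg τ τ' then p else 1) := by
      rw [Finset.prod_ite_mem, Finset.univ_inter]
    have e2 : ∏ x ∈ chg τ τ', z (τ' x) = ∏ x, (if x ∈ chg τ τ' then z (τ' x) else 1) := by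
      rw [Finset.prod_ite_mem, Finset.univ_inter]
    rw [e1, e2, ← Finset.prod_mul_distrib, ← Finset.prod_mul_distrib, ← Finset.prod_mul_distrib]
    refine Finset.prod_congr rfl fun x _ => ?_
    by_cases hx : x ∈ chg τ τ'
    · have hlt : τ' x < τ x := (Finset.mem_filter.mp hx).2
      simp only [hx, if_true, h, hlt.ne', if_false, θ, hA x hx]
      rw [hp (τ' x) (lt_of_mem_chg hx)]; ring
    · have heq : τ x = τ' x := by
        refine le_antisymm (not_lt.mp fun h => hx ?_) (hle x)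
        exact Finset.mem_filter.mpr ⟨mem_univ _, h⟩
      simp [hx, h, heq]
  have hva : ∀ i, a i ≤ ∑ k, v k := fun i =>
    Finset.sum_le_sum fun k _ => by split_ifs <;> simp
  have step2 : ∑ x, θ x ≤ (∑ k, v k : ℕ) := by
    have hmaps : ∀ x ∈ A, (τ' x : ℕ) ∈ Finset.range m :=
      fun x hx => Finset.mem_range.mpr (Finset.mem_filter.mp hx).2.1
    have e1 : ∑ x, θ x = ∑ x ∈ A, (1 : ℝ) / 4 ^ ((τ' x : ℕ) + 1) := by
      simp only [θ]; rw [Finset.sum_ite_mem, Finset.univ_inter]
    rw [e1, ← Finset.sum_fiberwise_of_maps_to hmaps]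
    calc ∑ i ∈ Finset.range m, ∑ x ∈ A with (τ' x : ℕ) = i, (1 : ℝ) / 4 ^ ((τ' x : ℕ) + 1)
        ≤ ∑ i ∈ Finset.range m, ((∑ k, v k : ℕ) : ℝ) * (1 / 2) ^ (i + 1) := by
          refine Finset.sum_le_sum fun i _ => ?_
          have e2 : ∑ x ∈ A with (τ' x : ℕ) = i, (1 : ℝ) / 4 ^ ((τ' x : ℕ) + 1)
              = (A.filter (fun x => (τ' x : ℕ) = i)).card * ((1 : ℝ) / 4 ^ (i + 1)) := by
            rw [← nsmul_eq_mul, ← Finset.sum_const]
            exact Finset.sum_congr rfl fun x hx => by rw [(Finset.mem_filter.mp hx).2]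
          have e3 : (A.filter (fun x => (τ' x : ℕ) = i)).card ≤ 2 ^ (i + 1) * ∑ k, v k := by
            refine le_trans (Finset.card_le_card (t := topSet lam H (2 ^ (i + 1) * a i)) ?_)
              ((card_topSet_le _ _ _).trans (Nat.mul_le_mul_left _ (hva i)))
            intro x hx
            obtain ⟨hxA, rfl⟩ := Finset.mem_filter.mp hx
            exact (Finset.mem_filter.mp hxA).2.2
          have e4 : ((A.filter (fun x => (τ' x : ℕ) = i)).card : ℝ)
              ≤ 2 ^ (i + 1) * ((∑ k, v k : ℕ) : ℝ) := by exact_mod_cast e3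
          rw [e2]
          refine (mul_le_mul_of_nonneg_right e4 (by positivity)).trans (le_of_eq ?_)
          have : (4 : ℝ) ^ (i + 1) = 2 ^ (i + 1) * 2 ^ (i + 1) := by rw [← mul_pow]; norm_num
          rw [this, one_div_pow]; field_simp
      _ ≤ (∑ k, v k : ℕ) := by
          rw [← Finset.mul_sum]
          refine mul_le_of_le_one_right (by positivity) ?_
          have : ∀ k : ℕ, ∑ i ∈ Finset.range k, ((1 : ℝ) / 2) ^ (i + 1) = 1 - (1 / 2) ^ k := by
            intro k
            induction k with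
            | zero => simp
            | succ k ih => rw [Finset.sum_range_succ, ih]; ring
          rw [this]
          have : (0 : ℝ) ≤ (1 / 2) ^ m := by positivity
          linarith
  have step3 : ∑ τ : α → Fin (m + 1), ∏ x, h x (τ x) ≤ Real.exp (∑ k, v k : ℕ) := by
    rw [← Fintype.piFinset_univ, ← Finset.prod_univ_sum]
    refine le_trans ?_ (Real.exp_le_exp.mpr step2)
    rw [Real.exp_sum]
    refine Finset.prod_le_prod (fun x _ => Finset.sum_nonneg fun l _ => hh x l) fun x _ => ?_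
    refine le_trans ?_ (Real.add_one_le_exp _)
    calc ∑ l, h x l ≤ ∑ l, (π l * θ x + if l = τ' x then 1 else 0) := by
          refine Finset.sum_le_sum fun l _ => ?_
          have := mul_nonneg (hπ l) (hθ x)
          simp only [h]; split_ifs <;> linarith
      _ = θ x + 1 := by
          rw [Finset.sum_add_distrib, ← Finset.sum_mul, hπ1]; simp
  have hZ : 0 ≤ (∏ x, π (τ' x)) * ∏ i : Fin m, z i ^ v i :=
    mul_nonneg hW (Finset.prod_nonneg fun i _ => pow_nonneg (hz _) _)
  rw [Finset.sum_congr rfl step1, ← Finset.mul_sum]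
  calc ((∏ x, π (τ' x)) * ∏ i : Fin m, z i ^ v i) *
        ∑ τ ∈ univ.filter (fun τ => FragRel lam F τ τ' ∧ vcnt τ τ' = v), ∏ x, h x (τ x)
      ≤ ((∏ x, π (τ' x)) * ∏ i : Fin m, z i ^ v i) * Real.exp (∑ k, v k : ℕ) := by
        refine mul_le_mul_of_nonneg_left (le_trans ?_ step3) hZ
        exact Finset.sum_le_sum_of_subset_of_nonneg (Finset.filter_subset _ _)
          fun τ _ _ => Finset.prod_nonneg fun x _ => hh _ _
    _ = _ := by
        simp_rw [mul_pow, Finset.prod_mul_distrib, Finset.prod_pow_eq_pow_sum]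
        rw [← Real.exp_nat_mul, mul_one]; ring

open Classical in
/-- Total expected cost of the non-trivial fragments. -/
theorem encoding_bound (lam : Finset α → α → ℝ) (F : Finset (Finset α)) (π : Fin (m + 1) → ℝ)
    (hπ : ∀ l, 0 ≤ π l) (hπ1 : ∑ l, π l = 1) (z : ℕ → ℝ) (hz : ∀ i, 0 ≤ z i) (p : ℝ)
    (hp0 : 0 ≤ p)
    (hp : ∀ l : Fin (m + 1), (l : ℕ) < m → p = z l * π l * (1 / 4 ^ ((l : ℕ) + 1)))
    (hz2 : ∀ i, Real.exp 1 * z i ≤ (1 / 40) * (1 / 2) ^ i) :
    ∑ τ : α → Fin (m + 1), (∏ x, π (τ x)) *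
        ∑ τ' ∈ univ.filter (fun τ' => FragRel lam F τ τ' ∧ τ' ≠ τ), p ^ (chg τ τ').card
      ≤ 1 / 4 := by
  set n := Fintype.card α
  let V : Finset (Fin m → ℕ) := (Fintype.piFinset fun _ => Finset.range (n + 1)).erase 0
  let y : Fin m → ℝ := fun i => Real.exp 1 * z i
  have hy0 : ∀ i, 0 ≤ y i := fun i => mul_nonneg (Real.exp_pos 1).le (hz _)
  have hsumV : ∑ v ∈ V, ∏ i, y i ^ v i ≤ 1 / 4 := by
    have h0 : (0 : Fin m → ℕ) ∈ Fintype.piFinset fun _ : Fin m => Finset.range (n + 1) := by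
      simp
    have e1 := Finset.add_sum_erase _ (fun v : Fin m → ℕ => ∏ i, y i ^ v i) h0
    rw [← Finset.prod_univ_sum] at e1
    simp only [Pi.zero_apply, pow_zero, Finset.prod_const_one] at e1
    have e2 : ∏ i, ∑ k ∈ Finset.range (n + 1), y i ^ k ≤ Real.exp (∑ i, 2 * y i) := by
      rw [Real.exp_sum]
      refine Finset.prod_le_prod (fun i _ => Finset.sum_nonneg fun k _ => pow_nonneg (hy0 i) _)
        fun i _ => le_trans ?_ (Real.add_one_le_exp _)
      have hy1 : y i ≤ 1 / 2 := by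
        refine (hz2 i).trans ?_
        have : ((1 : ℝ) / 2) ^ (i : ℕ) ≤ 1 := pow_le_one₀ (by norm_num) (by norm_num)
        linarith
      have : ∀ k : ℕ, ∑ j ∈ Finset.range (k + 1), y i ^ j ≤ 2 * y i + 1 - 2 * y i ^ (k + 1) := by
        intro k
        induction k with
        | zero => simp
        | succ k ih =>
          rw [Finset.sum_range_succ]
          have : y i ^ (k + 1 + 1) ≤ 1 / 2 * y i ^ (k + 1) := by
            rw [pow_succ _ (k + 1), mul_comm]
            exact mul_le_mul_of_nonneg_right hy1 (pow_nonneg (hy0 i) _)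
          linarith
      have h2 := this n
      have h3 := pow_nonneg (hy0 i) (n + 1)
      linarith
    have e3 : ∑ i, 2 * y i ≤ 1 / 10 := by
      calc ∑ i, 2 * y i ≤ ∑ i : Fin m, (1 / 20) * ((1 : ℝ) / 2) ^ (i : ℕ) :=
            Finset.sum_le_sum fun i _ => by have := hz2 i; simp only [y]; linarith
        _ ≤ 1 / 10 := by
            rw [← Finset.mul_sum, ← Finset.sum_range (fun i => ((1 : ℝ) / 2) ^ i)]
            have := sum_geometric_two_le m
            linarith
    have e4 : Real.exp (1 / 10) ≤ 5 / 4 := by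
      have := Real.exp_bound_div_one_sub_of_interval (x := 1 / 10) (by norm_num) (by norm_num)
      linarith
    have e5 := Real.exp_le_exp.mpr e3
    simp only [V]
    linarith
  have hW : ∀ τ : α → Fin (m + 1), 0 ≤ ∏ x, π (τ x) :=
    fun τ => Finset.prod_nonneg fun x _ => hπ _
  have hW1 : ∑ τ : α → Fin (m + 1), ∏ x, π (τ x) = 1 := by
    rw [← Fintype.piFinset_univ, ← Finset.prod_univ_sum]; simp [hπ1]
  calc _ = ∑ τ' : α → Fin (m + 1), ∑ τ ∈ univ.filter (fun τ => FragRel lam F τ τ' ∧ τ' ≠ τ),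
          (∏ x, π (τ x)) * p ^ (chg τ τ').card := by
        simp_rw [Finset.mul_sum, Finset.sum_filter]
        exact Finset.sum_comm
    _ ≤ ∑ τ' : α → Fin (m + 1), (∏ x, π (τ' x)) * (1 / 4) := by
        refine Finset.sum_le_sum fun τ' _ => ?_
        have hmaps : ∀ τ ∈ univ.filter (fun τ => FragRel lam F τ τ' ∧ τ' ≠ τ),
            vcnt τ τ' ∈ V := by
          intro τ hτ
          obtain ⟨⟨hle, -, -⟩, hne⟩ := (Finset.mem_filter.mp hτ).2
          refine Finset.mem_erase.mpr ⟨fun h => hne ?_, ?_⟩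
          · funext x
            by_contra hx
            have hx' : x ∈ chg τ τ' :=
              Finset.mem_filter.mpr ⟨mem_univ _, lt_of_le_of_ne (hle x) hx⟩
            have h1 := congrFun h ⟨τ' x, lt_of_mem_chg hx'⟩
            simp only [vcnt, Pi.zero_apply, Finset.card_eq_zero, Finset.filter_eq_empty_iff] at h1
            exact h1 hx' rfl
          · rw [Fintype.mem_piFinset]
            intro i
            exact Finset.mem_range.mpr (Nat.lt_succ_of_le (Finset.card_le_univ _))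
        rw [← Finset.sum_fiberwise_of_maps_to hmaps]
        refine le_trans ?_ (mul_le_mul_of_nonneg_left hsumV (hW τ'))
        rw [Finset.mul_sum]
        refine Finset.sum_le_sum fun v _ => le_trans ?_
          (fibre_bound lam F π hπ hπ1 z hz p hp τ' v)
        refine Finset.sum_le_sum_of_subset_of_nonneg ?_
          fun τ _ _ => mul_nonneg (hW τ) (pow_nonneg hp0 _)
        intro τ hτ
        simp only [Finset.mem_filter, mem_univ, true_and] at hτ ⊢
        exact ⟨hτ.1.1, hτ.2⟩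
    _ = 1 / 4 := by rw [← Finset.sum_mul, hW1, one_mul]

end

end Crest.Agent.R52
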