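import Crest.Agent.R52.Fourier
import Crest.Agent.R52.Defs

/-! Splitting a spread family of neighbourhoods in two so that each half can be matched
into independent random sets. -/

set_option autoImplicit false

namespace Crest.Agent.R52
open Finset Crest.FinProb Crest.CombinatoricsR.RandomGraph

section
variable {A B : Type} [Fintype A] [DecidableEq A] [Fintype B] [DecidableEq B]

/-- A valid pair of target families for the set `S`. -/
def ValidPair (p M : ℝ) (S : Finset A) (c : Bool → Set (A → Bool)) : Prop :=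
  (∀ i, 1 / M ≤ bernoulliProb p (c i)) ∧
    ∀ a ∈ S, (∀ X ∈ c true, X a = true) ∨ (∀ X ∈ c false, X a = true)

/-- Density contributed by one pair. -/
noncomputable def dens (p : ℝ) (c : Bool → Set (A → Bool)) (X : A → Bool) : ℝ :=
  ∑ i, indic (c i) X / bernoulliProb p (c i)

omit [Fintype A] [DecidableEq A] in
theorem indic_nonneg (𝒜 : Set (A → Bool)) (X : A → Bool) : 0 ≤ indic 𝒜 X := by
  unfold indic; split_ifs <;> norm_num

omit [Fintype A] [DecidableEq A] in
theorem indic_le_one (𝒜 : Set (A → Bool)) (X : A → Bool) : indic 𝒜 X ≤ 1 := by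
  unfold indic; split_ifs <;> norm_num

theorem prob_up (p : ℝ) (S : Finset A) :
    bernoulliProb p {X : A → Bool | ∀ a ∈ S, X a = true} = p ^ S.card := by
  have h := Ex_prod (ι := A) p (fun a b => if a ∈ S then (if b then 1 else 0) else 1)
  rw [← Ex_indic]
  have e : indic {X : A → Bool | ∀ a ∈ S, X a = true}
      = fun ω => ∏ a, if a ∈ S then (if ω a then (1 : ℝ) else 0) else 1 := by
    funext ω
    unfold indic
    split_ifs with hω
    · refine (Finset.prod_eq_one fun a _ => ?_).symm
      by_cases ha : a ∈ S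
      · simp [ha, hω a ha]
      · simp [ha]
    · simp only [Set.mem_ofPred_eq, not_forall] at hω
      obtain ⟨a, ha, hωa⟩ := hω
      exact (Finset.prod_eq_zero (mem_univ a) (by simp [ha, hωa])).symm
  rw [e, h, ← Finset.prod_const, ← Finset.univ_inter S, ← Finset.prod_ite_mem, Finset.univ_inter]
  refine Finset.prod_congr rfl fun a _ => ?_
  split_ifs <;> simp_all

omit [DecidableEq B] in
/-- Few neighbourhoods are not robustly covered by two members of a large family. -/
theorem card_bad_le (N : B → Finset A) {p n' M : ℝ} (D : ℕ) (hp0 : 0 < p) (hp1 : p < 1)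
    (hn' : 0 < n') (hD : ∀ v, (N v).card ≤ D) (hB : (Fintype.card B : ℝ) ≤ n')
    (hspread : ∀ K : Finset A, K.Nonempty →
      ((univ.filter (fun v => K ⊆ N v)).card : ℝ) ≤ n' * p ^ K.card)
    (hM : 16 * (2 / p ^ 2) ^ D ≤ M) (𝒜 : Set (A → Bool)) (T : Finset B)
    (hT : ∀ v ∈ T, ¬ ∃ c, ValidPair p M (N v) c ∧ ∀ i, c i ⊆ 𝒜) :
    (T.card : ℝ) ≤ 8 * n' * (1 - bernoulliProb p 𝒜) := by
  classical
  set μ := bernoulliProb p 𝒜 with hμ
  have hμ1 : μ ≤ 1 := prob_le_one hp0.le hp1.le _
  have hμ0 : 0 ≤ μ := prob_nonneg hp0.le hp1.le _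
  by_cases hhalf : μ < 1 / 2
  · have : (T.card : ℝ) ≤ Fintype.card B := by exact_mod_cast Finset.card_le_univ T
    nlinarith
  have hM0 : 0 < M := lt_of_lt_of_le (by positivity) hM
  have hp2 : 1 ≤ 2 / p ^ 2 := by rw [le_div_iff₀ (by positivity)]; nlinarith
  have key : ∀ v ∈ T, (1 : ℝ) / 8 ≤ ∑ I ∈ (N v).powerset.erase ∅,
      (1 / p ^ 2) ^ I.card * fc p (indic 𝒜) I ^ 2 := by
    intro v hv
    let up : Finset A → Set (A → Bool) := fun K => 𝒜 ∩ {Y | ∀ a ∈ K, Y a = true}
    let Θ : Set (A → Bool) := {X | X ∈ 𝒜 ∧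
      bernoulliProb p (up ((N v).filter (fun a => X a = true))) < 1 / M}
    have h1 := fourier_cover hp0 hp1 𝒜 Θ (N v) (by
      intro X hX Y hY hc
      by_contra hno
      push Not at hno
      apply hT v hv
      refine ⟨fun i => if i then up ((N v).filter (fun a => X a = true))
        else up ((N v).filter (fun a => Y a = true)), ⟨?_, ?_⟩, ?_⟩
      · intro i
        cases i
        · exact not_lt.mp fun h => hno.2 ⟨hY, h⟩
        · exact not_lt.mp fun h => hno.1 ⟨hX, h⟩
      · intro a ha
        rcases hc a ha with h | h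
        · exact Or.inl fun Z hZ => hZ.2 a (Finset.mem_filter.mpr ⟨ha, h⟩)
        · exact Or.inr fun Z hZ => hZ.2 a (Finset.mem_filter.mpr ⟨ha, h⟩)
      · intro i
        cases i <;> exact Set.inter_subset_left)
    have h2 : bernoulliProb p Θ ≤ 2 ^ (N v).card * (1 / M) := by
      let P := (N v).powerset.filter (fun K => bernoulliProb p (up K) < 1 / M)
      calc bernoulliProb p Θ ≤ Ex p (fun X => ∑ K ∈ P, indic (up K) X) := by
            refine prob_le_Ex hp0.le hp1.le
              (fun X => Finset.sum_nonneg fun K _ => indic_nonneg _ _) fun X hX => ?_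
            have hK : (N v).filter (fun a => X a = true) ∈ P :=
              Finset.mem_filter.mpr ⟨Finset.mem_powerset.mpr (Finset.filter_subset _ _), hX.2⟩
            refine le_trans ?_ (Finset.single_le_sum (fun K _ => indic_nonneg (up K) X) hK)
            have : X ∈ up ((N v).filter (fun a => X a = true)) :=
              ⟨hX.1, fun a ha => (Finset.mem_filter.mp ha).2⟩
            simp [indic, this]
        _ = ∑ K ∈ P, bernoulliProb p (up K) := by rw [Ex_sum]; simp_rw [Ex_indic]
        _ ≤ ∑ K ∈ P, 1 / M := Finset.sum_le_sum fun K hK => (Finset.mem_filter.mp hK).2.le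
        _ ≤ _ := by
            rw [Finset.sum_const, nsmul_eq_mul]
            refine mul_le_mul_of_nonneg_right ?_ (by positivity)
            have := Finset.card_le_card (Finset.filter_subset
              (fun K => bernoulliProb p (up K) < 1 / M) (N v).powerset)
            rw [Finset.card_powerset] at this
            exact_mod_cast this
    have h3 : 2 * bernoulliProb p Θ * (1 / p ^ 2) ^ (N v).card ≤ 1 / 8 := by
      have h4 : (2 / p ^ 2) ^ (N v).card ≤ (2 / p ^ 2) ^ D := pow_le_pow_right₀ hp2 (hD v)
      have h5 : (2 / p ^ 2) ^ (N v).card = 2 ^ (N v).card * (1 / p ^ 2) ^ (N v).card := by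
        rw [← mul_pow]; congr 1; ring
      calc 2 * bernoulliProb p Θ * (1 / p ^ 2) ^ (N v).card
          ≤ 2 * (2 ^ (N v).card * (1 / M)) * (1 / p ^ 2) ^ (N v).card := by gcongr
        _ = 2 * (2 / p ^ 2) ^ (N v).card / M := by rw [h5]; ring
        _ ≤ 1 / 8 := by rw [div_le_iff₀ hM0]; linarith
    rw [← hμ] at h1
    nlinarith [not_lt.mp hhalf]
  have hvar := variance_indic hp0 hp1 𝒜
  rw [← hμ] at hvar
  have hsum : ∑ v ∈ T, ∑ I ∈ (N v).powerset.erase ∅,
      (1 / p ^ 2) ^ I.card * fc p (indic 𝒜) I ^ 2 ≤ n' * (μ * (1 - μ)) := by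
    calc _ ≤ ∑ v, ∑ I ∈ (N v).powerset.erase ∅, (1 / p ^ 2) ^ I.card * fc p (indic 𝒜) I ^ 2 :=
          Finset.sum_le_sum_of_subset_of_nonneg (Finset.subset_univ _)
            fun v _ _ => Finset.sum_nonneg fun I _ => by positivity
      _ = ∑ I ∈ (univ : Finset (Finset A)).erase ∅, ∑ v ∈ univ.filter (fun v => I ⊆ N v),
            (1 / p ^ 2) ^ I.card * fc p (indic 𝒜) I ^ 2 := by
          refine Finset.sum_comm' fun v I => ?_
          simp
          tauto
      _ ≤ ∑ I ∈ (univ : Finset (Finset A)).erase ∅,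
            n' * ((1 / (p * (1 - p))) ^ I.card * fc p (indic 𝒜) I ^ 2) := by
          refine Finset.sum_le_sum fun I hI => ?_
          rw [Finset.sum_const, nsmul_eq_mul]
          have h1 := hspread I (Finset.nonempty_iff_ne_empty.mpr (Finset.mem_erase.mp hI).1)
          have h1p : 0 < 1 - p := by linarith
          have h2 : p ^ I.card * (1 / p ^ 2) ^ I.card ≤ (1 / (p * (1 - p))) ^ I.card := by
            rw [← mul_pow]
            refine pow_le_pow_left₀ (by positivity) ?_ _
            rw [mul_one_div, div_le_div_iff₀ (by positivity) (by positivity)]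
            nlinarith [mul_pos hp0 (mul_pos hp0 hp0)]
          calc _ ≤ n' * p ^ I.card * ((1 / p ^ 2) ^ I.card * fc p (indic 𝒜) I ^ 2) :=
                mul_le_mul_of_nonneg_right h1 (by positivity)
            _ = n' * ((p ^ I.card * (1 / p ^ 2) ^ I.card) * fc p (indic 𝒜) I ^ 2) := by ring
            _ ≤ _ := by gcongr
      _ = _ := by rw [← Finset.mul_sum, hvar]
  have h8 := Finset.sum_le_sum key
  rw [Finset.sum_const, nsmul_eq_mul] at h8
  have : n' * (μ * (1 - μ)) ≤ n' * (1 - μ) := by
    refine mul_le_mul_of_nonneg_left ?_ hn'.le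
    nlinarith
  linarith

theorem dens_nonneg {p : ℝ} (hp0 : 0 ≤ p) (hp1 : p ≤ 1) (c : Bool → Set (A → Bool))
    (X : A → Bool) : 0 ≤ dens p c X :=
  Finset.sum_nonneg fun _ _ => div_nonneg (indic_nonneg _ _) (prob_nonneg hp0 hp1 _)

theorem dens_le {p M : ℝ} (hM : 0 < M) {S : Finset A} {c : Bool → Set (A → Bool)}
    (hc : ValidPair p M S c) (X : A → Bool) : dens p c X ≤ 2 * M := by
  have : ∀ i, indic (c i) X / bernoulliProb p (c i) ≤ M := by
    intro i
    have h1 := hc.1 i
    have h2 : 0 < bernoulliProb p (c i) := lt_of_lt_of_le (by positivity) h1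
    rw [div_le_iff₀ h2]
    rw [div_le_iff₀ hM] at h1
    have := indic_le_one (c i) X
    linarith
  unfold dens
  rw [Fintype.sum_bool]
  linarith [this true, this false]

/-- A configuration of valid pairs whose total load has an exponential tail. -/
theorem exists_config (N : B → Finset A) {p n' M β : ℝ} (D : ℕ) (hp0 : 0 < p) (hp1 : p < 1)
    (hn' : 0 < n') (hD : ∀ v, (N v).card ≤ D) (hB : (Fintype.card B : ℝ) ≤ n')
    (hspread : ∀ K : Finset A, K.Nonempty →
      ((univ.filter (fun v => K ⊆ N v)).card : ℝ) ≤ n' * p ^ K.card)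
    (hM : 16 * (2 / p ^ 2) ^ D ≤ M) (hβ0 : 0 < β) (hβ : 2 * β * M ≤ n') :
    ∃ C : B → Bool → Set (A → Bool), (∀ v, ValidPair p M (N v) (C v)) ∧
      bernoulliProb p {X | 65 * n' ≤ ∑ v, dens p (C v) X} ≤ 64 * Real.exp (-β) := by
  classical
  have hM0 : 0 < M := lt_of_lt_of_le (by positivity) hM
  set γ := β / n' with hγ
  have hγ0 : 0 < γ := by positivity
  have hγM : γ * (2 * M) ≤ 1 := by
    rw [hγ, div_mul_eq_mul_div, div_le_one hn']; linarith
  obtain ⟨C, hC, hmin⟩ := Set.exists_min_image {C : B → Bool → Set (A → Bool) |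
      ∀ v, ValidPair p M (N v) (C v)}
    (fun C => Ex p (fun X => Real.exp (γ * ∑ v, dens p (C v) X))) (Set.toFinite _) (by
      refine ⟨fun v _ => {X | ∀ a ∈ N v, X a = true}, fun v => ⟨fun _ => ?_, fun a ha => ?_⟩⟩
      · rw [prob_up, div_le_iff₀ hM0]
        have h1 : p ^ D ≤ p ^ (N v).card := pow_le_pow_of_le_one hp0.le hp1.le (hD v)
        have h2 : 1 ≤ p ^ D * (2 / p ^ 2) ^ D := by
          rw [← mul_pow]
          refine one_le_pow₀ ?_
          rw [← mul_div_assoc, le_div_iff₀ (by positivity)]; nlinarith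
        have h3 : p ^ D * (16 * (2 / p ^ 2) ^ D) ≤ p ^ (N v).card * M := by gcongr
        linarith
      · exact Or.inl fun X hX => hX a ha)
  refine ⟨C, hC, ?_⟩
  let L : (A → Bool) → ℝ := fun X => ∑ v, dens p (C v) X
  let φ : (A → Bool) → ℝ := fun X => Real.exp (γ * L X)
  have hφ : ∀ X, 0 < φ X := fun X => Real.exp_pos _
  have hL : ∀ X, 0 ≤ L X := fun X => Finset.sum_nonneg fun v _ => dens_nonneg hp0.le hp1.le _ _
  have local_opt : ∀ v c', ValidPair p M (N v) c' →
      Ex p (fun X => φ X * dens p (C v) X) ≤ 4 * Ex p (fun X => φ X * dens p c' X) := by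
    intro v c' hc'
    have h1 := hmin (Function.update C v c') (by
      intro w
      by_cases hw : w = v
      · subst hw; simpa using hc'
      · rw [Function.update_of_ne hw]; exact hC w)
    have h2 : ∀ X, ∑ w, dens p (Function.update C v c' w) X
        = L X - dens p (C v) X + dens p c' X := by
      intro X
      simp only [L]
      rw [← Finset.add_sum_erase _ _ (mem_univ v), ← Finset.add_sum_erase _ _ (mem_univ v)]
      rw [Function.update_self, Finset.sum_congr rfl (fun w hw => by
        rw [Function.update_of_ne (Finset.mem_erase.mp hw).1])]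
      ring
    simp only [h2] at h1
    have h3 : ∀ X, Real.exp (γ * (L X - dens p (C v) X + dens p c' X))
        ≤ φ X + (2 * γ * (φ X * dens p c' X) - γ / 2 * (φ X * dens p (C v) X)) := by
      intro X
      set u := γ * dens p c' X with hu
      set w := γ * dens p (C v) X with hw
      have hu0 : 0 ≤ u := mul_nonneg hγ0.le (dens_nonneg hp0.le hp1.le _ _)
      have hw0 : 0 ≤ w := mul_nonneg hγ0.le (dens_nonneg hp0.le hp1.le _ _)
      have hu1 : u ≤ 1 := (mul_le_mul_of_nonneg_left (dens_le hM0 hc' X) hγ0.le).trans hγM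
      have hw1 : w ≤ 1 := (mul_le_mul_of_nonneg_left (dens_le hM0 (hC v) X) hγ0.le).trans hγM
      have e1 : Real.exp u ≤ 1 + 2 * u := by
        have := Real.abs_exp_sub_one_le (x := u) (by rw [abs_of_nonneg hu0]; exact hu1)
        rw [abs_of_nonneg hu0] at this
        have := (abs_le.mp this).2
        linarith
      have e2 : Real.exp (-w) ≤ 1 - w / 2 := by
        have h := Real.add_one_le_exp w
        rw [Real.exp_neg, inv_le_comm₀ (Real.exp_pos _) (by linarith)]
        refine le_trans ?_ h
        rw [inv_le_iff_one_le_mul₀ (by linarith)]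
        nlinarith
      have e3 : Real.exp (γ * (L X - dens p (C v) X + dens p c' X))
          = φ X * (Real.exp u * Real.exp (-w)) := by
        simp only [φ]
        rw [← Real.exp_add, ← Real.exp_add]; congr 1; rw [hu, hw]; ring
      have e4 : Real.exp u * Real.exp (-w) ≤ 1 + 2 * u - w / 2 := by
        have := mul_le_mul e1 e2 (Real.exp_pos _).le (by linarith)
        nlinarith
      rw [e3]
      have := mul_le_mul_of_nonneg_left e4 (hφ X).le
      rw [hu, hw] at this
      linarith
    have h4 := Ex_mono hp0.le hp1.le h3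
    rw [Ex_add, Ex_sub, Ex_const_mul, Ex_const_mul] at h4
    have h5 : γ * Ex p (fun X => φ X * dens p (C v) X)
        ≤ γ * (4 * Ex p (fun X => φ X * dens p c' X)) := by
      have : Ex p φ ≤ _ := h1.trans h4
      linarith
    exact le_of_mul_le_mul_left h5 hγ0
  have hlay := layer_cake (univ : Finset B) (univ : Finset (A → Bool)) (fun _ => 1)
    (fun v => Ex p (fun X => φ X * dens p (C v) X) / 8)
    (fun X => 8 * n' * bernoulliWeight p X) φ
    (fun v _ => div_nonneg (Ex_nonneg hp0.le hp1.le fun X =>
      mul_nonneg (hφ X).le (dens_nonneg hp0.le hp1.le _ _)) (by norm_num))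
    (fun X _ => (hφ X).le) (by
      intro s hs
      have h1 := card_bad_le N D hp0 hp1 hn' hD hB hspread hM {X | φ X ≤ s}
        (univ.filter (fun v => s < Ex p (fun X => φ X * dens p (C v) X) / 8)) (by
          rintro v hv ⟨c', hc', hsub⟩
          have h2 := local_opt v c' hc'
          have h3 : Ex p (fun X => φ X * dens p c' X) ≤ 2 * s := by
            have h4 : ∀ i, Ex p (fun X => indic (c' i) X / bernoulliProb p (c' i)) = 1 := by
              intro i
              have h5 : 0 < bernoulliProb p (c' i) := lt_of_lt_of_le (by positivity) (hc'.1 i)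
              simp_rw [div_eq_mul_inv]
              rw [Ex_mul_const, Ex_indic, mul_inv_cancel₀ h5.ne']
            calc _ ≤ Ex p (fun X => s * dens p c' X) := by
                  refine Ex_mono hp0.le hp1.le fun X => ?_
                  unfold dens
                  rw [Finset.mul_sum, Finset.mul_sum]
                  refine Finset.sum_le_sum fun i _ => ?_
                  by_cases hX : X ∈ c' i
                  · exact mul_le_mul_of_nonneg_right (hsub i hX)
                      (div_nonneg (indic_nonneg _ _) (prob_nonneg hp0.le hp1.le _))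
                  · simp [indic, hX]
              _ = 2 * s := by
                  rw [Ex_const_mul]
                  unfold dens
                  rw [Ex_sum]
                  simp [h4, mul_comm]
          have := (Finset.mem_filter.mp hv).2
          linarith)
      rw [← Finset.sum_filter, Finset.sum_const, nsmul_eq_mul, mul_one]
      refine h1.trans (le_of_eq ?_)
      rw [← prob_compl, prob_eq_Ex, Ex, Finset.mul_sum]
      refine Finset.sum_congr rfl fun X _ => ?_
      by_cases hX : s < φ X
      · simp [hX]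
      · simp [hX])
  have hE : Ex p (fun X => φ X * L X) ≤ 64 * n' * Ex p φ := by
    have e1 : Ex p (fun X => φ X * L X) = ∑ v, Ex p (fun X => φ X * dens p (C v) X) := by
      rw [← Ex_sum]; simp only [L, Finset.mul_sum]
    have e2 : ∑ X, 8 * n' * bernoulliWeight p X * φ X = 8 * n' * Ex p φ := by
      rw [Ex, Finset.mul_sum]; exact Finset.sum_congr rfl fun _ _ => by ring
    simp only [one_mul] at hlay
    rw [← Finset.sum_div, e2, ← e1] at hlay
    linarith
  have hpt : ∀ X, n' * Real.exp (65 * β) * indic {X | 65 * n' ≤ L X} X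
      - 64 * n' * Real.exp (64 * β) ≤ φ X * L X - 64 * n' * φ X := by
    intro X
    have hE64 : 0 < 64 * n' * Real.exp (64 * β) := by positivity
    by_cases h65 : 65 * n' ≤ L X
    · have h1 : Real.exp (65 * β) ≤ φ X := by
        refine Real.exp_le_exp.mpr ?_
        have : γ * (65 * n') = 65 * β := by rw [hγ]; field_simp
        rw [← this]; exact mul_le_mul_of_nonneg_left h65 hγ0.le
      have h2 : indic {X | 65 * n' ≤ L X} X = 1 := by simp [indic, h65]
      rw [h2]
      have h3 := mul_le_mul_of_nonneg_left h65 (hφ X).le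
      have h4 := mul_le_mul_of_nonneg_left h1 hn'.le
      linarith
    · have h2 : indic {X | 65 * n' ≤ L X} X = 0 := by simp [indic, h65]
      rw [h2]
      by_cases h64 : 64 * n' ≤ L X
      · have h3 := mul_le_mul_of_nonneg_left h64 (hφ X).le
        linarith
      · have h1 : φ X ≤ Real.exp (64 * β) := by
          refine Real.exp_le_exp.mpr ?_
          have : γ * (64 * n') = 64 * β := by rw [hγ]; field_simp
          rw [← this]; exact mul_le_mul_of_nonneg_left (not_le.mp h64).le hγ0.le
        have h3 := mul_nonneg (hφ X).le (hL X)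
        have h4 := mul_le_mul_of_nonneg_left h1 hn'.le
        linarith
  have h9 := Ex_mono hp0.le hp1.le hpt
  rw [Ex_sub, Ex_sub, Ex_const_mul, Ex_const, Ex_const_mul, Ex_indic] at h9
  have h10 : n' * Real.exp (65 * β) * bernoulliProb p {X | 65 * n' ≤ L X}
      ≤ n' * Real.exp (65 * β) * (64 * Real.exp (-β)) := by
    have : Real.exp (65 * β) * Real.exp (-β) = Real.exp (64 * β) := by
      rw [← Real.exp_add]; congr 1; ring
    calc _ ≤ 64 * n' * Real.exp (64 * β) := by linarith
      _ = _ := by rw [← this]; ring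
  exact le_of_mul_le_mul_left h10 (by positivity)

open Classical in
theorem typeI_rows {R : Type} [Fintype R] [DecidableEq R]
    (N : B → Finset A) {p n' M β : ℝ} (D : ℕ) (hp0 : 0 < p) (hp1 : p < 1)
    (hn' : 0 < n') (hD : ∀ v, (N v).card ≤ D) (hB : (Fintype.card B : ℝ) ≤ n')
    (hspread : ∀ K : Finset A, K.Nonempty →
      ((univ.filter (fun v => K ⊆ N v)).card : ℝ) ≤ n' * p ^ K.card)
    (hM : 16 * (2 / p ^ 2) ^ D ≤ M) (hβ0 : 0 < β) (hβ : 2 * β * M ≤ n')
    (hR : 130 * n' ≤ Fintype.card R) :
    ∃ side : B → A → Bool, ∀ i : Bool,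
      1 - (Fintype.card R * (64 * Real.exp (-β))
        + Fintype.card B * Real.exp (-(Fintype.card R / (8 * M)))) ≤
      ExRows p (fun X : R → A → Bool => if ∃ ψ : B → R, Function.Injective ψ ∧
        ∀ v, ∀ a ∈ N v, side v a = i → X (ψ v) a = true then 1 else 0) := by
  have hM0 : 0 < M := lt_of_lt_of_le (by positivity) hM
  obtain ⟨C, hC, hload⟩ := exists_config N D hp0 hp1 hn' hD hB hspread hM hβ0 hβ
  refine ⟨fun v a => decide (∀ X ∈ C v true, X a = true), fun i => ?_⟩
  set ρ : ℝ := (Fintype.card R : ℝ) with hρ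
  let μ : B → ℝ := fun v => bernoulliProb p (C v i)
  have hμ : ∀ v, 1 / M ≤ μ v := fun v => (hC v).1 i
  have hμ0 : ∀ v, 0 < μ v := fun v => lt_of_lt_of_le (by positivity) (hμ v)
  let Bad : Set (A → Bool) := {X | 65 * n' ≤ ∑ v, dens p (C v) X}
  have hpt : ∀ X : R → A → Bool, 1 - (∑ x, indic Bad (X x)
      + ∑ v, Real.exp (ρ * μ v / 2) * ∏ x, Real.exp (-indic (C v i) (X x)))
      ≤ if ∃ ψ : B → R, Function.Injective ψ ∧ ∀ v, ∀ a ∈ N v,
        decide (∀ X ∈ C v true, X a = true) = i → X (ψ v) a = true then 1 else 0 := by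
    intro X
    have hs1 : 0 ≤ ∑ x, indic Bad (X x) := Finset.sum_nonneg fun x _ => indic_nonneg _ _
    have ht : ∀ v, 0 ≤ Real.exp (ρ * μ v / 2) * ∏ x, Real.exp (-indic (C v i) (X x)) :=
      fun v => by positivity
    have hs2 := Finset.sum_nonneg fun v (_ : v ∈ univ) => ht v
    split_ifs with hψ
    · linarith
    by_contra hlt
    apply hψ
    have g1 : ∀ x, ∑ v, dens p (C v) (X x) ≤ 65 * n' := by
      intro x
      by_contra h
      have h1 : indic Bad (X x) = 1 := by simp [indic, Bad, (not_le.mp h).le]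
      have := Finset.single_le_sum (fun x _ => indic_nonneg Bad (X x)) (mem_univ x)
      linarith
    have g2 : ∀ v, ρ * μ v / 2 ≤ ∑ x, indic (C v i) (X x) := by
      intro v
      by_contra h
      have h1 : 1 ≤ Real.exp (ρ * μ v / 2) * ∏ x, Real.exp (-indic (C v i) (X x)) := by
        rw [← Real.exp_sum, ← Real.exp_add, Finset.sum_neg_distrib]
        exact Real.one_le_exp (by linarith)
      have := Finset.single_le_sum (fun v _ => ht v) (mem_univ v)
      linarith
    let t : B → Finset R := fun v => univ.filter (fun x => X x ∈ C v i)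
    obtain ⟨ψ, hψ1, hψ2⟩ := (Finset.all_card_le_biUnion_card_iff_exists_injective t).mp (by
      intro T
      have h1 : (T.card : ℝ) * (65 * n') ≤ ∑ v ∈ T, ∑ x, indic (C v i) (X x) / μ v := by
        rw [← nsmul_eq_mul, ← Finset.sum_const]
        refine Finset.sum_le_sum fun v _ => ?_
        rw [← Finset.sum_div, le_div_iff₀ (hμ0 v)]
        have := mul_le_mul_of_nonneg_right hR (hμ0 v).le
        linarith [g2 v]
      have h2 : ∑ v ∈ T, ∑ x, indic (C v i) (X x) / μ v
          ≤ ((T.biUnion t).card : ℝ) * (65 * n') := by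
        rw [Finset.sum_comm, ← Finset.sum_subset (Finset.subset_univ (T.biUnion t))]
        · rw [← nsmul_eq_mul, ← Finset.sum_const]
          refine Finset.sum_le_sum fun x _ => le_trans ?_ (g1 x)
          refine le_trans (Finset.sum_le_sum fun v _ => ?_)
            (Finset.sum_le_sum_of_subset_of_nonneg (Finset.subset_univ T)
              fun v _ _ => dens_nonneg hp0.le hp1.le _ _)
          exact Finset.single_le_sum (f := fun j => indic (C v j) (X x) / bernoulliProb p (C v j))
            (fun j _ => div_nonneg (indic_nonneg _ _) (prob_nonneg hp0.le hp1.le _)) (mem_univ i)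
        · intro x _ hx
          refine Finset.sum_eq_zero fun v hv => ?_
          have : X x ∉ C v i := fun h =>
            hx (Finset.mem_biUnion.mpr ⟨v, hv, Finset.mem_filter.mpr ⟨mem_univ _, h⟩⟩)
          simp [indic, this]
      have := le_of_mul_le_mul_right (h1.trans h2) (by positivity)
      exact_mod_cast this)
    refine ⟨ψ, hψ1, fun v a ha hs => ?_⟩
    have hmem : X (ψ v) ∈ C v i := (Finset.mem_filter.mp (hψ2 v)).2
    cases i
    · rcases (hC v).2 a ha with h | h
      · simp at hs; obtain ⟨Y, hY, hYa⟩ := hs; rw [h Y hY] at hYa; exact absurd hYa (by simp)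
      · exact h _ hmem
    · exact (of_decide_eq_true hs) _ hmem
  refine le_trans ?_ (ExRows_mono hp0.le hp1.le hpt)
  rw [ExRows_sub, ExRows_add, ExRows_const, ExRows_sum, ExRows_sum]
  refine sub_le_sub_left (add_le_add ?_ ?_) _
  · simp_rw [ExRows_row, Ex_indic]
    rw [Finset.sum_const, nsmul_eq_mul, Finset.card_univ]
    exact mul_le_mul_of_nonneg_left hload (Nat.cast_nonneg _)
  · rw [← Finset.card_univ, ← nsmul_eq_mul, ← Finset.sum_const]
    refine Finset.sum_le_sum fun v _ => ?_
    rw [ExRows_const_mul, ExRows_prod p (fun _ Y => Real.exp (-indic (C v i) Y)),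
      Finset.prod_const, Finset.card_univ]
    have h1 : Ex p (fun Y => Real.exp (-indic (C v i) Y)) ≤ Real.exp (-(5 / 8 * μ v)) := by
      have h2 : Real.exp (-1) ≤ 3 / 8 := by
        rw [Real.exp_neg, inv_le_comm₀ (Real.exp_pos _) (by norm_num)]
        exact le_trans (by norm_num) Real.exp_one_gt_d9.le
      calc _ ≤ Ex p (fun Y => 1 - 5 / 8 * indic (C v i) Y) := by
            refine Ex_mono hp0.le hp1.le fun Y => ?_
            unfold indic; split_ifs
            · linarith
            · simp
        _ = -(5 / 8 * μ v) + 1 := by rw [Ex_sub, Ex_const, Ex_const_mul, Ex_indic]; ring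
        _ ≤ _ := Real.add_one_le_exp _
    have h3 := pow_le_pow_left₀ (Ex_nonneg hp0.le hp1.le fun Y => (Real.exp_pos _).le) h1
      (Fintype.card R)
    refine (mul_le_mul_of_nonneg_left h3 (Real.exp_pos _).le).trans ?_
    rw [← Real.exp_nat_mul, ← Real.exp_add, Real.exp_le_exp, ← hρ]
    have hρ0 : 0 ≤ ρ := Nat.cast_nonneg _
    have h4 : ρ / (8 * M) = ρ * (1 / M) / 8 := by field_simp
    have h5 := mul_le_mul_of_nonneg_left (hμ v) hρ0
    rw [h4]; linarith

end

end Crest.Agent.R52
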